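import Vale.Agent.P267P.Defs

/-! Pure algebra. M = functions on the triangles with integer values, bd : M → (ι → ι → ℤ) linear. M / ker bd embeds in a free module, so it is free (Module.free_of_finite_type_torsion_free') and the projection splits: M = ker ⊕ M'. Define m on ker by a, zero on M'. a - m vanishes on ker bd, factors through range bd and extends to all of ι → ι → ℤ because ℂ is divisible (Module.Baer.of_divisible, Module.Baer.extension_property); or tensor with ℂ and use linear algebra (LinearMap.exists_extend, range_dualMap_eq_dualAnnihilator_ker). -/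

open scoped Manifold ContDiff Topology
open Filter MeasureTheory Set

noncomputable section

namespace Vale.Agent.P267P

open Vale.Agent.P267F Vale.Agent.P267I

set_option linter.unusedSectionVars false

variable {X : Type} [TopologicalSpace X] [ChartedSpace C2 X] [IsManifold 𝓘(ℂ, C2) ω X] [T2Space X]
  [CompactSpace X] {k d : ℕ}

theorem b5_gen {Q : Type} [AddCommGroup Q] [DivisibleBy Q ℤ] {ι : Type} [Fintype ι] [DecidableEq ι]
    (t : ι → ι → ι → Prop) (a : ι → ι → ι → Q)
    (h : ∀ z : ι → ι → ι → ℤ, (∀ i j l, ¬ t i j l → z i j l = 0) →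
      (∀ p q, ∑ i, z i p q - ∑ j, z p j q + ∑ l, z p q l = 0) →
      ∑ i, ∑ j, ∑ l, z i j l • a i j l = 0) :
    ∃ c : ι → ι → Q, ∀ i j l, t i j l → a i j l = c j l - c i l + c i j := by
  classical
  let Φ : (ι → ι → ι → ℤ) →ₗ[ℤ] (ι → ι → ℤ) × (ι → ι → ι → ℤ) :=
    { toFun := fun z => (fun p q => ∑ i, z i p q - ∑ j, z p j q + ∑ l, z p q l,
        fun i j l => if t i j l then 0 else z i j l)
      map_add' := fun x y => by
        refine Prod.ext ?_ ?_
        · funext p q
          simp only [Pi.add_apply, Prod.fst_add, Finset.sum_add_distrib]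
          ring
        · funext i j l
          simp only [Pi.add_apply, Prod.snd_add]
          split_ifs <;> simp
      map_smul' := fun c x => by
        refine Prod.ext ?_ ?_
        · funext p q
          simp only [Pi.smul_apply, Prod.smul_fst, smul_eq_mul, RingHom.id_apply, mul_add, mul_sub,
            Finset.mul_sum]
        · funext i j l
          simp only [Pi.smul_apply, Prod.smul_snd, smul_eq_mul, RingHom.id_apply]
          split_ifs <;> simp }
  let α : (ι → ι → ι → ℤ) →ₗ[ℤ] Q :=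
    { toFun := fun z => ∑ i, ∑ j, ∑ l, z i j l • a i j l
      map_add' := fun x y => by
        simp only [Pi.add_apply, add_smul, Finset.sum_add_distrib]
      map_smul' := fun c x => by
        simp only [Pi.smul_apply, smul_eq_mul, RingHom.id_apply, Finset.smul_sum, mul_smul] }
  have hk : LinearMap.ker Φ ≤ LinearMap.ker α := fun z hz => by
    have h1 : Φ z = 0 := hz
    refine h z (fun i j l ht => ?_) fun p q => congrFun (congrFun (congrArg Prod.fst h1) p) q
    have h2 : (if t i j l then 0 else z i j l) = 0 :=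
      congrFun (congrFun (congrFun (congrArg Prod.snd h1) i) j) l
    rwa [if_neg ht] at h2
  obtain ⟨β, hβ⟩ := (Module.Baer.of_divisible Q).extension_property
    ((LinearMap.ker Φ).liftQ Φ le_rfl)
    (LinearMap.ker_eq_bot.1 (Submodule.ker_liftQ_eq_bot _ _ _ le_rfl)) ((LinearMap.ker Φ).liftQ α hk)
  have hb : ∀ z, β (Φ z) = α z := fun z => LinearMap.congr_fun hβ (Submodule.Quotient.mk z)
  let e : ι → ι → (ι → ι → ℤ) × (ι → ι → ι → ℤ) := fun p q =>
    (fun p' q' => if p' = p ∧ q' = q then 1 else 0, 0)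
  refine ⟨fun p q => β (e p q), fun i j l ht => ?_⟩
  have h1 := hb fun i' j' l' => if i' = i ∧ j' = j ∧ l' = l then 1 else 0
  have h2 : Φ (fun i' j' l' => if i' = i ∧ j' = j ∧ l' = l then 1 else 0) =
      e j l - e i l + e i j := by
    refine Prod.ext ?_ ?_
    · funext p q
      by_cases h3 : p = i <;> by_cases h4 : p = j <;> by_cases h5 : q = j <;> by_cases h6 : q = l <;>
        simp [Φ, e, h3, h4, h5, h6, ite_and]
    · funext i' j' l'
      simp only [Φ, e, LinearMap.coe_mk, AddHom.coe_mk, Prod.snd_add, Prod.snd_sub, sub_self,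
        add_zero, Pi.zero_apply]
      split_ifs with h3 h4
      · rfl
      · obtain ⟨rfl, rfl, rfl⟩ := h4
        exact absurd ht h3
      · rfl
  have h3 : α (fun i' j' l' => if i' = i ∧ j' = j ∧ l' = l then 1 else 0) = a i j l := by
    simp [α, ite_and]
  rw [h2, h3, map_add, map_sub] at h1
  exact h1.symm

theorem split_int {ι : Type} [Fintype ι] [DecidableEq ι] (t : ι → ι → ι → Prop) (a : ι → ι → ι → ℂ)
    (h : ∀ z : ι → ι → ι → ℤ, (∀ i j l, ¬ t i j l → z i j l = 0) →
      (∀ p q, ∑ i, z i p q - ∑ j, z p j q + ∑ l, z p q l = 0) →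
      ∃ d : ℤ, ∑ i, ∑ j, ∑ l, (z i j l : ℂ) * a i j l = d) :
    ∃ (m : ι → ι → ι → ℤ) (c : ι → ι → ℂ), ∀ i j l, t i j l →
      a i j l = m i j l + (c j l - c i l + c i j) := by
  let Z : AddSubgroup ℂ := AddSubgroup.zmultiples 1
  have hZ : ∀ x : ℂ, (QuotientAddGroup.mk' Z) x = 0 ↔ ∃ d : ℤ, x = d := fun x => by
    rw [QuotientAddGroup.mk'_apply, QuotientAddGroup.eq_zero_iff, AddSubgroup.mem_zmultiples_iff]
    simp [eq_comm]
  letI : DivisibleBy ℂ ℕ := AddGroup.divisibleByNatOfDivisibleByInt ℂ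
  letI : DivisibleBy (ℂ ⧸ Z) ℤ := AddGroup.divisibleByIntOfDivisibleByNat _
  obtain ⟨c, hc⟩ := b5_gen t (fun i j l => QuotientAddGroup.mk' Z (a i j l)) fun z h1 h2 => by
    have h3 := (hZ _).2 (h z h1 h2)
    simpa only [map_sum, ← zsmul_eq_mul, map_zsmul] using h3
  choose c' hc' using fun p q => QuotientAddGroup.mk'_surjective Z (c p q)
  have h4 : ∀ i j l, ∃ d : ℤ, t i j l → a i j l = d + (c' j l - c' i l + c' i j) := by
    intro i j l
    by_cases ht : t i j l
    · obtain ⟨d, hd⟩ := (hZ (a i j l - (c' j l - c' i l + c' i j))).1 (by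
        rw [map_sub, map_add, map_sub, hc', hc', hc', ← hc i j l ht, sub_self])
      exact ⟨d, fun _ => by rw [← hd]; ring⟩
    · exact ⟨0, fun h => absurd h ht⟩
  choose m hm using h4
  exact ⟨m, c', hm⟩

theorem split_zero {ι : Type} [Fintype ι] [DecidableEq ι] (t : ι → ι → ι → Prop) (a : ι → ι → ι → ℂ)
    (h : ∀ z : ι → ι → ι → ℤ, (∀ i j l, ¬ t i j l → z i j l = 0) →
      (∀ p q, ∑ i, z i p q - ∑ j, z p j q + ∑ l, z p q l = 0) →
      ∑ i, ∑ j, ∑ l, (z i j l : ℂ) * a i j l = 0) :
    ∃ c : ι → ι → ℂ, ∀ i j l, t i j l → a i j l = c j l - c i l + c i j :=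
  b5_gen t a fun z h1 h2 => by simpa only [zsmul_eq_mul] using h z h1 h2

theorem pair_cob {ι : Type} [Fintype ι] (z : ι → ι → ι → ℤ) (c : ι → ι → ℂ)
    (h : ∀ p q, ∑ i, z i p q - ∑ j, z p j q + ∑ l, z p q l = 0) :
    ∑ i, ∑ j, ∑ l, (z i j l : ℂ) * (c j l - c i l + c i j) = 0 := by
  have h0 : ∑ p, ∑ q, (∑ i, (z i p q : ℂ) * c p q - ∑ j, (z p j q : ℂ) * c p q +
      ∑ l, (z p q l : ℂ) * c p q) = 0 :=
    Finset.sum_eq_zero fun p _ => Finset.sum_eq_zero fun q _ => by
      have h1 := congrArg (Int.cast : ℤ → ℂ) (h p q)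
      push_cast at h1
      rw [← Finset.sum_mul, ← Finset.sum_mul, ← Finset.sum_mul, ← sub_mul, ← add_mul, h1, zero_mul]
  have h1 : ∑ i, ∑ j, ∑ l, (z i j l : ℂ) * c j l = ∑ p, ∑ q, ∑ i, (z i p q : ℂ) * c p q := by
    rw [Finset.sum_comm]
    exact Finset.sum_congr rfl fun p _ => Finset.sum_comm
  have h2 : ∑ i, ∑ j, ∑ l, (z i j l : ℂ) * c i l = ∑ p, ∑ q, ∑ j, (z p j q : ℂ) * c p q :=
    Finset.sum_congr rfl fun p _ => Finset.sum_comm
  simp only [mul_add, mul_sub, Finset.sum_add_distrib, Finset.sum_sub_distrib] at h0 ⊢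
  rw [h1, h2]
  exact h0

end Vale.Agent.P267P
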