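import Vale.Agent.P267P.F2

/-! Functions times forms. Leibniz rule: fderiv of (f • u) and alternatizeUncurryFin_add, alternatizeUncurryFin_apply. The formulas in low degree: alternatizeUncurryFin_apply, Fin.sum_univ_succ, Fin.removeNth. -/

open scoped Manifold ContDiff Topology
open Filter MeasureTheory Set

noncomputable section

namespace Vale.Agent.P267P

open Vale.Agent.P267F Vale.Agent.P267I

set_option linter.unusedSectionVars false

variable {X : Type} [TopologicalSpace X] [ChartedSpace C2 X] [IsManifold 𝓘(ℂ, C2) ω X] [T2Space X]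
  [CompactSpace X] {k d : ℕ}

theorem f3_loc (f : X → ℂ) (x : X) : loc x (f0 f) = fun z =>
    ContinuousAlternatingMap.constOfIsEmpty ℝ C2 (Fin 0) ((f ∘ (chartAt C2 x).symm) z) := by
  funext z
  ext v
  rfl

theorem f3_f0 {f : X → ℂ} {x : X} : SmA (f0 f) x ↔ SmAt f x := by
  rw [SmA, f3_loc]
  exact eventually_congr (Eventually.of_forall fun z =>
    (ContinuousAlternatingMap.constOfIsEmptyLIE ℝ C2 ℂ
      (Fin 0)).toContinuousLinearEquiv.comp_contDiffAt_iff)

theorem f3_fs (f : X → ℂ) (w : Fm X k) (x : X) :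
    loc x (fs f w) = fun z => (f ∘ (chartAt C2 x).symm) z • loc x w z := by
  funext z
  ext v
  rfl

theorem f3_wd (f : X → ℂ) (w : Fm X k) (x : X) (v : Fin (k + 1) → C2) : wd f w x v =
    ∑ i : Fin (k + 1), (-1) ^ (i : ℕ) • (dAt f x (v i) * w x (Fin.removeNth i v)) := by
  rw [wd, ContinuousAlternatingMap.alternatizeUncurryFin_apply]
  rfl

theorem smAt_ev {f : X → ℂ} {x : X} (h : SmAt f x) : ∀ᶠ y in 𝓝 x, SmAt f y := by
  exact (f3_f0.2 h).eventually.mono fun _ => f3_f0.1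

theorem smAt_cont {f : X → ℂ} {x : X} (h : SmAt f x) : ContinuousAt f x := by
  have hx := mem_chart_source C2 x
  refine (ContinuousAt.comp (f := chartAt C2 x) h.self_of_nhds.continuousAt
    ((chartAt C2 x).continuousAt hx)).congr ?_
  exact Eventually.mono ((chartAt C2 x).open_source.mem_nhds hx) fun y hy =>
    congrArg f ((chartAt C2 x).left_inv hy)

theorem smAt_mul {f g : X → ℂ} {x : X} (h : SmAt f x) (h' : SmAt g x) : SmAt (f * g) x := by
  exact (h.and h').mono fun _ a => a.1.mul a.2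

theorem SmA.fs {f : X → ℂ} {w : Fm X k} {x : X} (hf : SmAt f x) (h : SmA w x) : SmA (fs f w) x := by
  rw [SmA, f3_fs]
  exact (hf.and h).mono fun _ a => a.1.smul a.2

theorem smA_f0 {f : X → ℂ} {x : X} : SmA (f0 f) x ↔ SmAt f x := by
  exact f3_f0

theorem f0_ev (w : Fm X 0) : f0 (ev w) = w := by
  funext x
  ext v
  exact congrArg (w x) (Subsingleton.elim _ _)

theorem ev_f0 (f : X → ℂ) : ev (f0 f) = f := by
  rfl

theorem dd_fs {f : X → ℂ} {w : Fm X k} {x : X} (hf : SmAt f x) (h : SmA w x) :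
    dd (fs f w) x = wd f w x + f x • dd w x := by
  have h1 := (hf.self_of_nhds.differentiableAt (by simp)).hasFDerivAt
  have h2 := (h.self_of_nhds.differentiableAt (by simp)).hasFDerivAt
  have h3 := (h1.fun_smul h2).fderiv
  rw [loc_self, Function.comp_apply, (chartAt C2 x).left_inv (mem_chart_source C2 x)] at h3
  rw [dd, dd, f3_fs, extDeriv, extDeriv, h3, ContinuousAlternatingMap.alternatizeUncurryFin_add,
    ContinuousAlternatingMap.alternatizeUncurryFin_smul]
  exact add_comm _ _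

theorem dd_f0 (f : X → ℂ) (x : X) (v : Fin 1 → C2) : dd (f0 f) x v = dAt f x (v 0) := by
  rw [dd, f3_loc, extDeriv_constOfIsEmpty]
  rfl

theorem wd_one (f : X → ℂ) (w : Fm X 1) (x : X) (v : Fin 2 → C2) :
    wd f w x v = dAt f x (v 0) * w x ![v 1] - dAt f x (v 1) * w x ![v 0] := by
  have e0 : Fin.removeNth 0 v = ![v 1] := by
    ext1 i
    fin_cases i
    rfl
  have e1 : Fin.removeNth 1 v = ![v 0] := by
    ext1 i
    fin_cases i
    rfl
  rw [f3_wd, Fin.sum_univ_two, e0, e1]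
  simp [sub_eq_add_neg]

theorem wd_two (f : X → ℂ) (w : Fm X 2) (x : X) (v : Fin 3 → C2) :
    wd f w x v = dAt f x (v 0) * w x ![v 1, v 2] - dAt f x (v 1) * w x ![v 0, v 2] +
      dAt f x (v 2) * w x ![v 0, v 1] := by
  have e0 : Fin.removeNth 0 v = ![v 1, v 2] := by
    ext1 i
    fin_cases i <;> rfl
  have e1 : Fin.removeNth 1 v = ![v 0, v 2] := by
    ext1 i
    fin_cases i <;> rfl
  have e2 : Fin.removeNth 2 v = ![v 0, v 1] := by
    ext1 i
    fin_cases i <;> rfl
  rw [f3_wd, Fin.sum_univ_three, e0, e1, e2]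
  simp [sub_eq_add_neg]

theorem wd_three (f : X → ℂ) (w : Fm X 3) (x : X) (v : Fin 4 → C2) :
    wd f w x v = dAt f x (v 0) * w x ![v 1, v 2, v 3] - dAt f x (v 1) * w x ![v 0, v 2, v 3] +
      dAt f x (v 2) * w x ![v 0, v 1, v 3] - dAt f x (v 3) * w x ![v 0, v 1, v 2] := by
  have e0 : Fin.removeNth 0 v = ![v 1, v 2, v 3] := by
    ext1 i
    fin_cases i <;> rfl
  have e1 : Fin.removeNth 1 v = ![v 0, v 2, v 3] := by
    ext1 i
    fin_cases i <;> rfl
  have e2 : Fin.removeNth 2 v = ![v 0, v 1, v 3] := by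
    ext1 i
    fin_cases i <;> rfl
  have e3 : Fin.removeNth 3 v = ![v 0, v 1, v 2] := by
    ext1 i
    fin_cases i <;> rfl
  rw [f3_wd, Fin.sum_univ_four, e0, e1, e2, e3]
  have e : ((3 : Fin 4) : ℕ) = 3 := rfl
  rw [e]
  simp [sub_eq_add_neg]

theorem Sys.sum_dAt (S : Sys X) (x : X) : ∑ i, dAt (S.ρ i) x = 0 := by
  simp only [dAt]
  rw [← fderiv_fun_sum fun i _ => (S.sm i x).self_of_nhds.differentiableAt (by simp)]
  simp only [Function.comp_apply, S.sum, fderiv_fun_const, Pi.zero_apply]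

theorem Sys.dAt_van (S : Sys X) (i : Fin S.n) {x : X} (h : x ∉ S.T i) : dAt (S.ρ i) x = 0 := by
  have hx := mem_chart_source C2 x
  have h1 : ∀ᶠ y in 𝓝 x, S.ρ i y = 0 :=
    Eventually.mono ((S.cpt i).isClosed.isOpen_compl.mem_nhds h) (S.van i)
  have h2 : S.ρ i ∘ (chartAt C2 x).symm =ᶠ[𝓝 (chartAt C2 x x)] fun _ => 0 :=
    ((chartAt C2 x).tendsto_symm hx).eventually h1
  rw [dAt, h2.fderiv_eq, fderiv_fun_const, Pi.zero_apply]

theorem Sys.sum_fs (S : Sys X) (w : Fm X k) : ∑ i, fs (S.ρ i) w = w := by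
  funext x
  simp only [Finset.sum_apply, fs, ← Finset.sum_smul, S.sum, one_smul]

end Vale.Agent.P267P
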