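import Vale.Agent.P267P.N0
import Vale.Agent.P267P.F3

/-! Existence of the system. -/

open scoped Manifold ContDiff Topology
open Filter MeasureTheory Set

noncomputable section

namespace Vale.Agent.P267P

open Vale.Agent.P267F Vale.Agent.P267I

set_option linter.unusedSectionVars false

variable {X : Type} [TopologicalSpace X] [ChartedSpace C2 X] [IsManifold 𝓘(ℂ, C2) ω X] [T2Space X]
  [CompactSpace X] {k d : ℕ}

theorem box_leb {X : Type} [MetricSpace X] [ChartedSpace C2 X] [IsManifold 𝓘(ℂ, C2) ω X]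
    [CompactSpace X] {δ : ℝ} (hδ : 0 < δ) : ∃ δ' > 0, δ' ≤ δ ∧ ∀ x : X, ∃ b : Box X,
      Metric.ball x δ' ⊆ b.O ∧ b.O ⊆ Metric.ball x δ := by
  have hb : ∀ p : X, ∃ b : Box X, b.x0 = p ∧ b.O ⊆ Metric.ball p (δ / 2) := fun p =>
    exists_box p (Metric.ball_mem_nhds p (half_pos hδ))
  choose b h1 h2 using hb
  obtain ⟨e, he, h3⟩ := lebesgue_number_lemma_of_metric (s := univ) (c := fun p => (b p).O)
    isCompact_univ (fun p => (b p).O_open) fun x _ =>
      mem_iUnion.2 ⟨x, by have := (b x).x0_mem.1; rwa [h1] at this⟩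
  refine ⟨min e δ, lt_min he hδ, min_le_right _ _, fun x => ?_⟩
  obtain ⟨p, hp⟩ := h3 x (mem_univ x)
  refine ⟨b p, (Metric.ball_subset_ball (min_le_left _ _)).trans hp, fun y hy => ?_⟩
  have k1 := Metric.mem_ball.1 (h2 p hy)
  have k2 := Metric.mem_ball.1 (h2 p (hp (Metric.mem_ball_self he)))
  have k3 := dist_triangle_right y x p
  rw [Metric.mem_ball]
  linarith

theorem sy_real : IsManifold 𝓘(ℝ, C2) ∞ X := by
  refine isManifold_of_contDiffOn _ _ _ fun e e' he he' => ?_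
  have h := (contDiffGroupoid ω 𝓘(ℂ, C2)).compatible he he'
  rw [contDiffGroupoid, mem_groupoid_of_pregroupoid] at h
  exact (ContDiffOn.of_le h.1 le_top).restrict_scalars ℝ

theorem exists_pou (U : X → Set X) (hU : ∀ x, U x ∈ 𝓝 x) :
    ∃ (n : ℕ) (t : Fin n → X) (ρ : Fin n → X → ℂ) (T : Fin n → Set X), (∀ i x, SmAt (ρ i) x) ∧
      (∀ i x, (ρ i x).im = 0) ∧ (∀ x, ∑ i, ρ i x = 1) ∧ (∀ i, IsCompact (T i)) ∧
      (∀ i, ∀ x ∉ T i, ρ i x = 0) ∧ ∀ i, T i ⊆ U (t i) := by
  have := sy_real (X := X)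
  obtain ⟨T, hT⟩ := isCompact_univ.elim_finite_subcover (fun x => interior (U x))
    (fun _ => isOpen_interior) fun x _ => Set.mem_iUnion.2 ⟨x, mem_interior_iff_mem_nhds.2 (hU x)⟩
  obtain ⟨χ, hχ⟩ := SmoothPartitionOfUnity.exists_isSubordinate (ι := Fin T.card) 𝓘(ℝ, C2)
    isClosed_univ (fun a => interior (U (T.equivFin.symm a))) (fun _ => isOpen_interior)
    fun x hx => by
      obtain ⟨y, k1, k2⟩ := Set.mem_iUnion₂.1 (hT hx)
      exact Set.mem_iUnion.2 ⟨T.equivFin ⟨y, k1⟩, by simpa using k2⟩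
  refine ⟨T.card, fun a => T.equivFin.symm a, fun a x => (χ a x : ℂ), fun a => tsupport (χ a),
    fun a x => ?_, fun a x => Complex.ofReal_im _, fun x => ?_,
    fun a => (isClosed_tsupport _).isCompact, fun a x hx => ?_,
    fun a => (hχ a).trans interior_subset⟩
  · filter_upwards [(chartAt C2 x).open_target.mem_nhds (mem_chart_target C2 x)] with z hz
    have k : ContMDiffAt 𝓘(ℝ, C2) 𝓘(ℝ, C2) ∞ (chartAt C2 x).symm z :=
      contMDiffOn_chart_symm.contMDiffAt ((chartAt C2 x).open_target.mem_nhds hz)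
    exact Complex.ofRealCLM.contDiff.contDiffAt.comp z
      (contMDiffAt_iff_contDiffAt.1 (((χ a).contMDiff _).comp z k))
  · have k := χ.sum_eq_one (Set.mem_univ x)
    rw [finsum_eq_sum_of_fintype] at k
    simp only [← Complex.ofReal_sum, k, Complex.ofReal_one]
  · simp only [image_eq_zero_of_notMem_tsupport hx, Complex.ofReal_zero]

theorem sy_met {X : Type} [MetricSpace X] [ChartedSpace C2 X] [IsManifold 𝓘(ℂ, C2) ω X]
    [CompactSpace X] [Nonempty X] : Nonempty (Sys X) := by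
  obtain ⟨δB, hB0, -, hB⟩ := box_leb (X := X) one_pos
  obtain ⟨δV, hV0, hV1, hV⟩ := box_leb (X := X) (δ := δB / 4) (by positivity)
  obtain ⟨δW, hW0, hW1, hW⟩ := box_leb (X := X) (δ := δV / 4) (by positivity)
  choose B hB1 _ using hB
  choose V hV2 hV3 using hV
  choose W hW2 hW3 using hW
  obtain ⟨n, t, ρ, T, h1, h2, h3, h4, h5, h6⟩ := exists_pou (X := X)
    (fun x => Metric.ball x (δW / 2)) fun x => Metric.ball_mem_nhds x (half_pos hW0)
  have ht : ∀ {i x}, x ∈ T i → dist x (t i) < δW / 2 := fun {i x} hx => h6 i hx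
  have hd : ∀ {i x y}, x ∈ T i → y ∈ T i → dist x y < δW := fun {i x y} hx hy => by
    have := dist_triangle_right x y (t i)
    have := ht hx
    have := ht hy
    linarith
  have hy : ∀ S : Set X, ∃ y, S.Nonempty → y ∈ S := fun S =>
    ⟨Classical.epsilon fun y => y ∈ S, fun h => Classical.epsilon_spec h⟩
  choose y hy using hy
  have hVB : ∀ {i x z}, z ∈ T i → x ∈ (V z).O → x ∈ (B (t i)).O := fun {i x z} hz hx => by
    refine hB1 _ (Metric.mem_ball.2 ?_)
    have := dist_triangle x z (t i)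
    have := ht hz
    have := Metric.mem_ball.1 (hV3 _ hx)
    linarith
  have hWV : ∀ {i x z z'}, z ∈ T i → z' ∈ T i → x ∈ (W z).O → x ∈ (V z').O :=
    fun {i x z z'} hz hz' hx => by
    refine hV2 _ (Metric.mem_ball.2 ?_)
    have := dist_triangle x z z'
    have := hd hz hz'
    have := Metric.mem_ball.1 (hW3 _ hx)
    linarith
  refine ⟨⟨n, ρ, T, fun i => B (t i), fun i j => V (y (T i ∩ T j)),
    fun i j l => W (y (T i ∩ T j ∩ T l)), h1, h2, h3, h4, h5, fun i x hx => ?_,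
    fun i j x hx => ?_, fun i j h x hx => ?_, fun i j l x hx => ?_, fun i j l h x hx => ?_⟩⟩
  · refine hB1 _ (Metric.mem_ball.2 ?_)
    have := ht hx
    linarith
  · refine hV2 _ (Metric.mem_ball.2 ?_)
    have := hd hx.1 (hy _ ⟨x, hx⟩).1
    linarith
  · exact ⟨hVB (hy _ h).1 hx, hVB (hy _ h).2 hx⟩
  · exact hW2 _ (Metric.mem_ball.2 (hd hx.2 (hy _ ⟨x, hx⟩).2))
  · have k := hy _ h
    exact ⟨⟨hWV k.1.1 (hy _ ⟨_, k.1⟩).1 hx, hWV k.2 (hy (T j ∩ T l) ⟨_, k.1.2, k.2⟩).2 hx⟩,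
      hWV k.2 (hy (T i ∩ T l) ⟨_, k.1.1, k.2⟩).2 hx⟩

theorem exists_sys [Nonempty X] : Nonempty (Sys X) := by
  have : SecondCountableTopology X := ChartedSpace.secondCountable_of_sigmaCompact C2 X
  let _ : MetricSpace X := TopologicalSpace.metrizableSpaceMetric X
  exact sy_met

end Vale.Agent.P267P
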