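import Vale.Agent.P267P.F3

/-! Bridge to the forms of the statement. inChart2 (chartAt p) (toF2 w) z v v' = loc p w z ![v, v']; extDeriv_apply; smoothness of alternating-map valued functions in finite dimension by evaluation (a form is the finite sum of its coefficients times constant forms). of_closed: w x = the alternating map of the bilinear map B (alternatizeUncurryFin of v ↦ (1/2) B v as a one-form, or ContinuousMultilinearMap construction; ContinuousAlternatingMap.ofSubsingletonLIE). -/

open scoped Manifold ContDiff Topology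
open Filter MeasureTheory Set

noncomputable section

namespace Vale.Agent.P267P

open Vale.Agent.P267F Vale.Agent.P267I

set_option linter.unusedSectionVars false

variable {X : Type} [TopologicalSpace X] [ChartedSpace C2 X] [IsManifold 𝓘(ℂ, C2) ω X] [T2Space X]
  [CompactSpace X] {k d : ℕ}

theorem tb_span : Submodule.span ℝ (Set.range bs) = ⊤ := by
  refine Submodule.eq_top_iff'.2 fun v => ?_
  have e : v = (v 0).re • bs 0 + (v 0).im • bs 1 + (v 1).re • bs 2 + (v 1).im • bs 3 := by
    funext i
    fin_cases i <;> apply Complex.ext <;> simp [bs]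
  rw [e]
  refine Submodule.add_mem _ (Submodule.add_mem _ (Submodule.add_mem _ ?_ ?_) ?_) ?_ <;>
    exact Submodule.smul_mem _ _ (Submodule.subset_span ⟨_, rfl⟩)

/-- The coefficients of an alternating map. -/
def tb_ev (k : ℕ) : Al k →ₗ[ℝ] ((Fin k → Fin 4) → ℂ) where
  toFun a v := a fun i => bs (v i)
  map_add' _ _ := rfl
  map_smul' _ _ := rfl

theorem tb_ker (k : ℕ) : LinearMap.ker (tb_ev k) = ⊥ := by
  refine LinearMap.ker_eq_bot'.2 fun a ha => ?_
  have h : a.toContinuousMultilinearMap.toMultilinearMap = 0 :=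
    MultilinearMap.ext_of_span_eq_top (γ := fun _ => Fin 4) (g := fun _ j => bs j)
      (fun _ => tb_span) fun j => congrFun ha j
  ext v
  exact DFunLike.congr_fun h v

theorem sm_of_eval {E : Type} [NormedAddCommGroup E] [NormedSpace ℝ E] {u : E → Al k} {z : E}
    {n : WithTop ℕ∞} (h : ∀ v : Fin k → Fin 4, ContDiffAt ℝ n (fun y => u y fun i => bs (v i)) z) :
    ContDiffAt ℝ n u z := by
  obtain ⟨g, hg⟩ := (tb_ev k).exists_leftInverse_of_injective (tb_ker k)
  have e : u = fun y => LinearMap.toContinuousLinearMap g (tb_ev k (u y)) := by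
    funext y
    exact (LinearMap.congr_fun hg (u y)).symm
  rw [e]
  exact (LinearMap.toContinuousLinearMap g).contDiff.contDiffAt.comp z (contDiffAt_pi.2 h)

theorem tb_app {u : C2 → Al k} {z : C2} (h : ContDiffAt ℝ ∞ u z) (v : Fin k → C2) :
    ContDiffAt ℝ ∞ (fun y => u y v) z :=
  (ContinuousAlternatingMap.apply ℝ C2 ℂ v).contDiff.contDiffAt.comp z h

theorem tb_loc (w : Fm X 2) (p : X) (z v v' : C2) :
    inChart2 (chartAt C2 p) (toF2 w) z v v' = loc p w z ![v, v'] := by
  simp only [inChart2, toF2, loc, ContinuousAlternatingMap.compContinuousLinearMap_apply]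
  congr 1
  funext i
  fin_cases i <;> rfl

theorem tb_swap (a : Al 2) (u v : C2) : a ![v, u] = -a ![u, v] := by
  refine Eq.trans ?_ (a.map_swap ![u, v] (show (0 : Fin 2) ≠ 1 by decide))
  show a _ = a _
  congr 1
  funext i
  fin_cases i <;> rfl

theorem tb_d2 {u : C2 → Al 2} {z : C2} (h : DifferentiableAt ℝ u z) (v : Fin 3 → C2) :
    extDeriv u z v = extD2 (fun y a b => u y ![a, b]) z (v 0) (v 1) (v 2) := by
  have e0 : Fin.removeNth (0 : Fin 3) v = ![v 1, v 2] := by
    funext i; fin_cases i <;> rfl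
  have e1 : Fin.removeNth (1 : Fin 3) v = ![v 0, v 2] := by
    funext i; fin_cases i <;> rfl
  have e2 : Fin.removeNth (2 : Fin 3) v = ![v 0, v 1] := by
    funext i; fin_cases i <;> rfl
  have e3 : (fun y => u y ![v 2, v 0]) = fun y => -u y ![v 0, v 2] :=
    funext fun y => tb_swap _ _ _
  rw [extDeriv_apply h, Fin.sum_univ_three, e0, e1, e2, extD2, e3, fderiv_fun_neg]
  simp

theorem tb_d1 {u : C2 → Al 1} {z : C2} (h : DifferentiableAt ℝ u z) (v w : C2) :
    extDeriv u z ![v, w] =
      fderiv ℝ (fun y => u y ![w]) z v - fderiv ℝ (fun y => u y ![v]) z w := by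
  have e0 : Fin.removeNth (0 : Fin 2) ![v, w] = ![w] := by
    funext i; fin_cases i; rfl
  have e1 : Fin.removeNth (1 : Fin 2) ![v, w] = ![v] := by
    funext i; fin_cases i; rfl
  rw [extDeriv_apply h, Fin.sum_univ_two, e0, e1]
  simp [sub_eq_add_neg]

theorem tb_diff {w : Fm X k} (h : Sm w) (p : X) :
    DifferentiableAt ℝ (loc p w) (chartAt C2 p p) :=
  (h p).self_of_nhds.differentiableAt (by simp)

theorem tb_fun (w : Fm X 2) (p : X) :
    inChart2 (chartAt C2 p) (toF2 w) = fun y a b => loc p w y ![a, b] := by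
  funext y a b
  exact tb_loc w p y a b

theorem of_closed {β : Form2 X} (h : Closed2 β) : ∃ w : Fm X 2, Sm w ∧ dd w = 0 ∧ toF2 w = β := by
  obtain ⟨⟨h1, h2⟩, h3⟩ := h
  choose B hB0 hB using h1
  obtain ⟨w, hw⟩ : ∃ w : Fm X 2, toF2 w = β := by
    refine ⟨fun x => (1 / 2 : ℝ) • ContinuousAlternatingMap.alternatizeUncurryFin
      ((ContinuousAlternatingMap.ofSubsingletonLIE (𝕜 := ℝ) (E := C2) (F := ℂ)
        (0 : Fin 1)).toContinuousLinearEquiv.toContinuousLinearMap ∘L B x), ?_⟩
    funext x u v
    have a := hB0 x (u + v)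
    simp only [map_add, add_apply, hB0] at a
    have a' : B x v u = -B x u v := by linear_combination a
    have e : ContinuousAlternatingMap.alternatizeUncurryFin
        ((ContinuousAlternatingMap.ofSubsingletonLIE (𝕜 := ℝ) (E := C2) (F := ℂ)
          (0 : Fin 1)).toContinuousLinearEquiv.toContinuousLinearMap ∘L B x) ![u, v] =
        B x u v - B x v u := by
      rw [ContinuousAlternatingMap.alternatizeUncurryFin_apply, Fin.sum_univ_two]
      show (-1 : ℤ) ^ 0 • B x u v + (-1 : ℤ) ^ 1 • B x v u = _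
      simp [sub_eq_add_neg]
    rw [toF2, ContinuousAlternatingMap.smul_apply, e, hB, a', Complex.real_smul]
    push_cast
    ring
  subst hw
  have hs : Sm w := fun p => by
    have := (eventually_all.2 fun a : Fin 4 => eventually_all.2 fun b : Fin 4 =>
      h2 p (bs a) (bs b))
    filter_upwards [this] with z hz
    refine sm_of_eval fun v => ?_
    have e : (fun i => bs (v i)) = ![bs (v 0), bs (v 1)] := by
      funext i; fin_cases i <;> rfl
    have := hz (v 0) (v 1)
    rw [tb_fun] at this
    rw [e]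
    exact this
  refine ⟨w, hs, funext fun p => ?_, rfl⟩
  ext v
  have := h3 p (v 0) (v 1) (v 2)
  rw [tb_fun, ← tb_d2 (tb_diff hs p)] at this
  exact this

theorem to_closed {w : Fm X 2} (h : Sm w) (hc : dd w = 0) : Closed2 (toF2 w) := by
  refine ⟨⟨fun x => ?_, fun p v v' => ?_⟩, fun p u v v' => ?_⟩
  · refine ⟨(ContinuousAlternatingMap.ofSubsingletonLIE (𝕜 := ℝ) (E := C2) (F := ℂ)
      (0 : Fin 1)).symm.toContinuousLinearEquiv.toContinuousLinearMap ∘L (w x).curryLeft, ?_⟩
    have e : ∀ u v, ((ContinuousAlternatingMap.ofSubsingletonLIE (𝕜 := ℝ) (E := C2) (F := ℂ)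
        (0 : Fin 1)).symm.toContinuousLinearEquiv.toContinuousLinearMap ∘L (w x).curryLeft) u v =
        w x ![u, v] := fun u v => by
      show w x (Matrix.vecCons u fun _ => v) = _
      congr 1
      funext i
      fin_cases i <;> rfl
    refine ⟨fun v => ?_, fun u v => (e u v).symm⟩
    rw [e]
    exact (w x).map_eq_zero_of_eq _ (i := 0) (j := 1) rfl (by decide)
  · filter_upwards [h p] with z hz
    rw [tb_fun]
    exact tb_app hz _
  · have e := tb_d2 (tb_diff h p) ![u, v, v']
    rw [tb_fun]
    refine Eq.trans e.symm ?_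
    exact DFunLike.congr_fun (congrFun hc p) _

theorem to_exact {γ : Fm X 1} (h : Sm γ) : toF2 (dd γ) ∈ B2 X := by
  obtain ⟨θ, hθ⟩ : ∃ θ : Form1 X, ∀ x v, θ x v = γ x ![v] := by
    refine ⟨fun x => (ContinuousAlternatingMap.ofSubsingletonLIE (𝕜 := ℝ) (E := C2) (F := ℂ)
      (0 : Fin 1)).symm (γ x), fun x v => ?_⟩
    show γ x (fun _ => v) = _
    congr 1
    funext i
    fin_cases i; rfl
  have e : ∀ p v, (fun y => inChart (chartAt C2 p) θ y v) = fun y => loc p γ y ![v] := by
    intro p v
    funext y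
    simp only [inChart, ContinuousLinearMap.comp_apply, hθ, loc,
      ContinuousAlternatingMap.compContinuousLinearMap_apply]
    congr 1
    funext i
    fin_cases i; rfl
  refine Submodule.subset_span ⟨θ, fun p v => ?_, fun p v v' => ?_⟩
  · filter_upwards [h p] with z hz
    rw [e]
    exact tb_app hz _
  · rw [extD, e, e]
    exact tb_d1 (tb_diff h p) v v'

end Vale.Agent.P267P
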