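import Vale.Agent.P267P.B3

/-! The bundle of an integral cocycle. Choose a p with ρ (a p) p ≠ 0. h a b = Σ_l ρ l * m a b l, u p x = exp (2 π i h (a p) (a x) x). Where ρ a, ρ b, ρ c are nonzero: h a c - h b c = h a b - m a b c (Coc for a b c l, terms with ρ l x = 0 drop), so u p / u q = exp (2 π i h (a p) (a q)) near q for q near p. θ p x = 2 π i Σ_j ρ j x • dAt (h (a p) j) x; the sum only sees j with x in T j, where near x (not only at x: use T j closed and the open set where ρ a, ρ b are nonzero; for x in T j the identity h a j - h b j = h a b - m a b j holds at points y near x up to terms l with y in T l, and for y near x, y in T l implies x in T l). Curvature 2 π i Σ m a j l dρ j ∧ dρ l = -2 π i al m (al_apply, m i j l = m a j l - m a i l + m a i j, sum_dAt). -/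

open scoped Manifold ContDiff Topology
open Filter MeasureTheory Set

noncomputable section

namespace Vale.Agent.P267P

open Vale.Agent.P267F Vale.Agent.P267I

set_option linter.unusedSectionVars false

variable {X : Type} [TopologicalSpace X] [ChartedSpace C2 X] [IsManifold 𝓘(ℂ, C2) ω X] [T2Space X]
  [CompactSpace X] {k d : ℕ}

theorem ub_tend (x : X) : Tendsto (chartAt C2 x).symm (𝓝 (chartAt C2 x x)) (𝓝 x) :=
  (chartAt C2 x).tendsto_symm (mem_chart_source _ x)

theorem ub_sm {f g : X → ℂ} {x : X} (e : f =ᶠ[𝓝 x] g) (h : SmAt g x) : SmAt f x := by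
  filter_upwards [h, (e.comp_tendsto (ub_tend x)).eventuallyEq_nhds] with z hz ez
  exact hz.congr_of_eventuallyEq ez

theorem ub_dAt {f g : X → ℂ} {x : X} (e : f =ᶠ[𝓝 x] g) : dAt f x = dAt g x :=
  (e.comp_tendsto (ub_tend x)).fderiv_eq

theorem ub_has {f : X → ℂ} {x : X} (h : SmAt f x) :
    HasFDerivAt (f ∘ (chartAt C2 x).symm) (dAt f x) (chartAt C2 x x) :=
  (h.self_of_nhds.differentiableAt (by simp)).hasFDerivAt

theorem ub_exp {f : X → ℂ} {x : X} (h : SmAt f x) (c : ℂ) :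
    dAt (fun y => Complex.exp (c * f y)) x = Complex.exp (c * f x) • c • dAt f x := by
  have h1 := ((ub_has h).const_mul c).cexp
  simp only [Function.comp_apply, (chartAt C2 x).left_inv (mem_chart_source _ x)] at h1
  exact h1.fderiv

/-- The transition exponents. -/
def ub_h (S : Sys X) (m : Fin S.n → Fin S.n → Fin S.n → ℤ) (a b : Fin S.n) (y : X) : ℂ :=
  ∑ l, (m a b l : ℂ) * S.ρ l y

/-- The connection form. -/
def ub_g (S : Sys X) (m : Fin S.n → Fin S.n → Fin S.n → ℤ) (a : Fin S.n) : Fm X 1 :=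
  (2 * Real.pi * Complex.I : ℂ) • ∑ j, fs (S.ρ j) (dd (f0 (ub_h S m a j)))

/-- The connection form as a linear map. -/
def ub_t (S : Sys X) (m : Fin S.n → Fin S.n → Fin S.n → ℤ) (a : Fin S.n) (x : X) : C2 →L[ℝ] ℂ :=
  (2 * Real.pi * Complex.I : ℂ) • ∑ j, S.ρ j x • dAt (ub_h S m a j) x

variable (S : Sys X) {m : Fin S.n → Fin S.n → Fin S.n → ℤ}

theorem ub_mem {i : Fin S.n} {x : X} (h : S.ρ i x ≠ 0) : x ∈ S.T i := by
  by_contra hn
  exact h (S.van i x hn)

theorem ub_hsm (a b : Fin S.n) (x : X) : SmAt (ub_h S m a b) x := by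
  filter_upwards [eventually_all.2 fun l => S.sm l x] with z hz
  exact ContDiffAt.sum (f := fun l y => (m a b l : ℂ) * (S.ρ l ∘ (chartAt C2 x).symm) y)
    (s := Finset.univ) fun l _ => contDiffAt_const.mul (hz l)

theorem ub_hd (a b : Fin S.n) (x : X) (v : C2) :
    dAt (ub_h S m a b) x v = ∑ l, (m a b l : ℂ) * dAt (S.ρ l) x v := by
  have h : dAt (ub_h S m a b) x = ∑ l, (m a b l : ℂ) • dAt (S.ρ l) x :=
    (HasFDerivAt.fun_sum (u := Finset.univ)
      fun l _ => (ub_has (S.sm l x)).const_mul (m a b l : ℂ)).fderiv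
  rw [h, sum_apply]
  rfl

theorem ub_zero (p : X) (v : C2) : ∑ l, dAt (S.ρ l) p v = 0 := by
  rw [← sum_apply, S.sum_dAt]
  rfl

theorem ub_tv (a : Fin S.n) (x : X) (v : C2) : ub_t S m a x v =
    (2 * Real.pi * Complex.I : ℂ) * ∑ j, S.ρ j x * dAt (ub_h S m a j) x v := by
  unfold ub_t
  rw [smul_apply, sum_apply]
  rfl

theorem ub_coc (hm : S.Coc m) {a b c l : Fin S.n} {x : X} (ha : x ∈ S.T a) (hb : x ∈ S.T b)
    (hc : x ∈ S.T c) (hl : x ∈ S.T l) :
    (m b c l : ℂ) = m a c l - m a b l + m a b c := by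
  have h1 := hm a b c l ⟨x, ⟨⟨ha, hb⟩, hc⟩, hl⟩
  have h2 : m b c l = m a c l - m a b l + m a b c := by omega
  exact_mod_cast h2

theorem ub_val (hm : S.Coc m) {a b c : Fin S.n} {x : X} (ha : x ∈ S.T a) (hb : x ∈ S.T b)
    (hc : x ∈ S.T c) : ub_h S m b c x = ub_h S m a c x - ub_h S m a b x + m a b c := by
  have h1 : (m a b c : ℂ) = ∑ l, (m a b c : ℂ) * S.ρ l x := by
    rw [← Finset.mul_sum, S.sum, mul_one]
  unfold ub_h
  rw [h1, ← Finset.sum_sub_distrib, ← Finset.sum_add_distrib]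
  refine Finset.sum_congr rfl fun l _ => ?_
  by_cases hl : x ∈ S.T l
  · rw [ub_coc S hm ha hb hc hl]; ring
  · simp [S.van l x hl]

theorem ub_der (hm : S.Coc m) {a b c : Fin S.n} {x : X} (ha : x ∈ S.T a) (hb : x ∈ S.T b)
    (hc : x ∈ S.T c) (v : C2) :
    dAt (ub_h S m a c) x v - dAt (ub_h S m b c) x v = dAt (ub_h S m a b) x v := by
  have h1 : ∑ l, (m a b c : ℂ) * dAt (S.ρ l) x v = 0 := by
    rw [← Finset.mul_sum, ub_zero, mul_zero]
  rw [ub_hd, ub_hd, ub_hd, ← add_zero (_ - _), ← h1, ← Finset.sum_sub_distrib,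
    ← Finset.sum_add_distrib]
  refine Finset.sum_congr rfl fun l _ => ?_
  by_cases hl : x ∈ S.T l
  · rw [ub_coc S hm ha hb hc hl]
    ring
  · simp [S.dAt_van l hl]

theorem ub_tt (hm : S.Coc m) {a b : Fin S.n} {x : X} (ha : x ∈ S.T a) (hb : x ∈ S.T b) (v : C2) :
    ub_t S m a x v - ub_t S m b x v =
      (2 * Real.pi * Complex.I : ℂ) * dAt (ub_h S m a b) x v := by
  rw [ub_tv, ub_tv, ← mul_sub, ← Finset.sum_sub_distrib, ← one_mul (dAt (ub_h S m a b) x v),
    ← S.sum x, Finset.sum_mul]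
  congr 1
  refine Finset.sum_congr rfl fun j _ => ?_
  by_cases hj : x ∈ S.T j
  · rw [← mul_sub, ub_der S hm ha hb hj]
  · simp [S.van j x hj]

theorem ub_gt (a : Fin S.n) (x : X) (v : Fin 1 → C2) : ub_g S m a x v = ub_t S m a x (v 0) := by
  simp only [ub_g, ub_tv, Pi.smul_apply, Finset.sum_apply, fs, ContinuousAlternatingMap.smul_apply,
    ContinuousAlternatingMap.sum_apply, dd_f0, smul_eq_mul]

theorem ub_sm1 (a j : Fin S.n) (x : X) : SmA (dd (f0 (ub_h S m a j))) x :=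
  (smA_f0.2 (ub_hsm S a j x)).dd

theorem ub_gsm (a : Fin S.n) (x : X) : SmA (ub_g S m a) x :=
  (smA_sum _ fun j _ => SmA.fs (S.sm j x) (ub_sm1 S a j x)).smul _

theorem ub_loc (a : Fin S.n) (p : X) (v : Fin 1 → C2) :
    (fun y => inChart (chartAt C2 p) (ub_t S m a) y (v 0)) = fun y => loc p (ub_g S m a) y v := by
  funext y
  simp only [inChart, loc, ContinuousAlternatingMap.compContinuousLinearMap_apply, ub_gt,
    ContinuousLinearMap.comp_apply, Function.comp_apply]

theorem ub_ext (a : Fin S.n) (p : X) (v w : C2) :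
    extD (inChart (chartAt C2 p) (ub_t S m a)) (chartAt C2 p p) v w =
      dd (ub_g S m a) p ![v, w] := by
  unfold dd extD
  rw [extDeriv_apply ((ub_gsm S a p).self_of_nhds.differentiableAt (by simp)), Fin.sum_univ_two,
    ← ub_loc, ← ub_loc]
  simp [Fin.removeNth, sub_eq_add_neg]

theorem ub_dd (a : Fin S.n) (p : X) (v w : C2) :
    dd (ub_g S m a) p ![v, w] = (2 * Real.pi * Complex.I : ℂ) * ∑ i, ∑ j, (m a i j : ℂ) *
      (dAt (S.ρ i) p v * dAt (S.ρ j) p w - dAt (S.ρ i) p w * dAt (S.ρ j) p v) := by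
  unfold ub_g
  rw [dd_smul, dd_sum _ fun j _ => SmA.fs (S.sm j p) (ub_sm1 S a j p),
    ContinuousAlternatingMap.smul_apply, ContinuousAlternatingMap.sum_apply, smul_eq_mul]
  congr 1
  refine Finset.sum_congr rfl fun i _ => ?_
  rw [dd_fs (S.sm i p) (ub_sm1 S a i p), dd_dd (smA_f0.2 (ub_hsm S a i p)),
    ContinuousAlternatingMap.add_apply, ContinuousAlternatingMap.smul_apply, wd_one, dd_f0, dd_f0,
    ub_hd, ub_hd]
  simp only [ContinuousAlternatingMap.coe_zero, Pi.zero_apply, smul_zero, add_zero,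
    Matrix.cons_val_zero, Matrix.cons_val_one, Finset.mul_sum, ← Finset.sum_sub_distrib]
  exact Finset.sum_congr rfl fun j _ => by ring

theorem ub_alg {n : ℕ} (M : Fin n → Fin n → ℂ) (r A B : Fin n → ℂ) (hr : ∑ l, r l = 1)
    (hA : ∑ l, A l = 0) (hB : ∑ l, B l = 0) :
    ∑ i, ∑ j, ∑ l, (M j l - M i l + M i j) * (r l * (A j * B i - B j * A i)) =
      -∑ i, ∑ j, M i j * (A i * B j - B i * A j) := by
  have h1 : ∀ i j, ∑ l, (M j l - M i l + M i j) * (r l * (A j * B i - B j * A i)) =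
      (∑ l, M j l * r l) * A j * B i - (∑ l, M j l * r l) * B j * A i -
        (∑ l, M i l * r l) * B i * A j + (∑ l, M i l * r l) * A i * B j -
        (∑ l, r l) * (M i j * (A i * B j - B i * A j)) := fun i j => by
    simp only [Finset.sum_mul, ← Finset.sum_sub_distrib, ← Finset.sum_add_distrib]
    exact Finset.sum_congr rfl fun l _ => by ring
  simp only [h1, hr, one_mul, Finset.sum_sub_distrib, Finset.sum_add_distrib, ← Finset.mul_sum,
    ← Finset.sum_mul, hA, hB, mul_zero, Finset.sum_const_zero]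
  ring

theorem ub_al (hm : S.Coc m) {a : Fin S.n} {p : X} (ha : p ∈ S.T a) (v w : C2) :
    S.al (fun i j l => (m i j l : ℂ)) p ![v, w] = -∑ i, ∑ j, (m a i j : ℂ) *
      (dAt (S.ρ i) p v * dAt (S.ρ j) p w - dAt (S.ρ i) p w * dAt (S.ρ j) p v) := by
  rw [S.al_apply, ← ub_alg (fun i j => (m a i j : ℂ)) (fun l => S.ρ l p) _ _ (S.sum p)
    (ub_zero S p v) (ub_zero S p w)]
  refine Finset.sum_congr rfl fun i _ => Finset.sum_congr rfl fun j _ =>
    Finset.sum_congr rfl fun l _ => ?_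
  simp only [Matrix.cons_val_zero, Matrix.cons_val_one]
  by_cases hi : p ∈ S.T i
  · by_cases hj : p ∈ S.T j
    · by_cases hl : p ∈ S.T l
      · rw [ub_coc S hm ha hi hj hl]
      · simp [S.van l p hl]
    · simp [S.dAt_van j hj]
  · simp [S.dAt_van i hi]

theorem Sys.bundle (S : Sys X) {m : Fin S.n → Fin S.n → Fin S.n → ℤ} (hm : S.Coc m) :
    ∃ (u : X → X → ℂ) (θ : X → X → C2 →L[ℝ] ℂ), IsBundle SmAt u ∧ IsConnection u θ ∧
      c1 θ = toF2 (S.al fun i j l => (m i j l : ℂ)) := by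
  have hex : ∀ p : X, ∃ i, S.ρ i p ≠ 0 := fun p => by
    by_contra hn
    have h1 := S.sum p
    rw [Finset.sum_eq_zero fun i _ => not_not.1 fun h => hn ⟨i, h⟩] at h1
    exact zero_ne_one h1
  choose a ha using hex
  have hne : ∀ {i : Fin S.n} {q : X}, S.ρ i q ≠ 0 → ∀ᶠ x in 𝓝 q, S.ρ i x ≠ 0 := fun {i q} h =>
    (smAt_cont (S.sm i q)).eventually_ne h
  obtain ⟨u, hu⟩ : ∃ u : X → X → ℂ, ∀ p x,
      u p x = Complex.exp (2 * Real.pi * Complex.I * ub_h S m (a p) (a x) x) := ⟨_, fun _ _ => rfl⟩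
  have key : ∀ p q : X, S.ρ (a p) q ≠ 0 → (u p / u q) =ᶠ[𝓝 q]
      fun x => Complex.exp (2 * Real.pi * Complex.I * ub_h S m (a p) (a q) x) := fun p q h => by
    filter_upwards [hne h, hne (ha q)] with x h1 h2
    rw [Pi.div_apply, hu, hu, ub_val S hm (ub_mem S h1) (ub_mem S h2) (ub_mem S (ha x)),
      ← Complex.exp_sub, ← mul_one (Complex.exp (_ - _)),
      ← Complex.exp_int_mul_two_pi_mul_I (m (a p) (a q) (a x)), ← Complex.exp_add]
    congr 1
    ring
  refine ⟨u, fun p => ub_t S m (a p), fun p => ?_, ⟨fun p v => ?_, fun p => ?_⟩, ?_⟩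
  · filter_upwards [hne (ha p)] with q hq
    refine ⟨by rw [hu]; exact Complex.exp_ne_zero _, ub_sm (key p q hq) ?_⟩
    filter_upwards [ub_hsm S (m := m) (a p) (a q) q] with z hz
    exact (contDiffAt_const.mul hz).cexp
  · have e := ub_loc S (m := m) (a p) p ![v]
    simp only [Matrix.cons_val_zero] at e
    rw [e]
    filter_upwards [ub_gsm S (m := m) (a p) p] with z hz
    exact (ContinuousAlternatingMap.apply ℝ C2 ℂ ![v]).contDiff.contDiffAt.comp z hz
  · filter_upwards [hne (ha p)] with q hq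
    filter_upwards [hne hq, hne (ha q), (key p q hq).eventuallyEq_nhds] with x h1 h2 h3
    refine ContinuousLinearMap.ext fun v => ?_
    rw [sub_apply, ub_tt S hm (ub_mem S h1) (ub_mem S h2), ub_dAt h3, h3.self_of_nhds,
      ub_exp (ub_hsm S _ _ x)]
    simp only [smul_apply, smul_eq_mul]
    rw [inv_mul_cancel_left₀ (Complex.exp_ne_zero _)]
  · funext p v w
    unfold c1 toF2
    rw [ub_ext, ub_dd, ub_al S hm (ub_mem S (ha p)), ← mul_assoc, inv_neg, neg_mul,
      inv_mul_cancel₀ Complex.two_pi_I_ne_zero, neg_one_mul]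

end Vale.Agent.P267P
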