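import Vale.Agent.P267P.Defs

/-! Boxes and cut-offs. nm is a norm (co is a real linear bijection onto Fin 4 → ℝ; build coE). cut: ContDiffBump in each real coordinate, or exists_contDiff_zero_one style (exists_contMDiff_zero_iff_one_iff_of_isClosed), or a product of Real.smoothTransition. -/

open scoped Manifold ContDiff Topology
open Filter MeasureTheory Set

noncomputable section

namespace Vale.Agent.P267P

open Vale.Agent.P267F Vale.Agent.P267I

set_option linter.unusedSectionVars false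

variable {X : Type} [TopologicalSpace X] [ChartedSpace C2 X] [IsManifold 𝓘(ℂ, C2) ω X] [T2Space X]
  [CompactSpace X] {k d : ℕ}

/-- The real coordinates as a linear equivalence. -/
def n0E : C2 ≃L[ℝ] (Fin 4 → ℝ) := LinearEquiv.toContinuousLinearEquiv
  { toFun := co
    invFun := fun x => ![⟨x 0, x 1⟩, ⟨x 2, x 3⟩]
    map_add' := fun z w => by funext i; fin_cases i <;> simp [co]
    map_smul' := fun t z => by funext i; fin_cases i <;> simp [co]
    left_inv := fun z => by funext i; fin_cases i <;> simp [co]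
    right_inv := fun x => by funext i; fin_cases i <;> simp [co] }

theorem n0_nm (z : C2) : nm z = ‖n0E z‖ := rfl

theorem n0_vol {s t : Set ℝ} (hs : MeasurableSet s) (ht : MeasurableSet t) :
    volume {z : ℂ | z.re ∈ s ∧ z.im ∈ t} = volume s * volume t := by
  rw [← Measure.prod_prod]
  exact Complex.volume_preserving_equiv_real_prod.measure_preimage (hs.prod ht).nullMeasurableSet

theorem exists_coE : ∃ e : C2 ≃L[ℝ] (Fin 4 → ℝ), (∀ z, e z = co z) ∧ (∀ i, e (bs i) = Pi.single i 1) ∧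
    MeasurePreserving e volume volume := by
  refine ⟨n0E, fun _ => rfl, fun i => ?_, n0E.continuous.measurable, ?_⟩
  · funext j
    change co (bs i) j = _
    fin_cases i <;> fin_cases j <;> simp [co, bs]
  · refine (Measure.pi_eq fun s hs => ?_).symm
    have e : n0E ⁻¹' Set.pi univ s = Set.pi univ
        ![{z : ℂ | z.re ∈ s 0 ∧ z.im ∈ s 1}, {z : ℂ | z.re ∈ s 2 ∧ z.im ∈ s 3}] := by
      ext z
      change (∀ i ∈ univ, co z i ∈ s i) ↔ _
      simp [co, Fin.forall_fin_succ, and_assoc]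
    rw [Measure.map_apply n0E.continuous.measurable (MeasurableSet.univ_pi hs), e, volume_pi_pi,
      Fin.prod_univ_two, Fin.prod_univ_four]
    simp only [Matrix.cons_val_zero, Matrix.cons_val_one]
    rw [n0_vol (hs 0) (hs 1), n0_vol (hs 2) (hs 3), ← mul_assoc]

theorem nm_add (z w : C2) : nm (z + w) ≤ nm z + nm w := by
  rw [n0_nm, n0_nm, n0_nm, map_add]
  exact norm_add_le _ _

theorem nm_smul (t : ℝ) (z : C2) : nm (t • z) = |t| * nm z := by
  rw [n0_nm, n0_nm, map_smul, norm_smul, Real.norm_eq_abs]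

theorem nm_neg (z : C2) : nm (-z) = nm z := by
  rw [n0_nm, n0_nm, map_neg, norm_neg]

theorem nm_nonneg (z : C2) : 0 ≤ nm z := by
  exact norm_nonneg _

theorem nm_zero : nm 0 = 0 := by
  rw [n0_nm, map_zero, norm_zero]

theorem nm_cont : Continuous nm := by
  exact n0E.continuous.norm

theorem nm_cpt (c : C2) (r : ℝ) : IsCompact {z | nm (z - c) ≤ r} := by
  have e : {z | nm (z - c) ≤ r} = n0E ⁻¹' Metric.closedBall (n0E c) r := by
    ext z
    simp [n0_nm, dist_eq_norm]
  rw [e]
  exact n0E.toHomeomorph.isCompact_preimage.2 (isCompact_closedBall _ _)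

theorem nm_conv (c : C2) (r : ℝ) : Convex ℝ {z | nm (z - c) < r} ∧ Convex ℝ {z | nm (z - c) ≤ r} := by
  have e : {z | nm (z - c) ≤ r} = n0E.toLinearMap ⁻¹' Metric.closedBall (n0E c) r := by
    ext z
    simp [n0_nm, dist_eq_norm]
  have e' : {z | nm (z - c) < r} = n0E.toLinearMap ⁻¹' Metric.ball (n0E c) r := by
    ext z
    simp [n0_nm, dist_eq_norm]
  rw [e, e']
  exact ⟨(convex_ball _ _).linear_preimage _, (convex_closedBall _ _).linear_preimage _⟩

theorem nm_nhds (c : C2) {U : Set C2} (h : U ∈ 𝓝 c) : ∃ r > 0, ∀ z, nm (z - c) ≤ r → z ∈ U := by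
  have h' : n0E.symm ⁻¹' U ∈ 𝓝 (n0E c) :=
    n0E.symm.continuous.continuousAt.preimage_mem_nhds (by simpa using h)
  obtain ⟨r, r0, hr⟩ := Metric.nhds_basis_closedBall.mem_iff.1 h'
  refine ⟨r, r0, fun z hz => ?_⟩
  simpa using hr (show n0E z ∈ Metric.closedBall (n0E c) r by simpa [n0_nm, dist_eq_norm] using hz)

theorem cut_spec {s : ℝ} (hs : 0 < s) : IsCut (cut s) s := by
  refine Classical.epsilon_spec (p := fun χ => IsCut χ s) ?_
  let f : ContDiffBump (0 : Fin 4 → ℝ) := ⟨s, 2 * s, hs, by linarith⟩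
  exact ⟨fun z => f (n0E z), f.contDiff.comp n0E.contDiff,
    fun z hz => f.one_of_mem_closedBall (by simpa [n0_nm] using hz),
    fun z hz => f.zero_of_le_dist (by simpa [n0_nm] using hz)⟩

theorem Box.O_open (b : Box X) : IsOpen b.O := by
  exact (chartAt C2 b.p).isOpen_inter_preimage (s := {z | nm (z - b.c) < b.r})
    (isOpen_lt (nm_cont.comp (continuous_id.sub continuous_const)) continuous_const)

theorem Box.x0_mem (b : Box X) : b.x0 ∈ b.O ∧ chartAt C2 b.p b.x0 = b.c := by
  have h : b.c ∈ (chartAt C2 b.p).target := b.sub _ (by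
    rw [sub_self, nm_zero]; linarith [b.pos])
  have e := (chartAt C2 b.p).right_inv h
  exact ⟨⟨(chartAt C2 b.p).map_target h, by rw [Box.x0, e, sub_self, nm_zero]; exact b.pos⟩, e⟩

theorem Box.cl_cpt (b : Box X) (q : C2) {s : ℝ} (h : nm (q - b.c) + s ≤ 3 * b.r) :
    IsCompact {x | x ∈ (chartAt C2 b.p).source ∧ nm (chartAt C2 b.p x - q) ≤ s} := by
  have hs : {z | nm (z - q) ≤ s} ⊆ (chartAt C2 b.p).target := fun z hz => b.sub z (by
    have := nm_add (z - q) (q - b.c)
    rw [sub_add_sub_cancel] at this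
    linarith [show nm (z - q) ≤ s from hz])
  have e := (chartAt C2 b.p).symm_image_eq_source_inter_preimage hs
  have k := (nm_cpt q s).image_of_continuousOn ((chartAt C2 b.p).continuousOn_symm.mono hs)
  rw [e] at k
  exact k

theorem Box.exists_adm (b : Box X) {S : Set X} (hS : IsClosed S) (hd : Dense Sᶜ) :
    ∃ q ε, b.Adm q ε ∧ Disjoint S (b.N q ε) := by
  obtain ⟨x, hx, hxS⟩ := hd.inter_open_nonempty _ b.O_open ⟨_, b.x0_mem.1⟩
  have t := (chartAt C2 b.p).map_source hx.1
  have h1 : (chartAt C2 b.p).symm ⁻¹' Sᶜ ∈ 𝓝 (chartAt C2 b.p x) :=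
    ((chartAt C2 b.p).continuousAt_symm t).preimage_mem_nhds
      (by rw [(chartAt C2 b.p).left_inv hx.1]; exact hS.isOpen_compl.mem_nhds hxS)
  obtain ⟨r, r0, hr⟩ := nm_nhds _ h1
  have g := sub_pos.2 hx.2
  refine ⟨chartAt C2 b.p x, min r (b.r - nm (chartAt C2 b.p x - b.c)) / 4,
    ⟨by positivity, by linarith [min_le_right r (b.r - nm (chartAt C2 b.p x - b.c))]⟩,
    disjoint_left.2 fun y hy hn => ?_⟩
  have := hr _ (hn.2.trans (by linarith [min_le_left r (b.r - nm (chartAt C2 b.p x - b.c))]))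
  rw [mem_preimage, (chartAt C2 b.p).left_inv hn.1] at this
  exact this hy

theorem exists_box (p : X) {U : Set X} (h : U ∈ 𝓝 p) : ∃ b : Box X, b.x0 = p ∧ b.O ⊆ U := by
  have s0 := mem_chart_source C2 p
  have h1 : (chartAt C2 p).target ∩ (chartAt C2 p).symm ⁻¹' U ∈ 𝓝 (chartAt C2 p p) :=
    inter_mem (chart_target_mem_nhds C2 p) (((chartAt C2 p).continuousAt_symm
      (mem_chart_target C2 p)).preimage_mem_nhds (by rwa [(chartAt C2 p).left_inv s0]))
  obtain ⟨r, r0, hr⟩ := nm_nhds _ h1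
  refine ⟨⟨p, chartAt C2 p p, r / 3, by positivity, fun z hz => (hr z (by linarith)).1⟩,
    (chartAt C2 p).left_inv s0, fun x hx => ?_⟩
  have := (hr _ (hx.2.le.trans (by linarith : r / 3 ≤ r))).2
  rwa [mem_preimage, (chartAt C2 p).left_inv hx.1] at this

end Vale.Agent.P267P
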