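import Vale.Agent.P267P.F3
import Vale.Agent.P267P.N0
import Vale.Agent.P267.AH

/-! The integral of four-forms. Independence of the partition: change of variables (integral_image_eq_integral_abs_det_fderiv_smul; holomorphic transition maps have positive real determinant; an alternating 4-form on A (bs i) is det A times its value on bs; copy from Vale/Agent/P267S/CV.lean or P267W/CV.lean), double partition ψ a * ψ' b. Existence of a partition: compactness and exists_continuous partition of unity subordinate to chart sources (PartitionOfUnity.exists_isSubordinate); chartAt is a HolChart. IX_box: complete a cut-off that is one on T to a partition, or use the change of variables lemma chart by chart. -/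

open scoped Manifold ContDiff Topology
open Filter MeasureTheory Set

noncomputable section

namespace Vale.Agent.P267P

open Vale.Agent.P267F Vale.Agent.P267I

set_option linter.unusedSectionVars false

variable {X : Type} [TopologicalSpace X] [ChartedSpace C2 X] [IsManifold 𝓘(ℂ, C2) ω X] [T2Space X]
  [CompactSpace X] {k d : ℕ}

theorem i4_hc (p : X) : HolChart (chartAt C2 p) := (Vale.Agent.P267.isCh_chartAt p).hol

theorem i4_tr {P Q : OpenPartialHomeomorph X C2} (hP : HolChart P) (hQ : HolChart Q) {x : X}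
    (h1 : x ∈ P.source) (h2 : x ∈ Q.source) : AnalyticAt ℂ (Q ∘ P.symm) (P x) := by
  refine analyticAt_pi_iff.2 fun j => (hP x h1 fun y => Q y j).1 ((hQ x h2 _).2 ?_)
  refine ((ContinuousLinearMap.proj (R := ℂ) (φ := fun _ : Fin 2 => ℂ) j).analyticAt _).congr ?_
  filter_upwards [Q.eventually_right_inverse' h2] with z hz
  simp only [Function.comp_apply, hz, ContinuousLinearMap.proj_apply]

theorem i4_alt (a : Al 4) (A : C2 →L[ℝ] C2) : a (fun i => A (bs i)) = (A.det : ℂ) * a bs := by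
  obtain ⟨e, -, he, -⟩ := exists_coE
  let b := (Pi.basisFun ℝ (Fin 4)).map e.symm.toLinearEquiv
  have hb : ⇑b = bs := by
    funext i
    have := he i
    simp only [b, Module.Basis.map_apply, Pi.basisFun_apply, ← this]
    exact e.symm_apply_apply _
  have k : ∀ φ : ℂ →ₗ[ℝ] ℝ, φ (a fun i => A (bs i)) = A.det * φ (a bs) := by
    intro φ
    have h := DFunLike.congr_fun (AlternatingMap.eq_smul_basis_det b
      (φ.compAlternatingMap a.toAlternatingMap)) ((A : C2 →ₗ[ℝ] C2) ∘ b)
    rw [AlternatingMap.smul_apply, b.det_comp, b.det_self, mul_one, hb, smul_eq_mul,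
      mul_comm] at h
    exact h
  refine Complex.ext ?_ ?_
  · rw [Complex.re_ofReal_mul]
    exact k Complex.reLm
  · rw [Complex.im_ofReal_mul]
    exact k Complex.imLm

/-- The density in a chart. -/
def i4_D (P : OpenPartialHomeomorph X C2) (w : Fm X 4) (z : C2) : ℂ :=
  w (P.symm z) fun i => fderiv ℝ (chartAt C2 (P.symm z) ∘ P.symm) z (bs i)

theorem i4_chain {P Q : OpenPartialHomeomorph X C2} (hP : HolChart P) (hQ : HolChart Q) {x : X}
    (h1 : x ∈ P.source) (h2 : x ∈ Q.source) (w : Fm X 4) :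
    i4_D P w (P x) = ((fderiv ℝ (Q ∘ P.symm) (P x)).det : ℂ) * i4_D Q w (Q x) := by
  have e : (Q ∘ P.symm) (P x) = Q x := congrArg Q (P.left_inv h1)
  have d1 : DifferentiableAt ℝ (Q ∘ P.symm) (P x) :=
    (i4_tr hP hQ h1 h2).differentiableAt.restrictScalars ℝ
  have d2 : DifferentiableAt ℝ (chartAt C2 x ∘ Q.symm) ((Q ∘ P.symm) (P x)) := by
    rw [e]
    exact (i4_tr hQ (i4_hc x) h2 (mem_chart_source C2 x)).differentiableAt.restrictScalars ℝ
  have h3 : (chartAt C2 x ∘ P.symm) =ᶠ[𝓝 (P x)] (chartAt C2 x ∘ Q.symm) ∘ Q ∘ P.symm := by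
    filter_upwards [(P.tendsto_symm h1).eventually (Q.eventually_left_inverse h2)] with y hy
    simp only [Function.comp_apply] at hy ⊢
    rw [hy]
  unfold i4_D
  rw [P.left_inv h1, Q.left_inv h2, h3.fderiv_eq, fderiv_comp _ d2 d1, e]
  exact i4_alt ((w x).compContinuousLinearMap _) _

theorem i4_pos {T : C2 → C2} {z : C2} (h : AnalyticAt ℂ T z) : 0 ≤ (fderiv ℝ T z).det := by
  rw [(h.differentiableAt.hasFDerivAt.restrictScalars ℝ).fderiv]
  have k := LinearMap.det_restrictScalars (R := ℝ) (f := (fderiv ℂ T z : C2 →ₗ[ℂ] C2))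
  rw [Algebra.norm_complex_apply] at k
  exact (Complex.normSq_nonneg _).trans_eq k.symm

theorem i4_zero {P : OpenPartialHomeomorph X C2} {w : Fm X 4} {g : X → ℝ} {z : C2}
    (h : g (P.symm z) = 0 ∨ w (P.symm z) = 0) : (g (P.symm z) : ℂ) * i4_D P w z = 0 := by
  rcases h with h | h <;> simp [i4_D, h]

/-- The integral in a chart. -/
def i4_J (P : OpenPartialHomeomorph X C2) (g : X → ℝ) (w : Fm X 4) : ℂ :=
  ∫ z in P.target, (g (P.symm z) : ℂ) * i4_D P w z

theorem i4_img {P : OpenPartialHomeomorph X C2} {w : Fm X 4} {g : X → ℝ} {W : Set X}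
    (hW : W ⊆ P.source) (h : ∀ x ∉ W, g x = 0 ∨ w x = 0) :
    i4_J P g w = ∫ z in P '' W, (g (P.symm z) : ℂ) * i4_D P w z :=
  setIntegral_eq_of_subset_of_forall_sdiff_eq_zero P.open_target.measurableSet
    (by rintro _ ⟨x, hx, rfl⟩; exact P.map_source (hW hx))
    fun z hz => i4_zero (h _ fun k => hz.2 ⟨_, k, P.right_inv hz.1⟩)

theorem i4_cv {P Q : OpenPartialHomeomorph X C2} (hP : HolChart P) (hQ : HolChart Q)
    {w : Fm X 4} {g : X → ℝ} (h : ∀ x ∉ P.source ∩ Q.source, g x = 0 ∨ w x = 0) :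
    i4_J P g w = i4_J Q g w := by
  have ms := (P.isOpen_image_of_subset_source (P.open_source.inter Q.open_source)
    inter_subset_left).measurableSet
  have e : Q '' (P.source ∩ Q.source) = (Q ∘ P.symm) '' (P '' (P.source ∩ Q.source)) := by
    rw [image_image]
    exact image_congr fun p hp => by rw [Function.comp_apply, P.left_inv hp.1]
  have hd : ∀ z ∈ P '' (P.source ∩ Q.source), HasFDerivWithinAt (Q ∘ P.symm)
      (fderiv ℝ (Q ∘ P.symm) z) (P '' (P.source ∩ Q.source)) z := by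
    rintro _ ⟨p, hp, rfl⟩
    exact ((i4_tr hP hQ hp.1 hp.2).differentiableAt.restrictScalars
      ℝ).hasFDerivAt.hasFDerivWithinAt
  have hi : InjOn (Q ∘ P.symm) (P '' (P.source ∩ Q.source)) := by
    rintro _ ⟨p, hp, rfl⟩ _ ⟨q, hq, rfl⟩ k
    simp only [Function.comp_apply, P.left_inv hp.1, P.left_inv hq.1] at k
    rw [Q.injOn hp.2 hq.2 k]
  rw [i4_img inter_subset_left h, i4_img inter_subset_right h, e,
    integral_image_eq_integral_abs_det_fderiv_smul volume ms hd hi]
  refine setIntegral_congr_fun ms ?_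
  rintro _ ⟨p, hp, rfl⟩
  beta_reduce
  rw [abs_of_nonneg (i4_pos (i4_tr hP hQ hp.1 hp.2)), i4_chain hP hQ hp.1 hp.2]
  simp only [Function.comp_apply, P.left_inv hp.1, Q.left_inv hp.2, Complex.real_smul]
  ring

theorem i4_cont {P : OpenPartialHomeomorph X C2} (hP : HolChart P) {w : Fm X 4} (h : Sm w)
    {x : X} (hx : x ∈ P.source) : ContinuousAt (i4_D P w) (P x) := by
  have hT := i4_tr hP (i4_hc x) hx (mem_chart_source C2 x)
  have e : (chartAt C2 x ∘ P.symm) (P x) = chartAt C2 x x := congrArg _ (P.left_inv hx)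
  have c1 : ContinuousAt (fderiv ℝ (chartAt C2 x ∘ P.symm)) (P x) :=
    ((hT.contDiffAt (n := 1)).restrict_scalars ℝ).continuousAt_fderiv (by simp)
  have c2 : ContinuousAt (fun z => loc x w z bs) (chartAt C2 x x) :=
    (continuous_eval_const bs).continuousAt.comp (h x).self_of_nhds.continuousAt
  have c3 := (Complex.continuous_ofReal.continuousAt.comp
    (ContinuousLinearMap.continuous_det.continuousAt.comp c1)).mul
    (c2.comp_of_eq hT.continuousAt e)
  refine c3.congr ?_
  filter_upwards [(P.tendsto_symm hx).eventually (chart_source_mem_nhds C2 x),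
    P.open_target.mem_nhds (P.map_source hx)] with z h1 h2
  have k := i4_chain hP (i4_hc x) (P.map_target h2) h1 w
  rw [P.right_inv h2] at k
  exact k.symm

theorem i4_int {P : OpenPartialHomeomorph X C2} (hP : HolChart P) {w : Fm X 4} (h : Sm w)
    {g : X → ℝ} (hg : Continuous g) {K : Set X} (hK : IsCompact K) (hs : K ⊆ P.source)
    (h0 : ∀ x ∉ K, g x = 0 ∨ w x = 0) :
    IntegrableOn (fun z => (g (P.symm z) : ℂ) * i4_D P w z) P.target := by
  refine IntegrableOn.of_forall_sdiff_eq_zero (s := P '' K) (ContinuousOn.integrableOn_compact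
    (hK.image_of_continuousOn (P.continuousOn.mono hs)) ?_) P.open_target.measurableSet
    fun z hz => i4_zero (h0 _ fun k => hz.2 ⟨_, k, P.right_inv hz.1⟩)
  rintro _ ⟨x, hx, rfl⟩
  exact (((Complex.continuous_ofReal.comp hg).continuousAt.comp
    (P.continuousAt_symm (P.map_source (hs hx)))).mul (i4_cont hP h (hs hx))).continuousWithinAt

theorem i4_sum {P : OpenPartialHomeomorph X C2} (hP : HolChart P) {w : Fm X 4} (h : Sm w)
    {g : X → ℝ} (hg : Continuous g) {K : Set X} (hK : IsCompact K) (hs : K ⊆ P.source)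
    (h0 : ∀ x ∉ K, g x = 0 ∨ w x = 0) {l : ℕ} {φ : Fin l → X → ℝ} (h1 : ∀ a, Continuous (φ a))
    (h2 : ∀ x, ∑ a, φ a x = 1) : i4_J P g w = ∑ a, i4_J P (φ a * g) w := by
  unfold i4_J
  rw [← integral_finsetSum _ fun a _ => i4_int hP h ((h1 a).mul hg) hK hs fun x hx =>
    (h0 x hx).imp_left fun k => mul_eq_zero_of_right _ k]
  refine integral_congr_ae (.of_forall fun z => ?_)
  have k : ∑ a, (φ a (P.symm z) : ℂ) = 1 := by exact_mod_cast h2 _
  simp only [Pi.mul_apply, Complex.ofReal_mul, mul_assoc, ← Finset.sum_mul, k, one_mul]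

theorem i4_split {P : OpenPartialHomeomorph X C2} (hP : HolChart P) {w : Fm X 4} (h : Sm w)
    {g : X → ℝ} (hg : Continuous g) {K : Set X} (hK : IsCompact K) (hs : K ⊆ P.source)
    (h0 : ∀ x ∉ K, g x = 0 ∨ w x = 0) {l : ℕ} {Q : Fin l → OpenPartialHomeomorph X C2}
    {φ : Fin l → X → ℝ} (hQ : ∀ a, HolChart (Q a)) (h1 : ∀ a, Continuous (φ a))
    (h3 : ∀ a, tsupport (φ a) ⊆ (Q a).source) (h2 : ∀ x, ∑ a, φ a x = 1) :
    i4_J P g w = ∑ a, i4_J (Q a) (φ a * g) w := by
  rw [i4_sum hP h hg hK hs h0 h1 h2]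
  refine Finset.sum_congr rfl fun a _ => i4_cv hP (hQ a) fun x hx => ?_
  rcases not_and_or.1 hx with k | k
  · exact (h0 x fun k' => k (hs k')).imp_left fun k => mul_eq_zero_of_right _ k
  · exact Or.inl (mul_eq_zero_of_left (image_eq_zero_of_notMem_tsupport fun k' => k (h3 a k')) _)

theorem i4_pou : ∃ (l : ℕ) (P : Fin l → OpenPartialHomeomorph X C2) (ψ : Fin l → X → ℝ),
    (∀ a, HolChart (P a)) ∧ (∀ a, Continuous (ψ a)) ∧ (∀ a, tsupport (ψ a) ⊆ (P a).source) ∧
    ∀ x, ∑ a, ψ a x = 1 := by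
  obtain ⟨T, hT⟩ := isCompact_univ.elim_finite_subcover (fun p : X => (chartAt C2 p).source)
    (fun p => (chartAt C2 p).open_source) fun x _ => mem_iUnion.2 ⟨x, mem_chart_source C2 x⟩
  obtain ⟨χ, hχ⟩ := PartitionOfUnity.exists_isSubordinate (ι := Fin T.card) isClosed_univ
    (fun a => (chartAt C2 (T.equivFin.symm a : X)).source) (fun _ => (chartAt C2 _).open_source)
    fun x hx => by
      obtain ⟨y, k1, k2⟩ := mem_iUnion₂.1 (hT hx)
      exact mem_iUnion.2 ⟨T.equivFin ⟨y, k1⟩, by simpa using k2⟩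
  refine ⟨T.card, fun a => chartAt C2 (T.equivFin.symm a : X), fun a => χ a, fun _ => i4_hc _,
    fun a => (χ a).continuous, hχ, fun x => ?_⟩
  have k := χ.sum_eq_one (mem_univ x)
  rwa [finsum_eq_sum_of_fintype] at k

theorem i4_ts {g : X → ℝ} {w : Fm X 4} : ∀ x ∉ tsupport g, g x = 0 ∨ w x = 0 :=
  fun _ hx => Or.inl (image_eq_zero_of_notMem_tsupport hx)

theorem int4_IX {w : Fm X 4} (h : Sm w) : Int4 w (IX w) := by
  obtain ⟨l, Q, φ, q1, q2, q3, q4⟩ := i4_pou (X := X)
  refine Classical.epsilon_spec (p := Int4 w) ⟨∑ b, i4_J (Q b) (φ b) w, ?_⟩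
  intro m P ψ p1 p2 p3 p4
  change ∑ a, i4_J (P a) (ψ a) w = _
  rw [Finset.sum_congr rfl fun a _ => i4_split (p1 a) h (p2 a) (isClosed_tsupport _).isCompact
    (p3 a) i4_ts q1 q2 q3 q4, Finset.sum_comm]
  refine Finset.sum_congr rfl fun b _ => ?_
  rw [i4_sum (q1 b) h (q2 b) (isClosed_tsupport _).isCompact (q3 b) i4_ts p2 p4]
  exact Finset.sum_congr rfl fun a _ => by rw [mul_comm]

theorem Int4.uniq {w : Fm X 4} {a b : ℂ} (h : Int4 w a) (h' : Int4 w b) : a = b := by
  obtain ⟨l, Q, φ, q1, q2, q3, q4⟩ := i4_pou (X := X)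
  exact (h l Q φ q1 q2 q3 q4).symm.trans (h' l Q φ q1 q2 q3 q4)

theorem IX_add {w w' : Fm X 4} (h : Sm w) (h' : Sm w') : IX (w + w') = IX w + IX w' := by
  refine (int4_IX fun x => (h x).add (h' x)).uniq fun l P ψ p1 p2 p3 p4 => ?_
  rw [← int4_IX h l P ψ p1 p2 p3 p4, ← int4_IX h' l P ψ p1 p2 p3 p4, ← Finset.sum_add_distrib]
  refine Finset.sum_congr rfl fun a _ => ?_
  have k := integral_add (i4_int (p1 a) h (p2 a) (isClosed_tsupport _).isCompact (p3 a) i4_ts)
    (i4_int (p1 a) h' (p2 a) (isClosed_tsupport _).isCompact (p3 a) i4_ts)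
  refine Eq.trans (integral_congr_ae (.of_forall fun z => ?_)) k
  simp only [i4_D, Pi.add_apply, ContinuousAlternatingMap.add_apply, mul_add]

theorem IX_smul {w : Fm X 4} (h : Sm w) (c : ℂ) : IX (c • w) = c * IX w := by
  refine (int4_IX fun x => (h x).smul c).uniq fun l P ψ p1 p2 p3 p4 => ?_
  rw [← int4_IX h l P ψ p1 p2 p3 p4, Finset.mul_sum]
  refine Finset.sum_congr rfl fun a _ => ?_
  rw [← integral_const_mul]
  refine integral_congr_ae (.of_forall fun z => ?_)
  simp only [Pi.smul_apply, ContinuousAlternatingMap.smul_apply, smul_eq_mul, mul_left_comm]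

theorem IX_sum {ι : Type} (s : Finset ι) {w : ι → Fm X 4} (h : ∀ i ∈ s, Sm (w i)) :
    IX (∑ i ∈ s, w i) = ∑ i ∈ s, IX (w i) := by
  classical
  induction s using Finset.induction_on with
  | empty =>
    have k := IX_add (X := X) (w := 0) (w' := 0) smA_zero smA_zero
    rw [add_zero] at k
    simpa using k
  | insert i s hi ih =>
    have h1 : ∀ j ∈ s, Sm (w j) := fun j hj => h j (Finset.mem_insert_of_mem hj)
    rw [Finset.sum_insert hi, Finset.sum_insert hi, IX_add (h i (Finset.mem_insert_self i s))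
      (fun x => smA_sum s fun j hj => h1 j hj x), ih h1]

theorem IX_box (b : Box X) {w : Fm X 4} (h : Sm w) (hv : Van w b.O) : IX w = b.I w := by
  obtain ⟨l, Q, φ, q1, q2, q3, q4⟩ := i4_pou (X := X)
  have r0 := b.pos
  have hK := b.cl_cpt b.c (s := b.r) (by rw [sub_self, nm_zero]; linarith)
  have k := i4_split (i4_hc b.p) h (g := 1) continuous_const hK (fun _ hx => hx.1)
    (fun x hx => Or.inr (hv x fun k => hx ⟨k.1, k.2.le⟩)) q1 q2 q3 q4
  simp only [mul_one] at k
  rw [← int4_IX h l Q φ q1 q2 q3 q4]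
  refine Eq.trans k.symm ?_
  unfold i4_J Box.I
  rw [← integral_indicator (chartAt C2 b.p).open_target.measurableSet]
  refine integral_congr_ae (.of_forall fun z => ?_)
  unfold Box.ext
  beta_reduce
  split_ifs with hz
  · rw [indicator_of_mem (b.sub z (by linarith)), Pi.one_apply, Complex.ofReal_one, one_mul]
    rfl
  · refine indicator_apply_eq_zero.2 fun k1 => i4_zero (g := 1) (Or.inr (hv _ fun k2 => hz ?_))
    have k3 := k2.2
    rw [(chartAt C2 b.p).right_inv k1] at k3
    linarith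

end Vale.Agent.P267P
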