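import Vale.Agent.P267P.B3
import Vale.Agent.P267P.I4

/-! The wedge product. dd (ρ j dd (ρ i β)) = wd ρ j (wd ρ i β) for closed β (dd_fs, dd_dd); wd_three, wd_two, al_apply, antisymmetry of β x (map_swap), ring. Int2 is then Int4 of the sum (IX_sum, IX_smul, int4_IX). -/

open scoped Manifold ContDiff Topology
open Filter MeasureTheory Set

noncomputable section

namespace Vale.Agent.P267P

open Vale.Agent.P267F Vale.Agent.P267I

set_option linter.unusedSectionVars false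

variable {X : Type} [TopologicalSpace X] [ChartedSpace C2 X] [IsManifold 𝓘(ℂ, C2) ω X] [T2Space X]
  [CompactSpace X] {k d : ℕ}

theorem wg_sm {f g h : X → ℂ} (hf : ∀ x, SmAt f x) (hg : ∀ x, SmAt g x) (hh : ∀ x, SmAt h x)
    {β : Fm X 2} (hβ : Sm β) : Sm (fs f (dd (fs g (dd (fs h β))))) :=
  fun x => (((hβ x).fs (hh x)).dd.fs (hg x)).dd.fs (hf x)

theorem wg_dd {g h : X → ℂ} (hg : ∀ x, SmAt g x) (hh : ∀ x, SmAt h x) {β : Fm X 2} (hβ : Sm β)
    (hc : dd β = 0) (x : X) : dd (fs g (dd (fs h β))) x = wd g (wd h β) x := by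
  have e : dd (fs h β) = wd h β := by
    funext y
    rw [dd_fs (hh y) (hβ y), hc]
    ext v
    simp
  rw [dd_fs (hg x) ((hβ x).fs (hh x)).dd, dd_dd ((hβ x).fs (hh x)), e]
  ext v
  simp

theorem wg_im {f : X → ℂ} (hf : ∀ x, (f x).im = 0) (x : X) (v : C2) : (dAt f x v).im = 0 := by
  unfold dAt
  by_cases h : DifferentiableAt ℝ (f ∘ (chartAt C2 x).symm) (chartAt C2 x x)
  · have h1 := Complex.imCLM.hasFDerivAt.comp _ h.hasFDerivAt
    have h2 : Complex.imCLM ∘ f ∘ (chartAt C2 x).symm = fun _ => 0 := funext fun z => hf _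
    rw [h2] at h1
    exact congrArg (fun L : C2 →L[ℝ] ℝ => L v) (h1.unique (hasFDerivAt_const 0 _))
  · rw [fderiv_zero_of_not_differentiableAt h]
    rfl

theorem Sys.wedge_eq (S : Sys X) (a : Fin S.n → Fin S.n → Fin S.n → ℂ) {β : Fm X 2} (h : Sm β)
    (hc : dd β = 0) (x : X) (v : Fin 4 → C2) :
    (∑ i, ∑ j, ∑ l, a i j l • fs (S.ρ l) (dd (fs (S.ρ j) (dd (fs (S.ρ i) β))))) x v =
      wedge (fun p q => S.al a x ![v p, v q]) (fun p q => β x ![v p, v q]) := by
  simp only [Finset.sum_apply, Pi.smul_apply, fs, ContinuousAlternatingMap.sum_apply,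
    ContinuousAlternatingMap.smul_apply, smul_eq_mul, wg_dd (S.sm _) (S.sm _) h hc, wd_three,
    wd_two, wedge, S.al_apply, Matrix.cons_val_zero, Matrix.cons_val_one, Matrix.cons_val,
    Finset.sum_mul, ← Finset.sum_add_distrib, ← Finset.sum_sub_distrib]
  refine Finset.sum_congr rfl fun i _ => Finset.sum_congr rfl fun j _ =>
    Finset.sum_congr rfl fun l _ => ?_
  ring

theorem Sys.int2_al (S : Sys X) (a : Fin S.n → Fin S.n → Fin S.n → ℂ) {β : Fm X 2} (h : Sm β)
    (hc : dd β = 0) : Int2 (toF2 (S.al a)) (toF2 β)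
      (∑ i, ∑ j, ∑ l, a i j l * IX (fs (S.ρ l) (dd (fs (S.ρ j) (dd (fs (S.ρ i) β)))))) := by
  have h1 : ∀ i j l, Sm (a i j l • fs (S.ρ l) (dd (fs (S.ρ j) (dd (fs (S.ρ i) β))))) :=
    fun i j l x => (wg_sm (S.sm l) (S.sm j) (S.sm i) h x).smul _
  have h2 := fun i j x => smA_sum Finset.univ fun l _ => h1 i j l x
  have h3 := fun i x => smA_sum Finset.univ fun j _ => h2 i j x
  have h4 := int4_IX fun x => smA_sum Finset.univ fun i _ => h3 i x
  rw [IX_sum _ fun i _ => h3 i] at h4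
  simp only [fun i => IX_sum Finset.univ fun j _ => h2 i j,
    fun i j => IX_sum Finset.univ fun l _ => h1 i j l,
    fun i j l => IX_smul (wg_sm (S.sm l) (S.sm j) (S.sm i) h)] at h4
  intro l P ψ k1 k2 k3 k4
  have h5 := h4 l P ψ k1 k2 k3 k4
  simp only [S.wedge_eq a h hc] at h5
  exact h5

theorem int2_uniq {α β : Form2 X} {a b : ℂ} (h : Int2 α β a) (h' : Int2 α β b) : a = b := by
  by_contra hab
  have key : ∀ c : ℂ, Int4 (0 : Fm X 4) c := fun c l P ψ k1 k2 k3 k4 =>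
    absurd ((h l P ψ k1 k2 k3 k4).symm.trans (h' l P ψ k1 k2 k3 k4)) hab
  exact zero_ne_one ((key 0).uniq (key 1))

theorem Sys.al_real (S : Sys X) (m : Fin S.n → Fin S.n → Fin S.n → ℤ) :
    Real2 (toF2 (S.al fun i j l => (m i j l : ℂ))) := by
  intro x v w
  simp only [toF2, S.al_apply, Complex.im_sum, Complex.mul_im, Complex.sub_im, Complex.intCast_im,
    S.re, wg_im (S.re _), mul_zero, zero_mul, add_zero, sub_zero, Finset.sum_const_zero]

end Vale.Agent.P267P
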