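import Vale.Agent.P267P.A2
import Vale.Agent.P267P.B5
import Vale.Agent.P267P.UB
import Vale.Agent.P267P.TB
import Vale.Agent.P267P.WG
import Vale.Agent.P267P.Sy

/-! Assembly (h45). -/

open scoped Manifold ContDiff Topology
open Filter MeasureTheory Set

noncomputable section

namespace Vale.Agent.P267P

open Vale.Agent.P267F Vale.Agent.P267I

set_option linter.unusedSectionVars false

variable {X : Type} [TopologicalSpace X] [ChartedSpace C2 X] [IsManifold 𝓘(ℂ, C2) ω X] [T2Space X]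
  [CompactSpace X] {k d : ℕ}

theorem dual_key (S : Sys X) (z : Fin S.n → Fin S.n → Fin S.n → ℤ)
    (hz : ∀ i j l, ¬ S.Tri i j l → z i j l = 0)
    (hc : ∀ p q, ∑ i, z i p q - ∑ j, z p j q + ∑ l, z p q l = 0) :
    ∃ u θ, IsBundle SmAt u ∧ IsConnection u θ ∧ ∀ w : Fm X 2, Sm w → dd w = 0 →
      Int2 (c1 θ) (toF2 w) (∑ i, ∑ j, ∑ l, (z i j l : ℂ) * S.aa w i j l) := by
  have hZ : IsCh (fun w : Fm X 2 => ∑ i, ∑ j, ∑ l, (z i j l : ℂ) * S.aa w i j l) univ univ := by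
    refine isCh_sum _ fun i _ => isCh_sum _ fun j _ => isCh_sum _ fun l _ => ?_
    by_cases h : S.Tri i j l
    · exact (S.aa_ch h).zsmul _
    · exact (isCh_zero _ _).congr fun w _ _ => by rw [hz i j l h, Int.cast_zero, zero_mul]
  obtain ⟨n, hn, hf⟩ := S.dualCoc hZ fun γ hγ => by
    obtain ⟨c, hc'⟩ := S.aa_exact hγ
    refine Eq.trans ?_ (pair_cob z c hc)
    refine Finset.sum_congr rfl fun i _ => Finset.sum_congr rfl fun j _ =>
      Finset.sum_congr rfl fun l _ => ?_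
    by_cases h : S.Tri i j l
    · rw [hc' i j l h]
    · rw [hz i j l h, Int.cast_zero, zero_mul, zero_mul]
  obtain ⟨u, θ, hu, hθ, e⟩ := S.bundle hn
  refine ⟨u, θ, hu, hθ, fun w hw hd => ?_⟩
  rw [e, hf w hw hd]
  exact S.int2_al _ hw hd

theorem dual_add (w w' : Fm X 2) : toF2 (w + w') = toF2 w + toF2 w' := rfl

theorem dual_smul (c : ℂ) (w : Fm X 2) : toF2 (c • w) = c • toF2 w := rfl

theorem dual_ex (S : Sys X) {w : Fm X 2} (hw : Sm w) (hd : dd w = 0)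
    (m : Fin S.n → Fin S.n → Fin S.n → ℂ) (c : Fin S.n → Fin S.n → ℂ)
    (h : ∀ i j l, S.Tri i j l → S.aa w i j l = m i j l + (c j l - c i l + c i j)) :
    toF2 w - toF2 (S.al m) ∈ B2 X := by
  obtain ⟨γ, hγ, e⟩ := S.weil hw hd
  obtain ⟨γ', hγ', e'⟩ := S.al_cob c
  have e2 : S.al (S.aa w) = S.al m + dd γ' := by
    rw [← e', ← S.al_add]
    exact S.al_congr h
  have e3 : toF2 w - toF2 (S.al m) = toF2 (dd γ') + toF2 (dd γ) := by
    rw [congrArg toF2 e, e2, dual_add, dual_add]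
    abel
  rw [e3]
  exact add_mem (to_exact hγ') (to_exact hγ)

theorem dualA [Nonempty X] {β : Form2 X} (hβ : Closed2 β)
    (h : ∀ u θ, IsBundle SmAt u → IsConnection u θ → ∃ d : ℤ, Int2 (c1 θ) β d) :
    ∃ u θ, IsBundle SmAt u ∧ IsConnection u θ ∧ Real2 (c1 θ) ∧ β - c1 θ ∈ B2 X := by
  obtain ⟨S⟩ := exists_sys (X := X)
  obtain ⟨w, hw, hd, rfl⟩ := of_closed hβ
  obtain ⟨m, c, hm⟩ := split_int S.Tri (S.aa w) fun z hz hc => by
    obtain ⟨u, θ, hu, hθ, e⟩ := dual_key S z hz hc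
    obtain ⟨d, hd'⟩ := h u θ hu hθ
    exact ⟨d, int2_uniq (e w hw hd) hd'⟩
  have hc : S.Coc m := fun a i j l ⟨x, ⟨⟨h1, h2⟩, h3⟩, h4⟩ => by
    have e := S.aa_coc hw hd a i j l ⟨x, ⟨⟨h1, h2⟩, h3⟩, h4⟩
    rw [hm i j l ⟨x, ⟨h2, h3⟩, h4⟩, hm a j l ⟨x, ⟨h1, h3⟩, h4⟩, hm a i l ⟨x, ⟨h1, h2⟩, h4⟩,
      hm a i j ⟨x, ⟨h1, h2⟩, h3⟩] at e
    have : ((m i j l - m a j l + m a i l - m a i j : ℤ) : ℂ) = 0 := by
      push_cast
      linear_combination e
    exact_mod_cast this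
  obtain ⟨u, θ, hu, hθ, e⟩ := S.bundle hc
  refine ⟨u, θ, hu, hθ, ?_, ?_⟩
  · rw [e]
    exact S.al_real m
  · rw [e]
    exact dual_ex S hw hd _ c hm

theorem dual0 [Nonempty X] {β : Form2 X} (hβ : Closed2 β)
    (h : ∀ u θ, IsBundle SmAt u → IsConnection u θ → Int2 (c1 θ) β 0) : β ∈ B2 X := by
  obtain ⟨S⟩ := exists_sys (X := X)
  obtain ⟨w, hw, hd, rfl⟩ := of_closed hβ
  obtain ⟨c, hm⟩ := split_zero S.Tri (S.aa w) fun z hz hc => by
    obtain ⟨u, θ, hu, hθ, e⟩ := dual_key S z hz hc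
    exact int2_uniq (e w hw hd) (h u θ hu hθ)
  have h1 := dual_ex S hw hd 0 c fun i j l t => by rw [hm i j l t]; simp
  have h2 : S.al 0 = 0 := by
    have := S.al_smul 0 0
    rw [smul_zero] at this
    exact this.trans (funext fun x => ContinuousAlternatingMap.ext fun v => zero_smul ℂ (S.al 0 x v))
  have h3 : toF2 (0 : Fm X 2) = 0 := rfl
  rwa [h2, h3, sub_zero] at h1

theorem findim [Nonempty X] : FiniteDimensional ℂ (Z2 X ⧸ (B2 X).submoduleOf (Z2 X)) := by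
  obtain ⟨S⟩ := exists_sys (X := X)
  let T : (Fin S.n → Fin S.n → Fin S.n → ℂ) →ₗ[ℂ] Form2 X :=
    { toFun := fun a => toF2 (S.al a)
      map_add' := fun a b => by rw [S.al_add, dual_add]
      map_smul' := fun c a => by rw [S.al_smul, dual_smul]; rfl }
  have key : ∀ x ∈ Z2 X, ∃ a, T a ∈ Z2 X ∧ x - T a ∈ B2 X := by
    intro x hx
    induction hx using Submodule.span_induction with
    | mem x hx =>
      obtain ⟨w, hw, hd, rfl⟩ := of_closed hx
      refine ⟨S.aa w, ?_, dual_ex S hw hd _ 0 fun i j l _ => by simp⟩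
      obtain ⟨γ, hγ, e⟩ := S.weil hw hd
      have e2 : T (S.aa w) = toF2 w - toF2 (dd γ) := by
        rw [congrArg toF2 e, dual_add, add_sub_cancel_right]
        rfl
      rw [e2]
      exact sub_mem (Submodule.subset_span hx) (Submodule.subset_span
        (to_closed (fun x => (hγ x).dd) (funext fun x => dd_dd (hγ x))))
    | zero => exact ⟨0, by rw [map_zero]; exact zero_mem _, by rw [map_zero, sub_zero]; exact zero_mem _⟩
    | add x y _ _ hx hy =>
      obtain ⟨a, h1, h2⟩ := hx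
      obtain ⟨b, h3, h4⟩ := hy
      refine ⟨a + b, by rw [map_add]; exact add_mem h1 h3, ?_⟩
      rw [map_add, add_sub_add_comm]
      exact add_mem h2 h4
    | smul c x _ hx =>
      obtain ⟨a, h1, h2⟩ := hx
      refine ⟨c • a, by rw [map_smul]; exact Submodule.smul_mem _ _ h1, ?_⟩
      rw [map_smul, ← smul_sub]
      exact Submodule.smul_mem _ _ h2
  let φ : ((Z2 X).comap T) →ₗ[ℂ] (Z2 X ⧸ (B2 X).submoduleOf (Z2 X)) :=
    (Submodule.mkQ _).comp (T.restrict fun a ha => ha)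
  refine Module.Finite.of_surjective φ fun y => ?_
  obtain ⟨x, rfl⟩ := Submodule.mkQ_surjective _ y
  obtain ⟨a, h1, h2⟩ := key x x.2
  refine ⟨⟨a, h1⟩, ?_⟩
  exact ((Submodule.Quotient.eq ((B2 X).submoduleOf (Z2 X)) (x := x) (y := ⟨T a, h1⟩)).2 h2).symm

end Vale.Agent.P267P
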