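import Vale.Agent.P267P.Defs

/-! The volume form of affine space. -/

open scoped Manifold ContDiff Topology
open Filter MeasureTheory Set

noncomputable section

namespace Vale.Agent.P267P

open Vale.Agent.P267F Vale.Agent.P267I

variable {e : C2 ≃L[ℝ] (Fin 4 → ℝ)}

theorem area_top (he : ∀ i, e (bs i) = Pi.single i 1) (w : Al 4) (v : Fin 4 → C2) :
    w v = w bs * ((Pi.basisFun ℝ (Fin 4)).det fun i => e (v i) : ℝ) := by
  have h : ∀ l : ℂ →ₗ[ℝ] ℝ,
      l (w v) = l (w bs) * (Pi.basisFun ℝ (Fin 4)).det fun i => e (v i) := fun l => by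
    have h1 := DFunLike.congr_fun (AlternatingMap.eq_smul_basis_det (Pi.basisFun ℝ (Fin 4))
      (l.compAlternatingMap (w.toAlternatingMap.compLinearMap e.symm.toLinearEquiv.toLinearMap)))
      fun i => e (v i)
    simpa [← he] using h1
  apply Complex.ext
  · simpa using h Complex.reLm
  · simpa using h Complex.imLm

theorem area_det (w : Al 4) (he : ∀ i, e (bs i) = Pi.single i 1) (B : (Fin 4 → ℝ) →L[ℝ] C2) :
    (w fun i => B (Pi.single i 1)) =
      w bs * (((e : C2 →L[ℝ] (Fin 4 → ℝ)).comp B).det : ℝ) := by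
  have h := (Pi.basisFun ℝ (Fin 4)).det_comp
    ((e : C2 →L[ℝ] (Fin 4 → ℝ)).comp B).toLinearMap (Pi.basisFun ℝ (Fin 4))
  rw [Module.Basis.det_self, mul_one] at h
  rw [area_top he, ContinuousLinearMap.det, ← h]
  congr 3
  ext i j
  simp

theorem area_vol (he : ∀ i, e (bs i) = Pi.single i 1) : ∃ vol : Al 4, vol bs = 1 := by
  let f : C2 [⋀^Fin 4]→ₗ[ℝ] ℂ := Complex.ofRealAm.toLinearMap.compAlternatingMap
    ((Pi.basisFun ℝ (Fin 4)).det.compLinearMap e.toLinearEquiv.toLinearMap)
  have hc : Continuous fun v : Fin 4 → C2 =>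
      (((Pi.basisFun ℝ (Fin 4)).det fun i => e (v i) : ℝ) : ℂ) := by
    simp only [Pi.basisFun_det_apply]
    exact Complex.continuous_ofReal.comp (Continuous.matrix_det
      (continuous_pi fun i => e.continuous.comp (continuous_apply i)))
  refine ⟨{ f with cont := hc }, ?_⟩
  have h : (fun i => e (bs i)) = Pi.basisFun ℝ (Fin 4) := funext fun i => by simp [he]
  change (((Pi.basisFun ℝ (Fin 4)).det fun i => e (bs i) : ℝ) : ℂ) = 1
  rw [h, Module.Basis.det_self, Complex.ofReal_one]

theorem area_upd (he : ∀ i, e (bs i) = Pi.single i 1) (w : Al 4) (i : Fin 4) (v : C2) :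
    (-1) ^ (i : ℕ) • w (Matrix.vecCons v (i.removeNth bs)) = w bs * (e v i : ℝ) := by
  rw [← w.map_insertNth, Fin.insertNth_removeNth, area_top he, Pi.basisFun_det_apply]
  have h : (Matrix.of fun j => e (Function.update bs i v j)) =
      (1 : Matrix (Fin 4) (Fin 4) ℝ).updateRow i (e v) := by
    ext j l
    by_cases hj : j = i
    · simp [hj]
    · simp [hj, he, Matrix.one_apply, Pi.single_apply, eq_comm]
  rw [h, ← Matrix.cramer_transpose_apply, Matrix.transpose_one, Matrix.cramer_one]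
  rfl

theorem area_ext (he : ∀ i, e (bs i) = Pi.single i 1) (w : Al 4) {φ : (Fin 4 → ℝ) → ℝ}
    (hφ : ContDiff ℝ ∞ φ) (v : Fin 4 → ℝ) (z : C2) :
    extDeriv (fun z => φ (e z) • w.curryLeft (e.symm v)) z bs =
      w bs * (fderiv ℝ φ (e z) v : ℝ) := by
  have h1 : HasFDerivAt (fun z => φ (e z)) ((fderiv ℝ φ (e z)).comp (e : C2 →L[ℝ] _)) z :=
    (hφ.differentiable (by simp) _).hasFDerivAt.comp z e.hasFDerivAt
  rw [extDeriv_apply (h1.differentiableAt.smul_const _)]
  have h2 : ∀ i : Fin 4, (-1) ^ (i : ℕ) • fderiv ℝ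
      (fun z => (φ (e z) • w.curryLeft (e.symm v)) (i.removeNth bs)) z (bs i) =
      w bs * (fderiv ℝ φ (e z) (v i • Pi.single i 1) : ℝ) := fun i => by
    have h3 := area_upd he w i (e.symm v)
    simp only [ContinuousAlternatingMap.smul_apply, ContinuousAlternatingMap.curryLeft_apply_apply]
    rw [(h1.smul_const _).fderiv, ContinuousLinearMap.smulRight_apply, smul_comm, h3]
    simp only [ContinuousLinearMap.comp_apply, ContinuousLinearEquiv.coe_coe, he, map_smul,
      e.apply_symm_apply, Complex.real_smul, smul_eq_mul, Complex.ofReal_mul]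
    ring
  refine (Finset.sum_congr rfl fun i _ => h2 i).trans ?_
  rw [← Finset.mul_sum, ← Complex.ofReal_sum, ← map_sum, ← pi_eq_sum_univ']

end Vale.Agent.P267P
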