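import Mathlib

/-! P267P: radial homotopy operator on differential forms of a normed space. -/

open scoped ContDiff Topology
open Set Filter

noncomputable section
namespace Vale.Agent.P267P

section Param
variable {E X : Type} [NormedAddCommGroup E] [NormedSpace ℝ E]
  [NormedAddCommGroup X] [NormedSpace ℝ X]

/-- derivative in the parameter -/
def riD (f : E × ℝ → X) (p : E × ℝ) : E →L[ℝ] X :=
  (ContinuousLinearMap.compL ℝ E (E × ℝ) X).flip (ContinuousLinearMap.inl ℝ E ℝ) (fderiv ℝ f p)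

theorem ri_ev {f : E × ℝ → X} {z : E} {a b : ℝ} {n : ℕ}
    (hf : ∀ t ∈ uIcc a b, ContDiffAt ℝ n f (z, t)) :
    ∀ᶠ x in 𝓝 z, ∀ t ∈ uIcc a b, ContDiffAt ℝ n f (x, t) :=
  isCompact_uIcc.eventually_forall_of_forall_eventually (P := fun x t => ContDiffAt ℝ n f (x, t))
    fun t ht => (hf t ht).eventually (by simp)

omit [NormedSpace ℝ E] [NormedSpace ℝ X] in
theorem ri_cont {f : E × ℝ → X} {z : E} {a b : ℝ} (hf : ∀ t ∈ uIcc a b, ContinuousAt f (z, t)) :
    ContinuousOn (fun t => f (z, t)) (uIcc a b) := fun t ht =>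
  (ContinuousAt.comp (f := Prod.mk z) (hf t ht) (by fun_prop)).continuousWithinAt

theorem ri_D {f : E × ℝ → X} {p : E × ℝ} {n : ℕ∞ω} (hf : ContDiffAt ℝ (n + 1) f p) :
    ContDiffAt ℝ n (riD f) p :=
  (ContinuousLinearMap.contDiff _).contDiffAt.comp p hf.fderiv_right_succ

theorem ri_has {f : E × ℝ → X} {z : E} {a b : ℝ}
    (hf : ∀ t ∈ uIcc a b, ContDiffAt ℝ ((0 + 1 : ℕ) : ℕ∞ω) f (z, t)) :
    HasFDerivAt (fun x => ∫ t in a..b, f (x, t)) (∫ t in a..b, riD f (z, t)) z := by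
  have hD : ∀ t ∈ uIcc a b, ContinuousAt (riD f) (z, t) := fun t ht =>
    (ri_D (n := 0) (hf t ht)).continuousAt
  obtain ⟨M, hM⟩ := isCompact_uIcc.exists_bound_of_continuousOn (ri_cont hD)
  have h1 := isCompact_uIcc.eventually_forall_of_forall_eventually (x₀ := z)
    (P := fun x t => ‖riD f (x, t)‖ < M + 1) fun t ht =>
      (hD t ht).norm.eventually (gt_mem_nhds ((hM t ht).trans_lt (lt_add_one M)))
  have hI : uIoc a b ⊆ uIcc a b := uIoc_subset_uIcc
  refine intervalIntegral.hasFDerivAt_integral_of_dominated_of_fderiv_le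
    (F := fun x t => f (x, t)) (F' := fun x t => riD f (x, t)) (bound := fun _ => M + 1)
    ((ri_ev hf).and h1) ((ri_ev hf).mono fun x hx => ((ri_cont fun t ht =>
      (hx t ht).continuousAt).mono hI).aestronglyMeasurable measurableSet_uIoc)
    ((ri_cont fun t ht => (hf t ht).continuousAt).intervalIntegrable)
    (((ri_cont hD).mono hI).aestronglyMeasurable measurableSet_uIoc)
    (Eventually.of_forall fun t ht x hx => (hx.2 t (hI ht)).le) intervalIntegrable_const
    (Eventually.of_forall fun t ht x hx => ?_)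
  exact ((hx.1 t (hI ht)).differentiableAt (by simp)).hasFDerivAt.comp x
    (hasFDerivAt_prodMk_left x t)

theorem ri_cd {z : E} {a b : ℝ} (n : ℕ) {f : E × ℝ → X}
    (hf : ∀ t ∈ uIcc a b, ContDiffAt ℝ ((n + 1 : ℕ) : ℕ∞ω) f (z, t)) :
    ContDiffAt ℝ n (fun x => ∫ t in a..b, f (x, t)) z := by
  induction n generalizing X with
  | zero =>
    exact contDiffAt_zero.2 ⟨_, ri_ev hf, fun x hx =>
      (ri_has hx).continuousAt.continuousWithinAt⟩
  | succ n ih =>
    exact contDiffAt_succ_iff_hasFDerivAt.2 ⟨fun x => ∫ t in a..b, riD f (x, t),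
      ⟨_, ri_ev hf, fun x hx => ri_has fun t ht => (hx t ht).of_le (by simp)⟩,
      ih fun t ht => ri_D (hf t ht)⟩

theorem ri_le (n : ℕ) : ((n : ℕ) : ℕ∞ω) ≤ ∞ := by exact_mod_cast le_top

theorem ri_smooth {f : E × ℝ → X} {z : E} {a b : ℝ}
    (hf : ∀ t ∈ uIcc a b, ContDiffAt ℝ ∞ f (z, t)) :
    ContDiffAt ℝ ∞ (fun x => ∫ t in a..b, f (x, t)) z :=
  contDiffAt_infty.2 fun n => ri_cd n fun t ht => (hf t ht).of_le (ri_le (n + 1))

end Param

variable {E F : Type} [NormedAddCommGroup E] [NormedSpace ℝ E]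
  [NormedAddCommGroup F] [NormedSpace ℝ F] {k : ℕ}

open ContinuousAlternatingMap

/-- interior product as a continuous bilinear map -/
def rIota (E F : Type) [NormedAddCommGroup E] [NormedSpace ℝ E]
    [NormedAddCommGroup F] [NormedSpace ℝ F] (k : ℕ) :
    (E [⋀^Fin (k + 1)]→L[ℝ] F) →L[ℝ] E →L[ℝ] (E [⋀^Fin k]→L[ℝ] F) :=
  (curryLeftLI (𝕜 := ℝ) (E := E) (F := F) (n := k)).toContinuousLinearMap

@[simp] theorem rIota_apply (f : E [⋀^Fin (k + 1)]→L[ℝ] F) : rIota E F k f = f.curryLeft := rfl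

theorem rIota_cd {n : ℕ∞ω} : ContDiff ℝ n (fun f : E [⋀^Fin (k + 1)]→L[ℝ] F => rIota E F k f) :=
  ContinuousLinearMap.contDiff (𝕜 := ℝ) (E := E [⋀^Fin (k + 1)]→L[ℝ] F)
    (F := E →L[ℝ] (E [⋀^Fin k]→L[ℝ] F)) (rIota E F k)

theorem rIota_has (g : E [⋀^Fin (k + 1)]→L[ℝ] F) :
    HasFDerivAt (fun f : E [⋀^Fin (k + 1)]→L[ℝ] F => rIota E F k f) (rIota E F k) g :=
  ContinuousLinearMap.hasFDerivAt (𝕜 := ℝ) (E := E [⋀^Fin (k + 1)]→L[ℝ] F)
    (F := E →L[ℝ] (E [⋀^Fin k]→L[ℝ] F)) (rIota E F k)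

theorem rAlt_cd {n : ℕ∞ω} :
    ContDiff ℝ n (fun f : E →L[ℝ] (E [⋀^Fin k]→L[ℝ] F) => alternatizeUncurryFin f) :=
  ContinuousLinearMap.contDiff (𝕜 := ℝ) (E := E →L[ℝ] (E [⋀^Fin k]→L[ℝ] F))
    (F := E [⋀^Fin (k + 1)]→L[ℝ] F) (alternatizeUncurryFinCLM ℝ E F)

/-- the exterior derivative of a smooth form is smooth -/
theorem extDeriv_smooth {om : E → E [⋀^Fin k]→L[ℝ] F} {x : E} (h : ContDiffAt ℝ ∞ om x) :
    ContDiffAt ℝ ∞ (extDeriv om) x :=
  ContDiffAt.comp (g := fun f : E →L[ℝ] (E [⋀^Fin k]→L[ℝ] F) => alternatizeUncurryFin f) x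
    rAlt_cd.contDiffAt (h.fderiv_right (m := ∞) (by simp))

/-- algebraic Cartan formula -/
theorem cartan_alg (L : E →L[ℝ] E [⋀^Fin (k + 1)]→L[ℝ] F) (w : E) :
    alternatizeUncurryFin (((rIota E F k).flip w).comp L) +
      (alternatizeUncurryFin L).curryLeft w = L w := by
  ext v
  simp only [ContinuousAlternatingMap.add_apply, alternatizeUncurryFin_apply,
    curryLeft_apply_apply, ContinuousLinearMap.comp_apply, ContinuousLinearMap.flip_apply,
    rIota_apply]
  rw [Fin.sum_univ_succ (n := k + 1)]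
  simp only [Fin.val_zero, pow_zero, one_smul, Matrix.cons_val_zero, Fin.val_succ,
    Matrix.cons_val_succ, pow_succ, mul_neg, mul_one, neg_smul, Finset.sum_neg_distrib]
  have h0 : Fin.removeNth 0 (Matrix.vecCons w v) = v := by
    ext i; simp [Fin.removeNth]
  have h1 : ∀ i : Fin (k + 1), Fin.removeNth i.succ (Matrix.vecCons w v) =
      Matrix.vecCons w (Fin.removeNth i v) := by
    intro i; ext j
    refine Fin.cases ?_ (fun j => ?_) j
    · simp [Fin.removeNth]
    · simp [Fin.removeNth]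
  simp only [h0, h1]
  abel

/-- integrand of the radial operator -/
def rint (z0 : E) (om : E → E [⋀^Fin (k + 1)]→L[ℝ] F) (p : E × ℝ) : E [⋀^Fin k]→L[ℝ] F :=
  p.2 ^ k • (om (z0 + p.2 • (p.1 - z0))).curryLeft (p.1 - z0)

/-- the radial homotopy operator with centre `z0`, scales from `a` to `b` -/
def rcone (z0 : E) (a b : ℝ) (om : E → E [⋀^Fin (k + 1)]→L[ℝ] F) (x : E) :
    E [⋀^Fin k]→L[ℝ] F :=
  ∫ t in a..b, t ^ k • (om (z0 + t • (x - z0))).curryLeft (x - z0)

theorem rint_cd {n : ℕ∞ω} (z0 : E) {om : E → E [⋀^Fin (k + 1)]→L[ℝ] F} {p : E × ℝ}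
    (h : ContDiffAt ℝ n om (z0 + p.2 • (p.1 - z0))) : ContDiffAt ℝ n (rint z0 om) p := by
  have h1 : ContDiffAt ℝ n (fun q : E × ℝ => z0 + q.2 • (q.1 - z0)) p := by fun_prop
  have h2 : ContDiffAt ℝ n (fun q : E × ℝ => om (z0 + q.2 • (q.1 - z0))) p :=
    ContDiffAt.comp (g := om) p h h1
  have h3 : ContDiffAt ℝ n (fun q : E × ℝ => rIota E F k (om (z0 + q.2 • (q.1 - z0)))) p :=
    ContDiffAt.comp (g := fun f : E [⋀^Fin (k + 1)]→L[ℝ] F => rIota E F k f) p
      rIota_cd.contDiffAt h2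
  have h4 : ContDiffAt ℝ n (fun q : E × ℝ => q.1 - z0) p := by fun_prop
  have h5 : ContDiffAt ℝ n (fun q : E × ℝ => q.2 ^ k) p := by fun_prop
  exact h5.smul (h3.clm_apply h4)

theorem rcone_smooth (z0 : E) {a b : ℝ} {om : E → E [⋀^Fin (k + 1)]→L[ℝ] F} {x : E}
    (h : ∀ t ∈ uIcc a b, ContDiffAt ℝ ∞ om (z0 + t • (x - z0))) :
    ContDiffAt ℝ ∞ (rcone z0 a b om) x :=
  ri_smooth (f := rint z0 om) fun t ht => rint_cd z0 (p := (x, t)) (h t ht)

theorem rint_D (z0 : E) {om : E → E [⋀^Fin (k + 1)]→L[ℝ] F} {x : E} {t : ℝ}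
    (h : DifferentiableAt ℝ om (z0 + t • (x - z0))) (hd : DifferentiableAt ℝ (rint z0 om) (x, t)) :
    riD (rint z0 om) (x, t) =
      t ^ (k + 1) • ((rIota E F k).flip (x - z0)).comp (fderiv ℝ om (z0 + t • (x - z0))) +
        t ^ k • (om (z0 + t • (x - z0))).curryLeft := by
  have e1 : HasFDerivAt (fun y => rint z0 om (y, t)) (riD (rint z0 om) (x, t)) x :=
    HasFDerivAt.comp (g := rint z0 om) (f := fun y : E => (y, t)) x hd.hasFDerivAt
      (hasFDerivAt_prodMk_left (𝕜 := ℝ) x t)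
  have a1 : HasFDerivAt (fun y : E => y - z0) (ContinuousLinearMap.id ℝ E) x :=
    (hasFDerivAt_id x).sub_const z0
  have a2 : HasFDerivAt (fun y : E => z0 + t • (y - z0)) (t • ContinuousLinearMap.id ℝ E) x :=
    (a1.const_smul t).const_add z0
  have a3 := HasFDerivAt.comp x (g := om) h.hasFDerivAt a2
  have a4 : HasFDerivAt (fun y : E => rIota E F k (om (z0 + t • (y - z0))))
      ((rIota E F k).comp ((fderiv ℝ om (z0 + t • (x - z0))).comp
        (t • ContinuousLinearMap.id ℝ E))) x :=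
    HasFDerivAt.comp (g := fun f : E [⋀^Fin (k + 1)]→L[ℝ] F => rIota E F k f) x
      (rIota_has _) a3
  have a5 := (a4.clm_apply a1).const_smul (t ^ k)
  have e2 := e1.unique a5
  rw [e2]
  ext u v
  simp [pow_succ, mul_smul, add_comm]

/-- pointwise Cartan identity -/
theorem rint_cartan (z0 : E) {om : E → E [⋀^Fin (k + 1)]→L[ℝ] F} {x : E} {t : ℝ}
    (h : DifferentiableAt ℝ om (z0 + t • (x - z0))) (hd : DifferentiableAt ℝ (rint z0 om) (x, t)) :
    HasDerivAt (fun s : ℝ => s ^ (k + 1) • om (z0 + s • (x - z0)))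
      (alternatizeUncurryFin (riD (rint z0 om) (x, t)) + rint z0 (extDeriv om) (x, t)) t := by
  have a2 : HasDerivAt (fun s : ℝ => z0 + s • (x - z0)) (x - z0) t := by
    simpa using ((hasDerivAt_id t).smul_const (x - z0)).const_add z0
  have a3 := HasFDerivAt.comp_hasDerivAt (l := om) t h.hasFDerivAt a2
  have a4 := (hasDerivAt_pow (k + 1) t).smul a3
  refine a4.congr_deriv ?_
  rw [rint_D z0 h hd, alternatizeUncurryFin_add, alternatizeUncurryFin_smul,
    alternatizeUncurryFin_smul, alternatizeUncurryFin_curryLeft,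
    ← cartan_alg (fderiv ℝ om (z0 + t • (x - z0))) (x - z0)]
  simp only [rint, extDeriv, Function.comp, smul_add, Nat.add_sub_cancel]
  rw [← Nat.cast_smul_eq_nsmul ℝ, smul_smul, mul_comm (t ^ k)]
  abel

variable [CompleteSpace F]

/-- the homotopy formula `d K + K d = (scale b)^* - (scale a)^*` -/
theorem rcone_homotopy (z0 : E) {a b : ℝ} {om : E → E [⋀^Fin (k + 1)]→L[ℝ] F} {x : E}
    (h : ∀ t ∈ uIcc a b, ContDiffAt ℝ ∞ om (z0 + t • (x - z0))) :
    extDeriv (rcone z0 a b om) x + rcone z0 a b (extDeriv om) x =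
      b ^ (k + 1) • om (z0 + b • (x - z0)) - a ^ (k + 1) • om (z0 + a • (x - z0)) := by
  have hr : ∀ t ∈ uIcc a b, ContDiffAt ℝ ∞ (rint z0 om) (x, t) := fun t ht =>
    rint_cd z0 (p := (x, t)) (h t ht)
  have hd : ∀ t ∈ uIcc a b, ContDiffAt ℝ ∞ (extDeriv om) (z0 + t • (x - z0)) := fun t ht =>
    extDeriv_smooth (h t ht)
  have i1 : IntervalIntegrable (fun t => riD (rint z0 om) (x, t)) MeasureTheory.volume a b :=
    (ri_cont fun t ht => (ri_D (n := 0) ((hr t ht).of_le (ri_le 1))).continuousAt).intervalIntegrable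
  have i2 : IntervalIntegrable (fun t => rint z0 (extDeriv om) (x, t)) MeasureTheory.volume a b :=
    (ri_cont fun t ht => (rint_cd z0 (p := (x, t)) (hd t ht)).continuousAt).intervalIntegrable
  have i3 : IntervalIntegrable (fun t => alternatizeUncurryFinCLM ℝ E F (riD (rint z0 om) (x, t)))
      MeasureTheory.volume a b :=
    (ri_cont (f := fun p => alternatizeUncurryFin (riD (rint z0 om) p)) fun t ht =>
      ContinuousAt.comp (g := fun f : E →L[ℝ] (E [⋀^Fin k]→L[ℝ] F) => alternatizeUncurryFin f)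
        (rAlt_cd (n := 0)).continuous.continuousAt
        (ri_D (n := 0) ((hr t ht).of_le (ri_le 1))).continuousAt).intervalIntegrable
  have e1 : fderiv ℝ (rcone z0 a b om) x = ∫ t in a..b, riD (rint z0 om) (x, t) :=
    (ri_has (f := rint z0 om) fun t ht => (hr t ht).of_le (ri_le _)).fderiv
  have e2 : extDeriv (rcone z0 a b om) x =
      ∫ t in a..b, alternatizeUncurryFinCLM ℝ E F (riD (rint z0 om) (x, t)) := by
    rw [ContinuousLinearMap.intervalIntegral_comp_comm _ i1, ← e1]; rfl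
  rw [e2]
  refine (intervalIntegral.integral_add i3 i2).symm.trans ?_
  exact intervalIntegral.integral_eq_sub_of_hasDerivAt
    (f := fun s : ℝ => s ^ (k + 1) • om (z0 + s • (x - z0)))
    (fun t ht => rint_cartan z0 ((h t ht).differentiableAt (by simp))
      ((hr t ht).differentiableAt (by simp))) (i3.add i2)

/-- degree zero: `K d f = f(scale b) - f(scale a)` -/
theorem rcone_homotopy0 (z0 : E) {a b : ℝ} {om : E → E [⋀^Fin 0]→L[ℝ] F} {x : E}
    (h : ∀ t ∈ uIcc a b, ContDiffAt ℝ ∞ om (z0 + t • (x - z0))) :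
    rcone z0 a b (extDeriv om) x = om (z0 + b • (x - z0)) - om (z0 + a • (x - z0)) := by
  have hd : ∀ t ∈ uIcc a b, ContDiffAt ℝ ∞ (extDeriv om) (z0 + t • (x - z0)) := fun t ht =>
    extDeriv_smooth (h t ht)
  have i2 : IntervalIntegrable (fun t => rint z0 (extDeriv om) (x, t)) MeasureTheory.volume a b :=
    (ri_cont fun t ht => (rint_cd z0 (p := (x, t)) (hd t ht)).continuousAt).intervalIntegrable
  refine intervalIntegral.integral_eq_sub_of_hasDerivAt
    (f := fun s : ℝ => om (z0 + s • (x - z0))) (fun t ht => ?_) i2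
  have a2 : HasDerivAt (fun s : ℝ => z0 + s • (x - z0)) (x - z0) t := by
    simpa using ((hasDerivAt_id t).smul_const (x - z0)).const_add z0
  refine (HasFDerivAt.comp_hasDerivAt (l := om) t
    ((h t ht).differentiableAt (by simp)).hasFDerivAt a2).congr_deriv ?_
  ext v
  simp [extDeriv, alternatizeUncurryFin_apply, Subsingleton.elim v ![], Fin.removeNth]

end Vale.Agent.P267P
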