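import Vale.Agent.P267P.N0
import Vale.Agent.P267P.Rad

/-! Smoothness of the radial operator. -/

open scoped Manifold ContDiff Topology
open Filter MeasureTheory Set

noncomputable section

namespace Vale.Agent.P267P

open Vale.Agent.P267F Vale.Agent.P267I

set_option linter.unusedSectionVars false

variable {X : Type} [TopologicalSpace X] [ChartedSpace C2 X] [IsManifold 𝓘(ℂ, C2) ω X] [T2Space X]
  [CompactSpace X] {k d : ℕ}

theorem rad_sm {u : C2 → Al (k + 1)} (hu : ContDiff ℝ ∞ u) (q : C2) (a b : ℝ) :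
    ContDiff ℝ ∞ (rad q a b u) := by
  exact contDiff_iff_contDiffAt.2 fun _ => rcone_smooth q fun _ _ => hu.contDiffAt

theorem rad_congr {u u' : C2 → Al (k + 1)} {q : C2} {a b : ℝ} {z : C2}
    (h : ∀ t ∈ uIcc a b, u (q + t • (z - q)) = u' (q + t • (z - q))) : rad q a b u z = rad q a b u' z := by
  unfold rad
  exact intervalIntegral.integral_congr fun t ht => by simp only [h t ht]

theorem exists_ext {u : C2 → Al k} {c : C2} {r : ℝ} (hr : 0 < r)
    (hu : ∀ z, nm (z - c) ≤ 3 * r → ContDiffAt ℝ ∞ u z) :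
    ∃ u' : C2 → Al k, ContDiff ℝ ∞ u' ∧ ∀ z, nm (z - c) ≤ 5 / 2 * r → u' z = u z := by
  have hc : Continuous fun z : C2 => nm (z - c) := nm_cont.comp (continuous_id.sub continuous_const)
  obtain ⟨χ, h1, -, h0, h2⟩ := exists_contMDiff_zero_iff_one_iff_of_isClosed (n := ⊤) 𝓘(ℝ, C2)
    (s := {z : C2 | 11 / 4 * r ≤ nm (z - c)}) (t := {z : C2 | nm (z - c) ≤ 5 / 2 * r})
    (isClosed_le continuous_const hc) (isClosed_le hc continuous_const)
    (Set.disjoint_left.2 fun z (h : 11 / 4 * r ≤ nm (z - c)) (h' : nm (z - c) ≤ 5 / 2 * r) => by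
      linarith)
  have h3 : ContDiff ℝ ∞ χ := h1.contDiff
  refine ⟨fun z => χ z • u z, contDiff_iff_contDiffAt.2 fun z => ?_, fun z hz => ?_⟩
  · rcases le_or_gt (nm (z - c)) (3 * r) with hz | hz
    · exact h3.contDiffAt.smul (hu z hz)
    · refine (contDiffAt_const (c := (0 : Al k))).congr_of_eventuallyEq ?_
      have h4 : 11 / 4 * r < nm (z - c) := by linarith
      filter_upwards [hc.continuousAt.eventually (lt_mem_nhds h4)] with y hy
      rw [(h0 y).1 (le_of_lt hy)]
      ext v
      simp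
  · simp only [(h2 z).1 hz]
    ext v
    simp

end Vale.Agent.P267P
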