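import Vale.Agent.P267P.R1
import Vale.Agent.P267P.R2
import Vale.Agent.P267P.F3

/-! The outward operator. -/

open scoped Manifold ContDiff Topology
open Filter MeasureTheory Set

noncomputable section

namespace Vale.Agent.P267P

open Vale.Agent.P267F Vale.Agent.P267I

set_option linter.unusedSectionVars false

variable {X : Type} [TopologicalSpace X] [ChartedSpace C2 X] [IsManifold 𝓘(ℂ, C2) ω X] [T2Space X]
  [CompactSpace X] {k d : ℕ}

theorem kk_s0 (a : ℝ) : a • (0 : Al k) = 0 := by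
  ext v
  simp

theorem kk_1s (u : Al k) : (1 : ℝ) • u = u := by
  ext v
  simp

theorem Box.ext_zero (b : Box X) {w : Fm X k} (hv : Van w b.O) {z : C2} (hz : b.r ≤ nm (z - b.c)) :
    b.ext w z = 0 := by
  unfold Box.ext
  split_ifs with h
  · have ht : z ∈ (chartAt C2 b.p).target := b.sub z (by linarith [b.pos])
    have h0 : w ((chartAt C2 b.p).symm z) = 0 := hv _ fun ho => by
      have := ho.2
      rw [(chartAt C2 b.p).right_inv ht] at this
      linarith
    unfold loc
    rw [h0]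
    ext v
    rfl
  · rfl

theorem kk_cont (c : C2) : Continuous fun z : C2 => nm (z - c) :=
  nm_cont.comp (continuous_id.sub continuous_const)

theorem Box.ext_ev (b : Box X) (w : Fm X k) {z : C2} (hz : nm (z - b.c) < 2 * b.r) :
    b.ext w =ᶠ[𝓝 z] loc b.p w := by
  filter_upwards [(kk_cont b.c).continuousAt.eventually (gt_mem_nhds hz)] with y hy
  exact if_pos hy

theorem Box.ext_ev0 (b : Box X) {w : Fm X k} (hv : Van w b.O) {z : C2} (hz : b.r < nm (z - b.c)) :
    b.ext w =ᶠ[𝓝 z] fun _ => 0 := by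
  filter_upwards [(kk_cont b.c).continuousAt.eventually (lt_mem_nhds hz)] with y hy
  exact b.ext_zero hv (le_of_lt hy)

theorem Box.ext_sm (b : Box X) {w : Fm X k} (h : Sm w) (hv : Van w b.O) : ContDiff ℝ ∞ (b.ext w) := by
  refine contDiff_iff_contDiffAt.2 fun z => ?_
  rcases lt_or_ge (nm (z - b.c)) (2 * b.r) with hz | hz
  · exact (h.loc (b.sub z (by linarith [b.pos]))).congr_of_eventuallyEq (b.ext_ev w hz)
  · exact contDiffAt_const.congr_of_eventuallyEq (b.ext_ev0 hv (by linarith [b.pos]))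

theorem kk_ext0 (z : C2) : extDeriv (fun _ : C2 => (0 : Al k)) z = 0 := by
  simp only [extDeriv, fderiv_fun_const, Pi.zero_apply]
  exact map_zero (ContinuousAlternatingMap.alternatizeUncurryFinCLM ℝ C2 ℂ)

/-- a continuous function that vanishes outside the open box vanishes on its boundary; so does
its derivative -/
theorem Box.extD_zero (b : Box X) {w : Fm X k} (h : Sm w) (hv : Van w b.O) {z : C2}
    (hz : b.r ≤ nm (z - b.c)) : extDeriv (b.ext w) z = 0 := by
  have hc : Continuous (extDeriv (b.ext w)) := continuous_iff_continuousAt.2 fun y =>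
    (extDeriv_smooth (b.ext_sm h hv).contDiffAt).continuousAt
  have h1 : Continuous fun t : ℝ => extDeriv (b.ext w) (b.c + t • (z - b.c)) :=
    hc.comp (by fun_prop)
  have h2 : ∀ t ∈ Ioi (1 : ℝ), extDeriv (b.ext w) (b.c + t • (z - b.c)) = 0 := by
    intro t ht
    have ht' : 1 < t := ht
    refine (b.ext_ev0 hv ?_).extDeriv_eq.trans (kk_ext0 _)
    rw [add_sub_cancel_left, nm_smul, abs_of_pos (by linarith)]
    nlinarith [b.pos]
  have h3 := (isClosed_eq h1 continuous_const).closure_subset_iff.2 h2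
  rw [closure_Ioi] at h3
  simpa using h3 (mem_Ici.2 le_rfl)

theorem Box.van_cl (b : Box X) {w : Fm X k} (hv : Van w b.O) {x : X}
    (hx : ¬ (x ∈ (chartAt C2 b.p).source ∧ nm (chartAt C2 b.p x - b.c) ≤ b.r)) : dd w x = 0 := by
  have hC := (b.cl_cpt b.c (s := b.r) (by rw [sub_self, nm_zero]; linarith [b.pos])).isClosed
  exact Van.dd (T := {x | x ∈ (chartAt C2 b.p).source ∧ nm (chartAt C2 b.p x - b.c) ≤ b.r})
    (fun y hy => hv y fun ho => hy ⟨ho.1, le_of_lt ho.2⟩) hC x hx

theorem kk_loc0 (p : X) (z : C2) : loc p (0 : Fm X k) z = 0 := by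
  ext v
  rfl

theorem Box.van_dd (b : Box X) {w : Fm X k} (h : Sm w) (hv : Van w b.O) : Van (dd w) b.O := by
  intro x hx
  by_cases hc : x ∈ (chartAt C2 b.p).source ∧ nm (chartAt C2 b.p x - b.c) ≤ b.r
  · refine loc_inj (w' := 0) hc.1 ?_
    rw [loc_dd hc.1 (h x), kk_loc0,
      ← (b.ext_ev w (by linarith [hc.2, b.pos])).extDeriv_eq]
    exact b.extD_zero h hv (not_lt.1 fun h' => hx ⟨hc.1, h'⟩)
  · exact b.van_cl hv hc

theorem Box.ext_dd (b : Box X) {w : Fm X k} (h : Sm w) (hv : Van w b.O) :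
    b.ext (dd w) = extDeriv (b.ext w) := by
  funext z
  rcases lt_or_ge (nm (z - b.c)) (2 * b.r) with hz | hz
  · have ht : z ∈ (chartAt C2 b.p).target := b.sub z (by linarith [b.pos])
    have := loc_dd ((chartAt C2 b.p).map_target ht) (h _)
    rw [(chartAt C2 b.p).right_inv ht] at this
    rw [(b.ext_ev w hz).extDeriv_eq, (b.ext_ev (dd w) hz).eq_of_nhds, this]
  · rw [b.extD_zero h hv (by linarith [b.pos]), b.ext_zero (b.van_dd h hv) (by linarith [b.pos])]

theorem kk_far {c q z : C2} {r t : ℝ} (hq : nm (q - c) < r) (hz : r ≤ nm (z - c)) (ht : 1 ≤ t) :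
    r ≤ nm (q + t • (z - q) - c) := by
  have e : t • (z - c) = (q + t • (z - q) - c) + (t - 1) • (q - c) := by module
  have h1 := nm_add (q + t • (z - q) - c) ((t - 1) • (q - c))
  rw [← e, nm_smul, nm_smul, abs_of_pos (by linarith), abs_of_nonneg (by linarith)] at h1
  nlinarith

theorem Box.rad_zero (b : Box X) {q : C2} {ε : ℝ} (ha : b.Adm q ε) {w : Fm X (k + 1)}
    (hv : Van w b.O) {z : C2} (hz : b.r ≤ nm (z - b.c)) :
    rad q 1 (2 * b.r / ε + 1) (b.ext w) z = 0 := by
  have h0 : 0 ≤ 2 * b.r / ε := div_nonneg (by linarith [b.pos]) ha.1.le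
  unfold rad
  refine (intervalIntegral.integral_congr (g := fun _ => 0) fun t ht => ?_).trans (by simp)
  rw [uIcc_of_le (by linarith)] at ht
  have h1 : nm (q - b.c) < b.r := by linarith [ha.1, ha.2]
  have h2 := b.ext_zero hv (kk_far h1 hz ht.1)
  simp only [h2]
  ext v
  simp

theorem kk_glob0 {p y : X} {u : C2 → Al k} (h : y ∈ (chartAt C2 p).source →
    u (chartAt C2 p y) = 0) : glob p u y = 0 := by
  unfold glob
  split_ifs with hp
  · rw [h hp]
    ext v
    rfl
  · rfl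

theorem Box.K_sm (b : Box X) {q : C2} {ε : ℝ} (ha : b.Adm q ε) {w : Fm X (k + 1)} (h : Sm w)
    (hv : Van w b.O) : Sm (b.K q ε w) ∧ Van (b.K q ε w) b.O := by
  refine ⟨sm_glob b.p (nm_cpt b.c b.r) (fun z hz => b.sub z (by
    have : nm (z - b.c) ≤ b.r := hz
    linarith [b.pos])) (fun z _ => ?_) fun z hz => ?_, fun x hx => kk_glob0 fun hs => ?_⟩
  · have h1 : ContDiff ℝ ∞ fun z : C2 => 1 - cut ε (z - q) :=
      contDiff_const.sub ((cut_spec ha.1).sm.comp (contDiff_id.sub contDiff_const))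
    exact h1.contDiffAt.smul (rad_sm (b.ext_sm h hv) q _ _).contDiffAt
  · rw [b.rad_zero ha hv (le_of_lt (not_le.1 hz)), kk_s0]
  · rw [b.rad_zero ha hv (not_lt.1 fun h' => hx ⟨hs, h'⟩), kk_s0]

theorem Box.K_id (b : Box X) {q : C2} {ε : ℝ} (ha : b.Adm q ε) {w : Fm X (k + 1)} (h : Sm w)
    (hv : Van w b.O) {x : X} (hx : x ∉ b.N q ε) : dd (b.K q ε w) x + b.K q ε (dd w) x = -w x := by
  have hK := b.K_sm ha h hv
  by_cases ho : x ∈ b.O
  · have hs := ho.1
    have ht := (chartAt C2 b.p).map_source hs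
    have hq : 2 * ε < nm (chartAt C2 b.p x - q) := not_le.1 fun h' => hx ⟨hs, h'⟩
    refine loc_inj (w := dd (b.K q ε w) + b.K q ε (dd w)) (w' := -w) hs ?_
    have e1 : loc b.p (dd (b.K q ε w) + b.K q ε (dd w)) (chartAt C2 b.p x) =
        loc b.p (dd (b.K q ε w)) (chartAt C2 b.p x) +
          loc b.p (b.K q ε (dd w)) (chartAt C2 b.p x) := by
      ext v
      rfl
    have e2 : loc b.p (-w) (chartAt C2 b.p x) = -loc b.p w (chartAt C2 b.p x) := by
      ext v
      rfl
    have e3 : ∀ {j : ℕ} (w' : Fm X (j + 1)), loc b.p (b.K q ε w') =ᶠ[𝓝 (chartAt C2 b.p x)]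
        rad q 1 (2 * b.r / ε + 1) (b.ext w') := by
      intro j w'
      filter_upwards [(chartAt C2 b.p).open_target.mem_nhds ht,
        (kk_cont q).continuousAt.eventually (lt_mem_nhds hq)] with z h1 h2
      unfold Box.K
      rw [loc_glob _ _ h1, (cut_spec ha.1).zero _ (le_of_lt h2), sub_zero, kk_1s]
    rw [e1, e2, loc_dd hs (hK.1 x), (e3 w).extDeriv_eq, (e3 (dd w)).eq_of_nhds, b.ext_dd h hv,
      rad_id (b.ext_sm h hv), b.ext_zero hv, kk_s0, one_pow, kk_1s, one_smul,
      add_sub_cancel, zero_sub, (b.ext_ev w (by linarith [ho.2, b.pos])).eq_of_nhds]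
    have h0 : 0 ≤ 2 * b.r / ε := div_nonneg (by linarith [b.pos]) ha.1.le
    have h1 := nm_add (q + (2 * b.r / ε + 1) • (chartAt C2 b.p x - q) - b.c) (-(q - b.c))
    rw [show q + (2 * b.r / ε + 1) • (chartAt C2 b.p x - q) - b.c + -(q - b.c) =
      (2 * b.r / ε + 1) • (chartAt C2 b.p x - q) by abel, nm_smul, nm_neg,
      abs_of_pos (by linarith)] at h1
    have h2 : 2 * b.r / ε * ε = 2 * b.r := div_mul_cancel₀ _ ha.1.ne'
    nlinarith [ha.1, ha.2, b.pos]
  · rw [b.van_dd hK.1 hK.2 x ho, (b.K_sm ha (fun y => (h y).dd) (b.van_dd h hv)).2 x ho, hv x ho]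
    simp

end Vale.Agent.P267P
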