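import Vale.Agent.P267P.Deg

/-! P267, duality: a degree that kills all derivatives on a convex set is constant. -/

open MeasureTheory Set Filter Topology
open scoped ContDiff

namespace Vale.Agent.P267P

variable {E : Type} [NormedAddCommGroup E] [NormedSpace ℝ E] [FiniteDimensional ℝ E]
  [MeasurableSpace E] [BorelSpace E] {μ : Measure E} [μ.IsAddHaarMeasure] {L : (E → ℝ) → ℝ}

omit [FiniteDimensional ℝ E] [μ.IsAddHaarMeasure] in
theorem top_shift {n φ : E → ℝ} (a : Integrable n μ) (hφ : ContDiff ℝ ∞ φ)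
    (hc : HasCompactSupport φ) (w : E)
    (h0 : ∀ t ∈ Icc (0 : ℝ) 1, ∫ y, fderiv ℝ φ (y - t • w) w * n y ∂μ = 0) :
    ∫ y, φ (y - w) * n y ∂μ = ∫ y, φ y * n y ∂μ := by
  have hd : Continuous fun y => fderiv ℝ φ y w :=
    (hφ.continuous_fderiv (by simp)).clm_apply continuous_const
  obtain ⟨C, hC⟩ := hd.bounded_above_of_compact_support (hc.fderiv_apply ℝ w)
  obtain ⟨D, hD⟩ := hφ.continuous.bounded_above_of_compact_support hc
  have hm : ∀ t : ℝ, Continuous fun y : E => y - t • w := fun t =>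
    continuous_id.sub continuous_const
  have key : ∀ t : ℝ, HasDerivAt (fun t : ℝ => ∫ y, φ (y - t • w) * n y ∂μ)
      (∫ y, -(fderiv ℝ φ (y - t • w) w * n y) ∂μ) t := fun t =>
    (hasDerivAt_integral_of_dominated_loc_of_deriv_le (F := fun t y => φ (y - t • w) * n y)
      (F' := fun t y => -(fderiv ℝ φ (y - t • w) w * n y)) (bound := fun y => C * ‖n y‖) univ_mem
      (Eventually.of_forall fun t => (hφ.continuous.comp (hm t)).aestronglyMeasurable.mul a.1)
      (a.bdd_mul (hφ.continuous.comp (hm t)).aestronglyMeasurable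
        (Eventually.of_forall fun y => hD _))
      ((hd.comp (hm t)).aestronglyMeasurable.mul a.1).neg
      (Eventually.of_forall fun y t _ => by
        rw [norm_neg, norm_mul]
        exact mul_le_mul_of_nonneg_right (hC _) (norm_nonneg _))
      (a.norm.const_mul C)
      (Eventually.of_forall fun y t _ => by
        have h1 : HasDerivAt (fun t : ℝ => y - t • w) (-w) t := by
          simpa using ((hasDerivAt_id t).smul_const w).const_sub y
        have h2 := ((hφ.differentiable (by simp) _).hasFDerivAt.comp_hasDerivAt t h1).mul_const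
          (n y)
        simpa using h2)).2
  simpa using constant_of_has_deriv_right_zero
    (f := fun t : ℝ => ∫ y, φ (y - t • w) * n y ∂μ) (a := 0) (b := 1)
    (fun t _ => (key t).continuousAt.continuousWithinAt) (fun t ht => by
      have := key t
      rw [integral_neg, h0 t (Ico_subset_Icc_self ht), neg_zero] at this
      exact this.hasDerivWithinAt) 1 (right_mem_Icc.2 zero_le_one)

theorem top_symm {n ψ χ : E → ℝ} (a : Integrable n μ) {U : Set E} (hc : Convex ℝ U)
    (h0 : ∀ φ : E → ℝ, ContDiff ℝ ∞ φ → HasCompactSupport φ → tsupport φ ⊆ U → ∀ v,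
      ∫ y, fderiv ℝ φ y v * n y ∂μ = 0)
    (h1 : ContDiff ℝ ∞ ψ) (h2 : HasCompactSupport ψ) (h3 : tsupport ψ ⊆ U)
    (g1 : ContDiff ℝ ∞ χ) (g2 : HasCompactSupport χ) (g3 : tsupport χ ⊆ U) :
    (∫ y, χ y * n y ∂μ) * ∫ y, ψ y ∂μ = (∫ y, ψ y * n y ∂μ) * ∫ y, χ y ∂μ := by
  have key : ∀ w, ∫ y, χ y * n y * ψ (-(w - y)) ∂μ = ∫ y, ψ y * n y * χ (-(-w - y)) ∂μ := by
    intro w
    have s1 : ContDiff ℝ ∞ fun y => ψ y * χ (y + w) :=
      h1.mul (g1.comp (contDiff_id.add contDiff_const))
    have s2 : HasCompactSupport fun y => ψ y * χ (y + w) := h2.mul_right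
    have h := top_shift a s1 s2 w fun t ht => by
      have h4 := h0 (fun y => ψ (y - t • w) * χ (y - t • w + w))
        (s1.comp (contDiff_id.sub contDiff_const))
        (s2.comp_homeomorph (Homeomorph.subRight (t • w))) ?_ w
      · simpa only [← fderiv_comp_sub (f := fun y => ψ y * χ (y + w))] using h4
      refine (closure_minimal (t := {y | y - t • w ∈ tsupport ψ ∧ y - t • w + w ∈ tsupport χ})
        (fun y hy => ⟨subset_tsupport _ (left_ne_zero_of_mul hy),
          subset_tsupport _ (right_ne_zero_of_mul hy)⟩)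
        (((isClosed_tsupport ψ).preimage (by fun_prop)).inter
          ((isClosed_tsupport χ).preimage (by fun_prop)))).trans fun y hy => ?_
      simpa using hc.add_smul_mem (h3 hy.1) (g3 hy.2) ht
    simp only [sub_add_cancel] at h
    refine Eq.trans (integral_congr_ae (Eventually.of_forall fun y => ?_))
      (h.trans (integral_congr_ae (Eventually.of_forall fun y => ?_)))
    · simp only [neg_sub]
      ring
    · simp only [neg_sub, sub_neg_eq_add]
      ring
  have i1 := integral_convolution (μ := μ) (ν := μ) (ContinuousLinearMap.mul ℝ ℝ)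
    (deg_int g1.continuous g2 a) (h1.continuous.integrable_of_hasCompactSupport h2).comp_neg
  have i2 := integral_convolution (μ := μ) (ν := μ) (ContinuousLinearMap.mul ℝ ℝ)
    (deg_int h1.continuous h2 a) (g1.continuous.integrable_of_hasCompactSupport g2).comp_neg
  rw [← integral_neg_eq_self] at i2
  simp only [convolution_def, ContinuousLinearMap.mul_apply', integral_neg_eq_self ψ,
    integral_neg_eq_self χ] at i1 i2
  rw [← i1, ← i2]
  simp only [key]

theorem IsDeg.top (h : IsDeg μ L) {U : Set E} (hU : IsOpen U) (hc : Convex ℝ U)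
    (h0 : ∀ φ : E → ℝ, ContDiff ℝ ∞ φ → HasCompactSupport φ → tsupport φ ⊆ U → ∀ v,
      L (fun y => fderiv ℝ φ y v) = 0) :
    ∃ m : ℤ, ∀ ψ : E → ℝ, ContDiff ℝ ∞ ψ → HasCompactSupport ψ → tsupport ψ ⊆ U →
      L ψ = m * ∫ y, ψ y ∂μ := by
  refine h.int hU fun ψ h1 h2 h3 h4 => ?_
  obtain ⟨n, a, -, c⟩ := h
  rw [c ψ h1.continuous h2]
  rcases U.eq_empty_or_nonempty with rfl | ⟨x, hx⟩
  · simp [tsupport_eq_empty_iff.1 (subset_empty_iff.1 h3)]
  obtain ⟨χ, g3, g2, g1, g4, g5⟩ := exists_contDiff_tsupport_subset (n := ⊤) (hU.mem_nhds hx)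
  have h5 := top_symm a hc (fun φ p1 p2 p3 v => (c _ ((p1.continuous_fderiv (by simp)).clm_apply
    continuous_const) (p2.fderiv_apply ℝ v)).symm.trans (h0 φ p1 p2 p3 v)) h1 h2 h3 g1 g2 g3
  rw [h4, mul_zero] at h5
  exact (mul_eq_zero.1 h5.symm).resolve_right
    (g1.continuous.integral_pos_of_hasCompactSupport_nonneg_nonzero g2
      (fun y => (g4 ⟨y, rfl⟩).1) (x := x) (by simp [g5])).ne'

end Vale.Agent.P267P
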