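import Vale.Agent.P267P.C2
import Vale.Agent.P267P.KK
import Vale.Agent.P267P.Top
import Vale.Agent.P267P.Areaa

/-! Integrality of a chain that kills exact forms in a box. -/

open scoped Manifold ContDiff Topology
open Filter MeasureTheory Set

noncomputable section

namespace Vale.Agent.P267P

open Vale.Agent.P267F Vale.Agent.P267I

set_option linter.unusedSectionVars false

variable {X : Type} [TopologicalSpace X] [ChartedSpace C2 X] [IsManifold 𝓘(ℂ, C2) ω X] [T2Space X]
  [CompactSpace X] {k d : ℕ} {e : C2 ≃L[ℝ] (Fin 4 → ℝ)}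

theorem area_key {L : Fm X 4 → ℂ} {D S : Set X} (h : IsCh L D S) (b : Box X) (hD : b.O ⊆ D)
    (he : ∀ i, e (bs i) = Pi.single i 1) :
    ∃ R : ((Fin 4 → ℝ) → ℝ) → ℝ, IsDeg volume R ∧ ∀ (w : Fm X 4) (φ ψ : (Fin 4 → ℝ) → ℝ),
      Sm w → Van w b.O → Continuous φ → Continuous ψ →
      (∀ x ∈ (chartAt C2 b.p).source, nm (chartAt C2 b.p x - b.c) ≤ b.r →
        loc b.p w (chartAt C2 b.p x) bs =
          φ (e (chartAt C2 b.p x)) + ψ (e (chartAt C2 b.p x)) * Complex.I) →
      L w = R φ + R ψ * Complex.I := by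
  obtain ⟨n, m, A, F, hA, hF, -, hL⟩ := h
  obtain ⟨K, hK⟩ : ∃ K, K = {x | x ∈ (chartAt C2 b.p).source ∧
    nm (chartAt C2 b.p x - b.c) ≤ b.r} := ⟨_, rfl⟩
  have hKc : IsCompact K := hK ▸ b.cl_cpt b.c (by rw [sub_self, nm_zero]; linarith [b.pos])
  have hs : ∀ c, IsCompact (A c ∩ F c ⁻¹' K) := fun c => (hA c).of_isClosed_subset
    (ContinuousOn.preimage_isClosed_of_isClosed (fun u hu => (hF c u hu).1.continuousWithinAt)
      (hA c).isClosed hKc.isClosed) inter_subset_left
  have hC : ∀ c, ∀ u ∈ A c ∩ F c ⁻¹' K, ContDiffAt ℝ 1 (chartAt C2 b.p ∘ F c) u :=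
    fun c u hu => (hF c u hu.1).chart (hK ▸ hu.2 :).1
  have hG : ∀ c, ∀ u ∈ A c ∩ F c ⁻¹' K, ContDiffAt ℝ 1 (e ∘ chartAt C2 b.p ∘ F c) u :=
    fun c u hu => e.contDiff.contDiffAt.comp u (hC c u hu)
  refine ⟨_, IsDeg.sum Finset.univ fun c _ => (isDeg_compact (hs c) (hG c)).zsmul (m c),
    fun w φ ψ hw hv hφ hψ hl => ?_⟩
  have hI : ∀ c, ∀ χ : (Fin 4 → ℝ) → ℝ, Continuous χ → IntegrableOn (fun u =>
      χ ((e ∘ chartAt C2 b.p ∘ F c) u) * (fderiv ℝ (e ∘ chartAt C2 b.p ∘ F c) u).det)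
      (A c ∩ F c ⁻¹' K) := fun c χ hχ => ContinuousOn.integrableOn_compact (hs c) fun u hu =>
    ((hχ.continuousAt.comp (hG c u hu).continuousAt).mul
      (ContinuousLinearMap.continuous_det.continuousAt.comp
        ((hG c u hu).fderiv_right (m := 0) le_rfl).continuousAt)).continuousWithinAt
  rw [hL w hw fun x hx => hv x fun h => hx (hD h)]
  simp only [Complex.ofReal_sum, Complex.ofReal_mul, Complex.ofReal_intCast, Finset.sum_mul,
    ← Finset.sum_add_distrib, mul_assoc, ← mul_add]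
  refine Finset.sum_congr rfl fun c _ => congrArg _ ?_
  rw [← integral_complex_ofReal, ← integral_complex_ofReal, ← integral_mul_const,
    ← integral_add (hI c φ hφ).ofReal ((hI c ψ hψ).ofReal.mul_const _),
    setIntegral_eq_of_subset_of_forall_sdiff_eq_zero (hA c).measurableSet
      (inter_subset_left (t := F c ⁻¹' K)) fun u hu => ?_]
  · refine setIntegral_congr_fun (hs c).measurableSet fun u hu => ?_
    have h1 := (hK ▸ hu.2 : F c u ∈ {x | x ∈ (chartAt C2 b.p).source ∧
      nm (chartAt C2 b.p x - b.c) ≤ b.r})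
    simp only [pull_eq (hF c u hu.1) h1.1, area_det _ he, hl _ h1.1 h1.2, e.comp_fderiv,
      Function.comp_apply, Complex.ofReal_mul]
    ring
  · rw [pull, hv _ fun h => hu.2 ⟨hu.1, hK ▸ ⟨h.1, h.2.le⟩⟩]
    rfl

theorem area_coef (b : Box X) {w : Fm X 4} {T : Set X} (hw : Sm w) (hT : IsCompact T)
    (hO : T ⊆ b.O) (hv : Van w T) :
    ContDiff ℝ ∞ (fun z => b.ext w z bs) ∧
      ∀ z ∉ chartAt C2 b.p '' T, b.ext w z bs = 0 := by
  have h0 : ∀ z ∉ chartAt C2 b.p '' T, b.ext w z bs = 0 := fun z hz => by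
    unfold Box.ext
    split_ifs with h
    · have ht := b.sub z (by linarith [b.pos])
      rw [loc, hv _ fun h => hz ⟨_, h, (chartAt C2 b.p).right_inv ht⟩]
      rfl
    · rfl
  refine ⟨contDiff_iff_contDiffAt.2 fun z => ?_, h0⟩
  by_cases hz : nm (z - b.c) < 2 * b.r
  · have h1 := hw.loc (b.sub z (by linarith [b.pos]))
    refine ((ContinuousAlternatingMap.apply ℝ C2 ℂ bs).contDiff.contDiffAt.comp z
      h1).congr_of_eventuallyEq ?_
    filter_upwards [(isOpen_lt (nm_cont.comp (continuous_id.sub continuous_const))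
      continuous_const).mem_nhds hz] with y hy
    exact congrArg (fun a : Al 4 => a bs) (if_pos hy)
  · have hc := (hT.image_of_continuousOn
      ((chartAt C2 b.p).continuousOn.mono fun x hx => (hO hx).1)).isClosed
    refine (contDiffAt_const (c := (0 : ℂ))).congr_of_eventuallyEq ?_
    filter_upwards [hc.isOpen_compl.mem_nhds (x := z) fun ⟨x, hx, hxz⟩ =>
      hz (by linarith [b.pos, hxz ▸ (hO hx).2])] with y hy
    exact h0 y hy

theorem IsCh.area {L : Fm X 4 → ℂ} {D S : Set X} (h : IsCh L D S) (b : Box X) (hD : b.O ⊆ D)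
    (h0 : ∀ η : Fm X 3, Sm η → Van η b.O → L (dd η) = 0) :
    ∃ n : ℤ, ∀ (w : Fm X 4) (T : Set X), Sm w → IsCompact T → T ⊆ b.O → Van w T → L w = n * b.I w := by
  obtain ⟨e, hco, he, hm⟩ := exists_coE
  obtain ⟨vol, hvol⟩ := area_vol he
  obtain ⟨R, hR, hL⟩ := area_key h b hD he
  have hb : ∀ z, e z ∈ Metric.ball (e b.c) b.r ↔ nm (z - b.c) < b.r := fun z => by
    rw [mem_ball_iff_norm, ← map_sub, hco, nm]
  obtain ⟨n, hn⟩ := hR.top Metric.isOpen_ball (convex_ball (e b.c) b.r) fun φ h1 h2 h3 v => by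
    have hC : IsCompact (e ⁻¹' tsupport φ) := e.toHomeomorph.isCompact_preimage.2 h2
    have hs : e ⁻¹' tsupport φ ⊆ (chartAt C2 b.p).target := fun z hz =>
      b.sub z (by linarith [b.pos, (hb z).1 (h3 hz)])
    have h4 : ∀ z ∉ e ⁻¹' tsupport φ, φ (e z) • vol.curryLeft (e.symm v) = 0 := fun z hz => by
      rw [image_eq_zero_of_notMem_tsupport hz, zero_smul]
    have hη := sm_glob b.p (u := fun z => φ (e z) • vol.curryLeft (e.symm v)) hC hs
      (fun z _ => ((h1.comp e.contDiff).smul contDiff_const).contDiffAt) h4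
    have hT := hC.image_of_continuousOn ((chartAt C2 b.p).continuousOn_symm.mono hs)
    have hTO : (chartAt C2 b.p).symm '' (e ⁻¹' tsupport φ) ⊆ b.O := by
      rintro _ ⟨z, hz, rfl⟩
      exact ⟨(chartAt C2 b.p).map_target (hs hz), by
        rw [(chartAt C2 b.p).right_inv (hs hz)]; exact (hb z).1 (h3 hz)⟩
    have hV : Van (glob b.p fun z => φ (e z) • vol.curryLeft (e.symm v))
        ((chartAt C2 b.p).symm '' (e ⁻¹' tsupport φ)) := fun x hx => by
      unfold glob
      split_ifs with h5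
      · beta_reduce
        rw [h4 _ fun h => hx ⟨_, h, (chartAt C2 b.p).left_inv h5⟩]
        rfl
      · rfl
    have h5 := hL _ (fun y => fderiv ℝ φ y v) (fun _ => 0) (fun x => (hη x).dd)
      (fun x hx => hV.dd hT.isClosed x fun h => hx (hTO h))
      ((h1.continuous_fderiv (by simp)).clm_apply continuous_const) continuous_const
      fun x hx _ => by
        rw [loc_dd hx (hη x), EventuallyEq.extDeriv_eq
          (eventually_of_mem ((chartAt C2 b.p).open_target.mem_nhds
            ((chartAt C2 b.p).map_source hx)) fun z hz => loc_glob b.p _ hz),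
          area_ext he vol h1, hvol]
        simp
    rw [h0 _ hη fun x hx => hV x fun h => hx (hTO h)] at h5
    simpa using (congrArg Complex.re h5).symm
  refine ⟨n, fun w T hw hT hO hv => ?_⟩
  obtain ⟨c1, c2⟩ := area_coef b hw hT hO hv
  have hC := (hT.image_of_continuousOn
    ((chartAt C2 b.p).continuousOn.mono fun x hx => (hO hx).1)).image e.continuous
  have key : ∀ l : ℂ →L[ℝ] ℝ, ContDiff ℝ ∞ (fun y => l (b.ext w (e.symm y) bs)) ∧
      R (fun y => l (b.ext w (e.symm y) bs)) = n * l (b.I w) := fun l => by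
    have h1 : ContDiff ℝ ∞ fun y => l (b.ext w (e.symm y) bs) :=
      l.contDiff.comp (c1.comp e.symm.contDiff)
    have h2 : tsupport (fun y => l (b.ext w (e.symm y) bs)) ⊆ e '' (chartAt C2 b.p '' T) :=
      closure_minimal (fun y hy => by_contra fun h => hy (by
        beta_reduce
        rw [c2 _ fun h' => h ⟨_, h', e.apply_symm_apply y⟩, l.map_zero])) hC.isClosed
    refine ⟨h1, ?_⟩
    rw [hn _ h1 (hC.of_isClosed_subset (isClosed_tsupport _) h2) (h2.trans ?_), Box.I,
      ← l.integral_comp_comm (c1.continuous.integrable_of_hasCompactSupport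
        (HasCompactSupport.intro (hT.image_of_continuousOn
          ((chartAt C2 b.p).continuousOn.mono fun x hx => (hO hx).1)) c2)),
      ← hm.integral_comp e.toHomeomorph.measurableEmbedding]
    · simp
    rintro _ ⟨_, ⟨x, hx, rfl⟩, rfl⟩
    exact (hb _).2 (hO hx).2
  rw [hL w _ _ hw (fun x hx => hv x fun h => hx (hO h)) (key Complex.reCLM).1.continuous
    (key Complex.imCLM).1.continuous fun x _ hx => by
      simp [Box.ext, if_pos (show nm (chartAt C2 b.p x - b.c) < 2 * b.r by linarith [b.pos])],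
    (key _).2, (key _).2]
  apply Complex.ext <;> simp

end Vale.Agent.P267P
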