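import Vale.Agent.P267P.C3
import Vale.Agent.P267P.KK

/-! Outward cone over a chain. Let C be the closed box nm (z - c) ≤ r. First shrink each cell to A1 = points of A with F u in the compact set chart.symm C (Box.cl_cpt; outside, pull of K w is zero by K_sm). On A1 the cut-off factor is one (F u is not in N). cone_int with g = b.ext w on [1, T]. Then shrink the cone set to the compact subset where q + v 0 • (y - q) lies in C (outside, ext w is zero: ext_zero); there F' v = chart.symm (..) is C1 and pull_eq applies. -/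

open scoped Manifold ContDiff Topology
open Filter MeasureTheory Set

noncomputable section

namespace Vale.Agent.P267P

open Vale.Agent.P267F Vale.Agent.P267I

set_option linter.unusedSectionVars false

variable {X : Type} [TopologicalSpace X] [ChartedSpace C2 X] [IsManifold 𝓘(ℂ, C2) ω X] [T2Space X]
  [CompactSpace X] {k d : ℕ}

theorem chk_cell (b : Box X) {q : C2} {ε : ℝ} (ha : b.Adm q ε) {A : Set (Fin d → ℝ)}
    (hA : IsCompact A) {F : (Fin d → ℝ) → X} (hF : ∀ u ∈ A, C1At F u)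
    (hN : ∀ u ∈ A, F u ∉ b.N q ε) :
    ∃ (A' : Set (Fin (d + 1) → ℝ)) (F' : (Fin (d + 1) → ℝ) → X), IsCompact A' ∧
      (∀ v ∈ A', C1At F' v) ∧ ∀ w : Fm X (d + 1), Sm w → Van w b.O →
        ∫ u in A, pull F (b.K q ε w) u = ∫ v in A', pull F' w v := by
  have hr := b.pos
  have hC := b.cl_cpt b.c (s := b.r) (by rw [sub_self, nm_zero]; linarith)
  set C := {x | x ∈ (chartAt C2 b.p).source ∧ nm (chartAt C2 b.p x - b.c) ≤ b.r} with hCd
  have hFc : ContinuousOn F A := fun u hu => (hF u hu).1.continuousWithinAt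
  have hA1 : IsCompact (A ∩ F ⁻¹' C) :=
    hA.of_isClosed_subset (hFc.preimage_isClosed_of_isClosed hA.isClosed hC.isClosed)
      inter_subset_left
  have hy : ∀ u ∈ A ∩ F ⁻¹' C, ContDiffAt ℝ 1 (chartAt C2 b.p ∘ F) u := fun u hu =>
    (hF u hu.1).chart hu.2.1
  set T := 2 * b.r / ε + 1 with hT
  have hT1 : 1 ≤ T := by
    have : 0 ≤ 2 * b.r / ε := div_nonneg (by linarith) ha.1.le
    linarith
  have hA2 := cone_cpt hA1 1 T
  set A2 := {v : Fin (d + 1) → ℝ | v 0 ∈ Icc 1 T ∧ Fin.tail v ∈ A ∩ F ⁻¹' C} with hA2d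
  set G := fun v : Fin (d + 1) → ℝ => q + v 0 • ((chartAt C2 b.p ∘ F) (Fin.tail v) - q) with hG
  have hG1 : ∀ v ∈ A2, ContDiffAt ℝ 1 G v := fun v hv => cone_c1 (hy _ hv.2) q
  have hGc : ContinuousOn G A2 := fun v hv => (hG1 v hv).continuousAt.continuousWithinAt
  have hA3 : IsCompact (A2 ∩ G ⁻¹' {z | nm (z - b.c) ≤ b.r}) :=
    hA2.of_isClosed_subset (hGc.preimage_isClosed_of_isClosed hA2.isClosed
      (nm_cpt b.c b.r).isClosed) inter_subset_left
  have ht : ∀ v ∈ A2 ∩ G ⁻¹' {z | nm (z - b.c) ≤ b.r}, G v ∈ (chartAt C2 b.p).target :=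
    fun v hv => b.sub _ (le_trans hv.2 (by linarith))
  have hev : ∀ v ∈ A2 ∩ G ⁻¹' {z | nm (z - b.c) ≤ b.r},
      chartAt C2 b.p ∘ ((chartAt C2 b.p).symm ∘ G) =ᶠ[𝓝 v] G := fun v hv => by
    filter_upwards [(hG1 v hv.1).continuousAt.preimage_mem_nhds
      ((chartAt C2 b.p).open_target.mem_nhds (ht v hv))] with v' hv'
    exact (chartAt C2 b.p).right_inv hv'
  have hc1 : ∀ v ∈ A2 ∩ G ⁻¹' {z | nm (z - b.c) ≤ b.r}, C1At ((chartAt C2 b.p).symm ∘ G) v :=
    fun v hv => c1At_of (((chartAt C2 b.p).continuousAt_symm (ht v hv)).comp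
      (hG1 v hv.1).continuousAt) ((chartAt C2 b.p).map_target (ht v hv))
      ((hG1 v hv.1).congr_of_eventuallyEq (hev v hv))
  refine ⟨_, _, hA3, hc1, fun w hw hv => ?_⟩
  have e1 : ∫ u in A, pull F (b.K q ε w) u = ∫ u in A ∩ F ⁻¹' C, pull F (b.K q ε w) u := by
    refine setIntegral_eq_of_subset_of_forall_sdiff_eq_zero hA.measurableSet inter_subset_left
      fun u hu => ?_
    have : b.K q ε w (F u) = 0 :=
      (b.K_sm ha hw hv).2 _ fun h => hu.2 ⟨hu.1, h.1, h.2.le⟩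
    simp only [pull, this, ContinuousAlternatingMap.coe_zero, Pi.zero_apply]
  have e2 : ∫ u in A ∩ F ⁻¹' C, pull F (b.K q ε w) u = ∫ u in A ∩ F ⁻¹' C,
      rad q 1 T (b.ext w) ((chartAt C2 b.p ∘ F) u)
        (fun i => fderiv ℝ (chartAt C2 b.p ∘ F) u (Pi.single i 1)) := by
    refine setIntegral_congr_fun hA1.measurableSet fun u hu => ?_
    have hz : cut ε (chartAt C2 b.p (F u) - q) = 0 :=
      (cut_spec ha.1).zero _ (le_of_lt (not_le.1 fun h => hN u hu.1 ⟨hu.2.1, h⟩))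
    rw [pull_eq (hF u hu.1) hu.2.1, Box.K, loc_glob _ _ ((chartAt C2 b.p).map_source hu.2.1), hz,
      sub_zero, one_smul]
    rfl
  rw [e1, e2, cone_int hA1 hy (b.ext_sm hw hv).continuous q hT1]
  have e3 : ∫ v in A2, b.ext w (G v) (fun i => fderiv ℝ G v (Pi.single i 1)) =
      ∫ v in A2 ∩ G ⁻¹' {z | nm (z - b.c) ≤ b.r},
        b.ext w (G v) (fun i => fderiv ℝ G v (Pi.single i 1)) := by
    refine setIntegral_eq_of_subset_of_forall_sdiff_eq_zero hA2.measurableSet inter_subset_left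
      fun v hv' => ?_
    have : b.ext w (G v) = 0 := b.ext_zero hv (le_of_lt (not_le.1 fun h => hv'.2 ⟨hv'.1, h⟩))
    simp only [this, ContinuousAlternatingMap.coe_zero, Pi.zero_apply]
  refine e3.trans (setIntegral_congr_fun hA3.measurableSet fun v hv' => ?_)
  have h2 : nm (G v - b.c) < 2 * b.r := lt_of_le_of_lt hv'.2 (by linarith)
  rw [pull_eq (hc1 v hv') ((chartAt C2 b.p).map_target (ht v hv')), (hev v hv').fderiv_eq]
  have e4 : chartAt C2 b.p (((chartAt C2 b.p).symm ∘ G) v) = G v :=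
    (chartAt C2 b.p).right_inv (ht v hv')
  rw [e4]
  simp only [Box.ext, if_pos h2]

theorem IsCh.K {L : Fm X d → ℂ} {D S : Set X} (h : IsCh L D S) (b : Box X) (hD : b.O ⊆ D) {q : C2}
    {ε : ℝ} (ha : b.Adm q ε) (hS : Disjoint S (b.N q ε)) :
    IsCh (fun w : Fm X (d + 1) => L (b.K q ε w)) b.O univ := by
  obtain ⟨n, m, A, F, h1, h2, h3, h4⟩ := h
  choose A' F' k1 k2 k3 using fun c => chk_cell b ha (h1 c) (h2 c)
    fun u hu => Set.disjoint_left.1 hS (h3 c u hu)
  refine ⟨n, m, A', F', k1, k2, fun _ _ _ => trivial, fun w hw hv => ?_⟩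
  have hK := b.K_sm ha hw hv
  show L (b.K q ε w) = _
  rw [h4 _ hK.1 fun x hx => hK.2 x fun h => hx (hD h)]
  exact Finset.sum_congr rfl fun c _ => by rw [k3 c w hw hv]

end Vale.Agent.P267P
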