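import Vale.Agent.P267P.C2
import Vale.Agent.P267P.ChK
import Vale.Agent.P267P.Area
import Vale.Agent.P267P.I4

/-! The zigzag of a cycle. IsCh.thin Z, exists_adm give q i, ε i; s i w = Z (K i w) is a chain on (B i).O with s i (dd η) = - Z η (K_id, blind, Z kills dd (K η)). For T i ∩ T j nonempty: s i - s j is a chain on (V i j).O that kills dd η; thin, exists_adm; f i j w = (s i - s j) (K i j w), f i j (dd η) = - (s i - s j) η. For empty intersections put f i j = 0. -/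

open scoped Manifold ContDiff Topology
open Filter MeasureTheory Set

noncomputable section

namespace Vale.Agent.P267P

open Vale.Agent.P267F Vale.Agent.P267I

set_option linter.unusedSectionVars false

variable {X : Type} [TopologicalSpace X] [ChartedSpace C2 X] [IsManifold 𝓘(ℂ, C2) ω X] [T2Space X]
  [CompactSpace X] {k d : ℕ}

theorem a1_van {w : Fm X k} {U U' : Set X} (h : Van w U) (hU : U ⊆ U') : Van w U' :=
  fun x hx => h x fun h' => hx (hU h')

theorem a1_neg (a : Al k) : (-1 : ℂ) • a = -a := by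
  ext v; simp

theorem a1_zero (c : ℂ) : c • (0 : Al k) = 0 := by
  ext v; simp

theorem a1_step {L : Fm X (k + 1) → ℂ} {D : Set X} (hL : IsCh L D univ) (hk : k + 1 < 4)
    (b : Box X) (hD : b.O ⊆ D) (h0 : ∀ γ : Fm X k, Sm γ → Van γ b.O → L (dd γ) = 0) :
    ∃ M : Fm X (k + 1 + 1) → ℂ, IsCh M b.O univ ∧
      ∀ η, Sm η → Van η b.O → M (dd η) = -L η := by
  obtain ⟨S', h1, h2, h3⟩ := hL.thin hk
  obtain ⟨q, ε, ha, hd⟩ := b.exists_adm h2 h3
  refine ⟨fun w => L (b.K q ε w), h1.K b hD ha hd, fun η hη hv => ?_⟩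
  obtain ⟨k1, k2⟩ := b.K_sm ha hη hv
  obtain ⟨k3, k4⟩ := b.K_sm ha (fun x => (hη x).dd) (b.van_dd hη hv)
  have k5 : Sm (dd (b.K q ε η)) := fun x => (k1 x).dd
  have k6 := a1_van (b.van_dd k1 k2) hD
  have e := h1.blind (w := dd (b.K q ε η) + b.K q ε (dd η)) (w' := (-1 : ℂ) • η)
    (fun x => (k5 x).add (k3 x)) (fun x => (hη x).smul _)
    (fun x hx => by simp [k6 x hx, a1_van k4 hD x hx])
    (fun x hx => by rw [Pi.smul_apply, a1_van hv hD x hx, a1_zero])
    fun x hx => by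
      rw [Pi.smul_apply, a1_neg]
      exact b.K_id ha hη hv (disjoint_left.1 hd hx)
  rw [h1.map_add k5 k3 k6 (a1_van k4 hD), h0 _ k1 k2, h1.map_smul hη (a1_van hv hD)] at e
  simpa using e

theorem Sys.zig (S : Sys X) {Z : Fm X 2 → ℂ} (hZ : IsCh Z univ univ)
    (h0 : ∀ γ : Fm X 1, Sm γ → Z (dd γ) = 0) :
    ∃ (s : Fin S.n → Fm X 3 → ℂ) (f : Fin S.n → Fin S.n → Fm X 4 → ℂ),
      (∀ i, IsCh (s i) (S.B i).O univ) ∧ (∀ i j, IsCh (f i j) (S.V i j).O univ) ∧
      (∀ i η, Sm η → Van η (S.B i).O → s i (dd η) = -Z η) ∧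
      ∀ i j η, (S.T i ∩ S.T j).Nonempty → Sm η → Van η (S.V i j).O →
        f i j (dd η) = -(s i η - s j η) := by
  classical
  choose s hs hs' using fun i => a1_step hZ (by norm_num) (S.B i) (subset_univ _) fun γ h _ => h0 γ h
  have H : ∀ i j, ∃ f : Fm X 4 → ℂ, IsCh f (S.V i j).O univ ∧ ∀ η, (S.T i ∩ S.T j).Nonempty →
      Sm η → Van η (S.V i j).O → f (dd η) = -(s i η - s j η) := fun i j => by
    by_cases h : (S.T i ∩ S.T j).Nonempty
    · have v1 : (S.V i j).O ⊆ (S.B i).O := fun x hx => (S.VB i j h hx).1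
      have v2 : (S.V i j).O ⊆ (S.B j).O := fun x hx => (S.VB i j h hx).2
      obtain ⟨M, m1, m2⟩ := a1_step (((hs i).mono v1 subset_rfl).sub ((hs j).mono v2 subset_rfl))
        (by norm_num) (S.V i j) subset_rfl fun γ h1 h2 => by
          rw [hs' i γ h1 (a1_van h2 v1), hs' j γ h1 (a1_van h2 v2), sub_self]
      exact ⟨M, m1, fun η _ => m2 η⟩
    · exact ⟨_, isCh_zero _ _, fun η h' => absurd h' h⟩
  choose f hf hf' using H
  exact ⟨s, f, hs, hf, hs', hf'⟩

end Vale.Agent.P267P
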