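import Vale.Agent.P267P.A1

/-! The dual cocycle. For a triangle, f j l - f i l + f i j kills dd η on (W i j l).O, so area and IX_box give n i j l (zero for the others). Cocycle: take a smooth four-form with compact support in the four open boxes W and IX ≠ 0 (exists_bump). Formula: γ i = dd (ρ i β), δ i j = dd (ρ j γ i); Σ_i γ i = 0, Σ_i δ i j = 0, Σ_j δ i j = 0; Z β = -Σ s i (γ i) = -Σ (s i - s j) (ρ j γ i) = Σ f i j (δ i j) = Σ (f i j + f j l - f i l) (ρ l δ i j). Terms with empty intersections are zero forms (map_zero). -/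

open scoped Manifold ContDiff Topology
open Filter MeasureTheory Set

noncomputable section

namespace Vale.Agent.P267P

open Vale.Agent.P267F Vale.Agent.P267I

set_option linter.unusedSectionVars false

variable {X : Type} [TopologicalSpace X] [ChartedSpace C2 X] [IsManifold 𝓘(ℂ, C2) ω X] [T2Space X]
  [CompactSpace X] {k d : ℕ}

theorem a2_vol : ∃ v : Al 4, v bs = 1 := by
  obtain ⟨e, -, he, -⟩ := exists_coE
  let D : (Fin 4 → ℝ) [⋀^Fin 4]→L[ℝ] ℝ :=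
    { toMultilinearMap := (Matrix.detRowAlternating (n := Fin 4) (R := ℝ)).toMultilinearMap
      cont := (continuous_id.matrix_det : Continuous fun M : Matrix (Fin 4) (Fin 4) ℝ => M.det)
      map_eq_zero_of_eq' := (Matrix.detRowAlternating (n := Fin 4) (R := ℝ)).map_eq_zero_of_eq' }
  refine ⟨Complex.ofRealCLM.compContinuousAlternatingMap
    (D.compContinuousLinearMap (e : C2 →L[ℝ] (Fin 4 → ℝ))), ?_⟩
  have h : (fun i => e (bs i)) = (1 : Matrix (Fin 4) (Fin 4) ℝ) := by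
    funext i j
    rw [he, Matrix.one_apply, Pi.single_apply]
    exact if_congr eq_comm rfl rfl
  change ((Matrix.det fun i => e (bs i) : ℝ) : ℂ) = 1
  rw [h, Matrix.det_one, Complex.ofReal_one]

theorem exists_bump {U : Set X} (hU : IsOpen U) (hne : U.Nonempty) :
    ∃ (w : Fm X 4) (T : Set X), Sm w ∧ IsCompact T ∧ T ⊆ U ∧ Van w T ∧ IX w ≠ 0 := by
  obtain ⟨p, hp⟩ := hne
  obtain ⟨b, -, hb⟩ := exists_box p (hU.mem_nhds hp)
  obtain ⟨v, hv⟩ := a2_vol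
  have r0 := b.pos
  have hc := cut_spec (s := b.r / 4) (by positivity)
  have hs : ContDiff ℝ ∞ fun z => cut (b.r / 4) (z - b.c) ^ 2 :=
    (hc.sm.comp (contDiff_id.sub contDiff_const)).pow 2
  have h0 : ∀ z, ¬nm (z - b.c) ≤ b.r / 2 → cut (b.r / 4) (z - b.c) ^ 2 = 0 := fun z hz => by
    rw [hc.zero _ (by linarith [not_le.1 hz]), sq, mul_zero]
  have w1 : Sm (glob b.p fun z => cut (b.r / 4) (z - b.c) ^ 2 • v) :=
    sm_glob b.p (nm_cpt b.c (b.r / 2)) (fun z hz => b.sub z (le_trans hz (by linarith)))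
      (fun z _ => (hs.smul contDiff_const).contDiffAt) fun z hz => by rw [h0 z hz]; ext; simp
  have w2 : Van (glob b.p fun z => cut (b.r / 4) (z - b.c) ^ 2 • v)
      {x | x ∈ (chartAt C2 b.p).source ∧ nm (chartAt C2 b.p x - b.c) ≤ b.r / 2} := fun x hx => by
    unfold glob
    split_ifs with h
    · beta_reduce
      rw [h0 _ fun h' => hx ⟨h, h'⟩]
      ext; simp
    · rfl
  have w3 : {x | x ∈ (chartAt C2 b.p).source ∧ nm (chartAt C2 b.p x - b.c) ≤ b.r / 2} ⊆ b.O :=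
    fun x hx => ⟨hx.1, lt_of_le_of_lt hx.2 (by linarith)⟩
  refine ⟨_, _, w1, b.cl_cpt b.c (by rw [sub_self, nm_zero]; linarith), w3.trans hb, w2, ?_⟩
  have e : ∀ z, b.ext (glob b.p fun z => cut (b.r / 4) (z - b.c) ^ 2 • v) z bs =
      ((cut (b.r / 4) (z - b.c) ^ 2 : ℝ) : ℂ) := fun z => by
    unfold Box.ext
    split_ifs with h
    · rw [loc_glob _ _ (b.sub z (by linarith)), ContinuousAlternatingMap.smul_apply, hv,
        Complex.real_smul, mul_one]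
    · rw [h0 z fun h' => h (by linarith)]
      simp
  rw [IX_box b w1 (fun x hx => w2 x fun h' => hx (w3 h')), Box.I]
  simp only [e]
  rw [integral_complex_ofReal, Complex.ofReal_ne_zero]
  refine (hs.continuous.integral_pos_of_hasCompactSupport_nonneg_nonzero (x := b.c)
    (HasCompactSupport.intro (nm_cpt b.c (b.r / 2)) h0) (fun z => sq_nonneg _) ?_).ne'
  rw [hc.one _ (by rw [sub_self, nm_zero]; positivity)]
  norm_num

theorem a2_van_fs {f : X → ℂ} {T : Set X} (hf : ∀ x ∉ T, f x = 0) (w : Fm X k) : Van (fs f w) T :=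
  fun x hx => by rw [fs, hf x hx]; ext v; simp

theorem a2_van_fs' (f : X → ℂ) {T : Set X} {w : Fm X k} (hw : Van w T) : Van (fs f w) T :=
  fun x hx => by rw [fs, hw x hx, a1_zero]

theorem a2_inter {w : Fm X k} {T T' : Set X} (h : Van w T) (h' : Van w T') : Van w (T ∩ T') :=
  fun x hx => (not_and_or.1 hx).elim (h x) (h' x)

theorem a2_empty {w : Fm X k} {T : Set X} (h : Van w T) (h' : ¬T.Nonempty) : w = 0 :=
  funext fun x => h x fun hx => h' ⟨x, hx⟩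

theorem a2_sum_dd (S : Sys X) {w : Fm X k} (h : Sm w) (hc : dd w = 0) :
    ∑ i, dd (fs (S.ρ i) w) = 0 := funext fun x => by
  rw [Finset.sum_apply, ← dd_sum _ fun i _ => (h x).fs (S.sm i x), S.sum_fs, hc]

theorem a2_fs_sum {ι : Type} (s : Finset ι) (f : X → ℂ) (w : ι → Fm X k) :
    fs f (∑ i ∈ s, w i) = ∑ i ∈ s, fs f (w i) := funext fun x => by
  ext v; simp [fs, Finset.mul_sum]

theorem a2_fs_zero (f : X → ℂ) : fs f (0 : Fm X k) = 0 := funext fun _ => a1_zero _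

theorem Sys.dualCoc (S : Sys X) {Z : Fm X 2 → ℂ} (hZ : IsCh Z univ univ)
    (h0 : ∀ γ : Fm X 1, Sm γ → Z (dd γ) = 0) :
    ∃ n : Fin S.n → Fin S.n → Fin S.n → ℤ, S.Coc n ∧ ∀ β : Fm X 2, Sm β → dd β = 0 →
      Z β = ∑ i, ∑ j, ∑ l, (n i j l : ℂ) *
        IX (fs (S.ρ l) (dd (fs (S.ρ j) (dd (fs (S.ρ i) β))))) := by
  classical
  obtain ⟨s, f, hs, hf, hs', hf'⟩ := S.zig hZ h0
  have cl : ∀ i, IsClosed (S.T i) := fun i => (S.cpt i).isClosed
  have hN : ∀ i j l, S.Tri i j l → IsCh (fun w => f j l w - f i l w + f i j w) (S.W i j l).O univ :=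
    fun i j l h => (((hf j l).mono (fun x hx => (S.WV i j l h hx).1.2) subset_rfl).sub
      ((hf i l).mono (fun x hx => (S.WV i j l h hx).2) subset_rfl)).add
      ((hf i j).mono (fun x hx => (S.WV i j l h hx).1.1) subset_rfl)
  have H : ∀ i j l, ∃ n : ℤ, S.Tri i j l → ∀ (w : Fm X 4) (T : Set X), Sm w → IsCompact T →
      T ⊆ (S.W i j l).O → Van w T → f j l w - f i l w + f i j w = n * IX w := fun i j l => by
    by_cases h : S.Tri i j l
    · obtain ⟨y, ⟨y1, y2⟩, y3⟩ := id h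
      obtain ⟨n, hn⟩ := (hN i j l h).area _ subset_rfl fun η h1 h2 => by
        rw [hf' j l η ⟨y, y2, y3⟩ h1 (a1_van h2 fun x hx => (S.WV i j l h hx).1.2),
          hf' i l η ⟨y, y1, y3⟩ h1 (a1_van h2 fun x hx => (S.WV i j l h hx).2),
          hf' i j η ⟨y, y1, y2⟩ h1 (a1_van h2 fun x hx => (S.WV i j l h hx).1.1)]
        ring
      exact ⟨n, fun _ w T w1 w2 w3 w4 => by
        rw [IX_box _ w1 (a1_van w4 w3)]; exact hn w T w1 w2 w3 w4⟩
    · exact ⟨0, fun h' => absurd h' h⟩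
  choose n hn using H
  refine ⟨n, fun h i j l ⟨y, ⟨⟨y0, y1⟩, y2⟩, y3⟩ => ?_, fun β hβ hc => ?_⟩
  · obtain ⟨w, T, w1, w2, w3, w4, w5⟩ := exists_bump
      (U := (S.W i j l).O ∩ (S.W h j l).O ∩ ((S.W h i l).O ∩ (S.W h i j).O))
      (((Box.O_open _).inter (Box.O_open _)).inter ((Box.O_open _).inter (Box.O_open _)))
      ⟨y, ⟨S.TW _ _ _ ⟨⟨y1, y2⟩, y3⟩, S.TW _ _ _ ⟨⟨y0, y2⟩, y3⟩⟩,
        S.TW _ _ _ ⟨⟨y0, y1⟩, y3⟩, S.TW _ _ _ ⟨⟨y0, y1⟩, y2⟩⟩
    have e1 := hn i j l ⟨y, ⟨y1, y2⟩, y3⟩ w T w1 w2 (fun x hx => (w3 hx).1.1) w4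
    have e2 := hn h j l ⟨y, ⟨y0, y2⟩, y3⟩ w T w1 w2 (fun x hx => (w3 hx).1.2) w4
    have e3 := hn h i l ⟨y, ⟨y0, y1⟩, y3⟩ w T w1 w2 (fun x hx => (w3 hx).2.1) w4
    have e4 := hn h i j ⟨y, ⟨y0, y1⟩, y2⟩ w T w1 w2 (fun x hx => (w3 hx).2.2) w4
    have e : ((n i j l - n h j l + n h i l - n h i j : ℤ) : ℂ) * IX w = 0 := by
      push_cast
      linear_combination -e1 + e2 - e3 + e4
    exact_mod_cast (mul_eq_zero.1 e).resolve_right w5
  obtain ⟨γ, hγ⟩ : ∃ γ : Fin S.n → Fm X 3, ∀ i, γ i = dd (fs (S.ρ i) β) := ⟨_, fun _ => rfl⟩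
  obtain ⟨δ, hδ⟩ : ∃ δ : Fin S.n → Fin S.n → Fm X 4, ∀ i j, δ i j = dd (fs (S.ρ j) (γ i)) :=
    ⟨_, fun _ _ => rfl⟩
  simp only [← hγ, ← hδ]
  have sm : ∀ {k : ℕ} (i) {w : Fm X k}, Sm w → Sm (fs (S.ρ i) w) :=
    fun i _ h x => (h x).fs (S.sm i x)
  have g1 : ∀ i, Sm (γ i) := fun i x => hγ i ▸ (sm i hβ x).dd
  have g2 : ∀ i, Van (γ i) (S.T i) := fun i => hγ i ▸ (a2_van_fs (S.van i) β).dd (cl i)
  have g3 : ∀ i, dd (γ i) = 0 := fun i => funext fun x => hγ i ▸ dd_dd (sm i hβ x)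
  have g4 : ∑ i, γ i = 0 := by simp only [hγ]; exact a2_sum_dd S hβ hc
  have g5 : ∀ i j, Van (fs (S.ρ j) (γ i)) (S.T i ∩ S.T j) :=
    fun i j => a2_inter (a2_van_fs' _ (g2 i)) (a2_van_fs (S.van j) _)
  have d1 : ∀ i j, Sm (δ i j) := fun i j x => hδ i j ▸ (sm j (g1 i) x).dd
  have d2 : ∀ i j, Van (δ i j) (S.T i ∩ S.T j) :=
    fun i j => hδ i j ▸ (g5 i j).dd ((cl i).inter (cl j))
  have d3 : ∀ i, ∑ j, δ i j = 0 := fun i => by simp only [hδ]; exact a2_sum_dd S (g1 i) (g3 i)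
  have d4 : ∀ j, ∑ i, δ i j = 0 := fun j => funext fun x => by
    simp only [hδ]
    rw [Finset.sum_apply, ← dd_sum _ fun i _ => sm j (g1 i) x, ← a2_fs_sum, g4, a2_fs_zero, dd_zero]
  have d5 : ∀ i j l, Van (fs (S.ρ l) (δ i j)) (S.T i ∩ S.T j ∩ S.T l) :=
    fun i j l => a2_inter (a2_van_fs' _ (d2 i j)) (a2_van_fs (S.van l) _)
  have e1 : Z β = -∑ i, s i (γ i) := by
    conv_lhs => rw [← S.sum_fs β]
    rw [hZ.map_sum _ (fun i _ => sm i hβ) fun i _ x hx => absurd (mem_univ x) hx,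
      ← Finset.sum_neg_distrib]
    refine Finset.sum_congr rfl fun i _ => ?_
    rw [hγ, hs' i _ (sm i hβ) (a1_van (a2_van_fs (S.van i) β) (S.TB i)), neg_neg]
  have e2 : ∀ i, s i (γ i) = ∑ j, s i (fs (S.ρ j) (γ i)) := fun i => by
    rw [← (hs i).map_sum _ (fun j _ => sm j (g1 i))
      fun j _ => a1_van (g5 i j) (inter_subset_left.trans (S.TB i)), S.sum_fs]
  have e3 : ∀ j, ∑ i, s j (fs (S.ρ j) (γ i)) = 0 := fun j => by
    rw [← (hs j).map_sum _ (fun i _ => sm j (g1 i))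
      fun i _ => a1_van (g5 i j) (inter_subset_right.trans (S.TB j)), ← a2_fs_sum, g4, a2_fs_zero,
      (hs j).map_zero]
  have e4 : ∀ i j, f i j (δ i j) = -(s i (fs (S.ρ j) (γ i)) - s j (fs (S.ρ j) (γ i))) :=
    fun i j => by
    by_cases h : (S.T i ∩ S.T j).Nonempty
    · rw [hδ, hf' i j _ h (sm j (g1 i)) (a1_van (g5 i j) (S.TV i j))]
    · rw [a2_empty (d2 i j) h, a2_empty (g5 i j) h, (hf i j).map_zero, (hs i).map_zero,
        (hs j).map_zero]
      simp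
  have e5 : ∀ i j, f i j (δ i j) = ∑ l, f i j (fs (S.ρ l) (δ i j)) := fun i j => by
    rw [← (hf i j).map_sum _ (fun l _ => sm l (d1 i j))
      fun l _ => a1_van (d5 i j l) (inter_subset_left.trans (S.TV i j)), S.sum_fs]
  have e6 : ∀ j l, ∑ i, f j l (fs (S.ρ l) (δ i j)) = 0 := fun j l => by
    rw [← (hf j l).map_sum _ (fun i _ => sm l (d1 i j))
      fun i _ => a1_van (d5 i j l) fun x hx => S.TV j l ⟨hx.1.2, hx.2⟩, ← a2_fs_sum, d4, a2_fs_zero,
      (hf j l).map_zero]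
  have e7 : ∀ i l, ∑ j, f i l (fs (S.ρ l) (δ i j)) = 0 := fun i l => by
    rw [← (hf i l).map_sum _ (fun j _ => sm l (d1 i j))
      fun j _ => a1_van (d5 i j l) fun x hx => S.TV i l ⟨hx.1.1, hx.2⟩, ← a2_fs_sum, d3, a2_fs_zero,
      (hf i l).map_zero]
  have e8 : ∀ i j l, (n i j l : ℂ) * IX (fs (S.ρ l) (δ i j)) = f j l (fs (S.ρ l) (δ i j)) -
      f i l (fs (S.ρ l) (δ i j)) + f i j (fs (S.ρ l) (δ i j)) := fun i j l => by
    by_cases h : S.Tri i j l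
    · exact (hn i j l h _ _ (sm l (d1 i j)) (((S.cpt i).inter_right (cl j)).inter_right (cl l))
        (S.TW i j l) (d5 i j l)).symm
    · have z := IX_smul (w := (0 : Fm X 4)) (fun x => smA_zero x) 0
      rw [zero_mul, show (0 : ℂ) • (0 : Fm X 4) = 0 from funext fun x => a1_zero _] at z
      rw [a2_empty (d5 i j l) h, (hf i j).map_zero, (hf j l).map_zero, (hf i l).map_zero, z]
      simp
  have e9 : ∑ i, ∑ j, ∑ l, f j l (fs (S.ρ l) (δ i j)) = 0 := by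
    rw [Finset.sum_comm]
    refine Finset.sum_eq_zero fun j _ => ?_
    rw [Finset.sum_comm]
    exact Finset.sum_eq_zero fun l _ => e6 j l
  have e10 : ∑ i, ∑ j, ∑ l, f i l (fs (S.ρ l) (δ i j)) = 0 := by
    refine Finset.sum_eq_zero fun i _ => ?_
    rw [Finset.sum_comm]
    exact Finset.sum_eq_zero fun l _ => e7 i l
  have e11 : ∑ i, ∑ j, s j (fs (S.ρ j) (γ i)) = 0 := by
    rw [Finset.sum_comm]
    exact Finset.sum_eq_zero fun j _ => e3 j
  simp only [e8, Finset.sum_add_distrib, Finset.sum_sub_distrib, e9, e10, ← e5]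
  simp only [e4, Finset.sum_neg_distrib, Finset.sum_sub_distrib, e11, ← e2, e1]
  ring

end Vale.Agent.P267P
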