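import Vale.Agent.P267P.C1

/-! Integral chains are linear, blind outside the support, and thin. Thin: S' is the union of the images of the cells (compact). Dense complement: in a chart, the image of a small piece is a C1 image of a set of Hausdorff dimension at most d < 4 (ContDiffOn.dimH_image_le or dimH_image_le_of_locally_lipschitzOn, Real.dimH_univ_eq_finrank, dense_compl_of_dimH_lt_finrank); h69 may have it in ZN.lean. -/

open scoped Manifold ContDiff Topology
open Filter MeasureTheory Set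

noncomputable section

namespace Vale.Agent.P267P

open Vale.Agent.P267F Vale.Agent.P267I

set_option linter.unusedSectionVars false

variable {X : Type} [TopologicalSpace X] [ChartedSpace C2 X] [IsManifold 𝓘(ℂ, C2) ω X] [T2Space X]
  [CompactSpace X] {k d : ℕ}

theorem IsCh.blind {L : Fm X d → ℂ} {D S : Set X} (h : IsCh L D S) {w w' : Fm X d} (hw : Sm w)
    (hw' : Sm w') (hv : Van w D) (hv' : Van w' D) (e : ∀ x ∈ S, w x = w' x) : L w = L w' := by
  obtain ⟨n, m, A, F, h1, h2, h3, h4⟩ := h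
  rw [h4 w hw hv, h4 w' hw' hv']
  refine Finset.sum_congr rfl fun c _ => ?_
  rw [setIntegral_congr_fun (h1 c).measurableSet fun u hu => ?_]
  simp only [pull, e _ (h3 c u hu)]

theorem IsCh.map_add {L : Fm X d → ℂ} {D S : Set X} (h : IsCh L D S) {w w' : Fm X d} (hw : Sm w)
    (hw' : Sm w') (hv : Van w D) (hv' : Van w' D) : L (w + w') = L w + L w' := by
  obtain ⟨n, m, A, F, h1, h2, h3, h4⟩ := h
  rw [h4 w hw hv, h4 w' hw' hv', h4 (w + w') (fun x => (hw x).add (hw' x))
    (fun x hx => by rw [Pi.add_apply, hv x hx, hv' x hx, add_zero]), ← Finset.sum_add_distrib]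
  refine Finset.sum_congr rfl fun c _ => ?_
  have i : ∀ v : Fm X d, Sm v → IntegrableOn (pull (F c) v) (A c) := fun v hv =>
    ContinuousOn.integrableOn_compact (h1 c) fun u hu => (pull_cont (h2 c u hu) hv).continuousWithinAt
  rw [← mul_add, ← integral_add (i w hw) (i w' hw')]
  rfl

theorem IsCh.map_smul {L : Fm X d → ℂ} {D S : Set X} (h : IsCh L D S) {w : Fm X d} (hw : Sm w)
    (hv : Van w D) (c : ℂ) : L (c • w) = c * L w := by
  obtain ⟨n, m, A, F, h1, h2, h3, h4⟩ := h
  rw [h4 w hw hv, h4 (c • w) (fun x => (hw x).smul c)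
    (fun x hx => by rw [Pi.smul_apply, hv x hx]; ext v; simp), Finset.mul_sum]
  refine Finset.sum_congr rfl fun a _ => ?_
  rw [mul_left_comm, ← integral_const_mul c]
  rfl

theorem IsCh.map_zero {L : Fm X d → ℂ} {D S : Set X} (h : IsCh L D S) : L 0 = 0 := by
  have h1 := h.map_smul (w := 0) smA_zero (fun _ _ => rfl) 0
  rwa [zero_mul, show (0 : ℂ) • (0 : Fm X d) = 0 from funext fun x => by ext v; simp] at h1

theorem IsCh.map_sum {L : Fm X d → ℂ} {D S : Set X} (h : IsCh L D S) {ι : Type} (s : Finset ι)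
    {w : ι → Fm X d} (hw : ∀ i ∈ s, Sm (w i)) (hv : ∀ i ∈ s, Van (w i) D) :
    L (∑ i ∈ s, w i) = ∑ i ∈ s, L (w i) := by
  classical
  induction s using Finset.induction_on with
  | empty => simpa using h.map_zero
  | insert i s hi ih =>
    have a := fun j hj => hw j (Finset.mem_insert_of_mem (b := i) hj)
    have b := fun j hj => hv j (Finset.mem_insert_of_mem (b := i) hj)
    rw [Finset.sum_insert hi, Finset.sum_insert hi, h.map_add (hw i (Finset.mem_insert_self _ _))
      (fun x => smA_sum s fun j hj => a j hj x) (hv i (Finset.mem_insert_self _ _))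
      fun x hx => by rw [Finset.sum_apply]; exact Finset.sum_eq_zero fun j hj => b j hj x hx,
      ih a b]

theorem IsCh.thin {L : Fm X d → ℂ} {D S : Set X} (h : IsCh L D S) (hd : d < 4) :
    ∃ S', IsCh L D S' ∧ IsClosed S' ∧ Dense S'ᶜ := by
  obtain ⟨n, m, A, F, h1, h2, h3, h4⟩ := h
  refine ⟨⋃ c, F c '' A c, ⟨n, m, A, F, h1, h2, fun c u hu => mem_iUnion.2 ⟨c, u, hu, rfl⟩, h4⟩,
    (isCompact_iUnion fun c => (h1 c).image_of_continuousOn fun u hu =>
      (h2 c u hu).1.continuousWithinAt).isClosed, fun x => ?_⟩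
  have hT : dimH (⋃ c, (chartAt C2 x ∘ F c) '' (A c ∩ F c ⁻¹' (chartAt C2 x).source)) <
      Module.finrank ℝ C2 := by
    have e : Module.finrank ℝ C2 = 4 := by
      rw [← Module.finrank_mul_finrank ℝ ℂ C2]
      simp
    rw [e, dimH_iUnion]
    refine lt_of_le_of_lt (iSup_le fun c => ?_) (show (d : ENNReal) < (4 : ℕ) by exact_mod_cast hd)
    refine (dimH_image_le_of_locally_lipschitzOn fun u hu => ?_).trans ?_
    · obtain ⟨K, t, ht, hK⟩ := ((h2 c u hu.1).chart hu.2).exists_lipschitzOnWith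
      exact ⟨K, t, mem_nhdsWithin_of_mem_nhds ht, hK⟩
    · refine (dimH_mono (subset_univ _)).trans_eq ?_
      rw [Real.dimH_univ_eq_finrank]
      simp
  refine mem_closure_iff_nhds.2 fun U hU => ?_
  have hs := mem_chart_source C2 x
  obtain ⟨_, ⟨y, hy, rfl⟩, hz⟩ := mem_closure_iff_nhds.1
    (dense_compl_of_dimH_lt_finrank hT (chartAt C2 x x)) _
    ((chartAt C2 x).image_mem_nhds hs (inter_mem hU ((chartAt C2 x).open_source.mem_nhds hs)))
  refine ⟨y, hy.1, fun hy' => hz ?_⟩
  obtain ⟨c, u, hu, rfl⟩ := mem_iUnion.1 hy'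
  exact mem_iUnion.2 ⟨c, u, ⟨hu, hy.2⟩, rfl⟩

end Vale.Agent.P267P
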