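import Vale.Agent.P267P.ChH
import Vale.Agent.P267P.C2

/-! The cochain of a form. aa_ch: isCh_ev, IsCh.H twice, sub, add, mono. aa_eq: th i = H β has dd (th i) = β on (B i).O, dd (ff) = th j - th i on (V i j).O (H_id, H_congr, H_zero), so the alternating sum has zero differential on the box W and is constant there (H_id0). aa_exact: H (dd γ) = γ - dd (H γ) on the box, c i j is the value of H j γ - H i γ at the centre of V i j. -/

open scoped Manifold ContDiff Topology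
open Filter MeasureTheory Set

noncomputable section

namespace Vale.Agent.P267P

open Vale.Agent.P267F Vale.Agent.P267I

set_option linter.unusedSectionVars false

variable {X : Type} [TopologicalSpace X] [ChartedSpace C2 X] [IsManifold 𝓘(ℂ, C2) ω X] [T2Space X]
  [CompactSpace X] {k d : ℕ}

theorem b1_tri {S : Sys X} {i j l : Fin S.n} (h : S.Tri i j l) : (S.T i ∩ S.T j).Nonempty ∧
    (S.T j ∩ S.T l).Nonempty ∧ (S.T i ∩ S.T l).Nonempty := by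
  obtain ⟨x, ⟨h1, h2⟩, h3⟩ := h
  exact ⟨⟨x, h1, h2⟩, ⟨x, h2, h3⟩, ⟨x, h1, h3⟩⟩

theorem b1_eta (S : Sys X) {β : Fm X (k + 1)} (h : Sm β) (i j : Fin S.n) :
    Sm ((S.B j).H β - (S.B i).H β) :=
  fun x => ((S.B j).H_sm h x).sub ((S.B i).H_sm h x)

theorem b1_ch (S : Sys X) {i j : Fin S.n} (hij : (S.T i ∩ S.T j).Nonempty) {x : X}
    (hx : x ∈ (S.V i j).O) : IsCh (fun w => S.ff w i j x) univ univ := by
  have h1 := (isCh_ev x).H (S.V i j) (singleton_subset_iff.2 hx)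
  have h2 := (h1.H (S.B j) fun y hy => (S.VB i j hij hy).2).mono (subset_refl _) (subset_univ _)
  have h3 := (h1.H (S.B i) fun y hy => (S.VB i j hij hy).1).mono (subset_refl _) (subset_univ _)
  refine (h2.sub h3).congr fun w hw _ => ?_
  unfold Sys.ff
  rw [(S.V i j).H_sub ((S.B j).H_sm hw) ((S.B i).H_sm hw)]
  rfl

theorem Sys.aa_ch (S : Sys X) {i j l : Fin S.n} (h : S.Tri i j l) :
    IsCh (fun w => S.aa w i j l) univ univ := by
  obtain ⟨a, b, c⟩ := b1_tri h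
  obtain ⟨⟨p, q⟩, r⟩ := S.WV i j l h (S.W i j l).x0_mem.1
  exact ((b1_ch S b q).sub (b1_ch S c r)).add (b1_ch S a p)

theorem Sys.ff_sm (S : Sys X) {β : Fm X 2} (h : Sm β) (i j : Fin S.n) (x : X) : SmAt (S.ff β i j) x := by
  refine smA_f0.1 ?_
  unfold Sys.ff
  rw [f0_ev]
  exact (S.V i j).H_sm (b1_eta S h i j) x

theorem b1_van (b : Box X) {w : Fm X (k + 1)} (h : ∀ y ∈ b.O, w y = 0) {x : X} (hx : x ∈ b.O) :
    b.H w x = 0 := by
  rw [b.H_congr (w' := 0) h hx, b.H_zero]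
  rfl

theorem Sys.dd_ff (S : Sys X) {β : Fm X 2} (h : Sm β) (hc : dd β = 0) {i j : Fin S.n}
    (hij : (S.T i ∩ S.T j).Nonempty) {x : X} (hx : x ∈ (S.V i j).O) :
    dd (f0 (S.ff β i j)) x = (S.B j).H β x - (S.B i).H β x := by
  have e : ∀ a, ∀ y ∈ (S.B a).O, dd ((S.B a).H β) y = β y := by
    intro a y hy
    have := (S.B a).H_id h hy
    rwa [hc, (S.B a).H_zero, Pi.zero_apply, add_zero] at this
  have h1 := (S.V i j).H_id (b1_eta S h i j) hx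
  rw [b1_van (S.V i j) (fun y hy => ?_) hx, add_zero] at h1
  · unfold Sys.ff
    rw [f0_ev]
    exact h1
  · rw [dd_sub ((S.B j).H_sm h y) ((S.B i).H_sm h y), e j y (S.VB i j hij hy).2,
      e i y (S.VB i j hij hy).1, sub_self]

theorem Sys.aa_eq (S : Sys X) {β : Fm X 2} (h : Sm β) (hc : dd β = 0) {i j l : Fin S.n}
    (ht : S.Tri i j l) {x : X} (hx : x ∈ (S.W i j l).O) :
    S.aa β i j l = S.ff β j l x - S.ff β i l x + S.ff β i j x := by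
  obtain ⟨a, b, c⟩ := b1_tri ht
  have s : ∀ p q y, SmA (f0 (S.ff β p q)) y := fun p q y => smA_f0.2 (S.ff_sm h p q y)
  have h1 := (S.W i j l).H_id0 (w := f0 (S.ff β j l) - f0 (S.ff β i l) + f0 (S.ff β i j))
    (fun y => ((s j l y).sub (s i l y)).add (s i j y)) hx
  have h2 : ev ((S.W i j l).H (dd (f0 (S.ff β j l) - f0 (S.ff β i l) + f0 (S.ff β i j)))) x = 0 := by
    unfold ev
    rw [b1_van (S.W i j l) (fun y hy => ?_) hx]
    · rfl
    · obtain ⟨⟨p, q⟩, r⟩ := S.WV i j l ht hy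
      rw [dd_add ((s j l y).sub (s i l y)) (s i j y), dd_sub (s j l y) (s i l y),
        S.dd_ff h hc a p, S.dd_ff h hc b q, S.dd_ff h hc c r]
      abel
  rw [h2] at h1
  exact (sub_eq_zero.1 h1.symm).symm

theorem Sys.aa_coc (S : Sys X) {β : Fm X 2} (h : Sm β) (hc : dd β = 0) : S.Coc (S.aa β) := by
  rintro g i j l ⟨x, ⟨⟨h0, h1⟩, h2⟩, h3⟩
  rw [S.aa_eq h hc ⟨x, ⟨h1, h2⟩, h3⟩ (S.TW i j l ⟨⟨h1, h2⟩, h3⟩),
    S.aa_eq h hc ⟨x, ⟨h0, h2⟩, h3⟩ (S.TW g j l ⟨⟨h0, h2⟩, h3⟩),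
    S.aa_eq h hc ⟨x, ⟨h0, h1⟩, h3⟩ (S.TW g i l ⟨⟨h0, h1⟩, h3⟩),
    S.aa_eq h hc ⟨x, ⟨h0, h1⟩, h2⟩ (S.TW g i j ⟨⟨h0, h1⟩, h2⟩)]
  ring

theorem b1_ex (S : Sys X) {γ : Fm X 1} (h : Sm γ) {i j : Fin S.n} (hij : (S.T i ∩ S.T j).Nonempty)
    {x : X} (hx : x ∈ (S.V i j).O) : S.ff (dd γ) i j x = ev ((S.B i).H γ) x - ev ((S.B j).H γ) x +
      (ev ((S.B j).H γ) (S.V i j).x0 - ev ((S.B i).H γ) (S.V i j).x0) := by
  have h1 := (S.V i j).H_id0 (b1_eta S h j i) hx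
  have h2 : (S.V i j).H ((S.B j).H (dd γ) - (S.B i).H (dd γ)) x =
      (S.V i j).H (dd ((S.B i).H γ - (S.B j).H γ)) x := by
    refine (S.V i j).H_congr (fun y hy => ?_) hx
    rw [dd_sub ((S.B i).H_sm h y) ((S.B j).H_sm h y), Pi.sub_apply,
      eq_sub_of_add_eq ((S.B i).H_id h (S.VB i j hij hy).1),
      eq_sub_of_add_eq ((S.B j).H_id h (S.VB i j hij hy).2)]
    abel
  have h3 : S.ff (dd γ) i j x = ev ((S.V i j).H (dd ((S.B i).H γ - (S.B j).H γ))) x := by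
    unfold Sys.ff ev
    rw [h2]
  have h4 : ∀ y, ev ((S.B i).H γ - (S.B j).H γ) y = ev ((S.B i).H γ) y - ev ((S.B j).H γ) y :=
    fun y => rfl
  rw [h3, h1, h4, h4]
  ring

theorem Sys.aa_exact (S : Sys X) {γ : Fm X 1} (h : Sm γ) :
    ∃ c : Fin S.n → Fin S.n → ℂ, ∀ i j l, S.Tri i j l → S.aa (dd γ) i j l = c j l - c i l + c i j := by
  refine ⟨fun i j => ev ((S.B j).H γ) (S.V i j).x0 - ev ((S.B i).H γ) (S.V i j).x0,
    fun i j l ht => ?_⟩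
  obtain ⟨a, b, c⟩ := b1_tri ht
  obtain ⟨⟨p, q⟩, r⟩ := S.WV i j l ht (S.W i j l).x0_mem.1
  unfold Sys.aa
  rw [b1_ex S h a p, b1_ex S h b q, b1_ex S h c r]
  ring

end Vale.Agent.P267P
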