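import Vale.Agent.P267P.B1

/-! Partition of unity algebra; test on vectors with dd_fs, wd_one, dd_f0, dd_dd, sum_dAt, dAt_van. al_apply first. weil: th i = H β, η = Σ ρ i th i, κ = Σ ρ j f i j dρ i, γ = η - κ. dη = β + Σ dρ i ∧ th i = β + Σ ρ j df i j ∧ dρ i, dκ = Σ f i j dρ j ∧ dρ i + Σ ρ j df i j ∧ dρ i, and Σ f i j dρ j ∧ dρ i = al (aa β) by aa_eq (terms with x outside T i ∩ T j ∩ T l vanish). al_cob: γ = Σ c i j ρ j dρ i. -/

open scoped Manifold ContDiff Topology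
open Filter MeasureTheory Set

noncomputable section

namespace Vale.Agent.P267P

open Vale.Agent.P267F Vale.Agent.P267I

set_option linter.unusedSectionVars false

variable {X : Type} [TopologicalSpace X] [ChartedSpace C2 X] [IsManifold 𝓘(ℂ, C2) ω X] [T2Space X]
  [CompactSpace X] {k d : ℕ}

theorem b3_two {f g : X → ℂ} {x : X} (hf : SmAt f x) (hg : SmAt g x) (v : Fin 2 → C2) :
    dd (fs f (dd (f0 g))) x v = dAt f x (v 0) * dAt g x (v 1) - dAt f x (v 1) * dAt g x (v 0) := by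
  rw [dd_fs hf (smA_f0.2 hg).dd, dd_dd (smA_f0.2 hg), ContinuousAlternatingMap.add_apply, wd_one,
    dd_f0, dd_f0]
  simp

theorem b3_alg {ι : Type} [Fintype ι] {r : ι → ℂ} {P : ι → ι → ℂ} (hr : ∑ l, r l = 1)
    (h1 : ∀ j, ∑ i, P i j = 0) (h2 : ∀ i, ∑ j, P i j = 0) (c : ι → ι → ℂ) :
    ∑ i, ∑ j, ∑ l, (c j l - c i l + c i j) * (r l * P i j) = ∑ i, ∑ j, c i j * P i j := by
  have e1 : ∑ i, ∑ j, ∑ l, c j l * (r l * P i j) = 0 := by
    rw [Finset.sum_comm]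
    refine Finset.sum_eq_zero fun j _ => ?_
    rw [Finset.sum_comm]
    exact Finset.sum_eq_zero fun l _ => by simp only [← Finset.mul_sum, h1, mul_zero]
  have e2 : ∑ i, ∑ j, ∑ l, c i l * (r l * P i j) = 0 := by
    refine Finset.sum_eq_zero fun i _ => ?_
    rw [Finset.sum_comm]
    exact Finset.sum_eq_zero fun l _ => by simp only [← Finset.mul_sum, h2, mul_zero]
  simp only [add_mul, sub_mul, Finset.sum_add_distrib, Finset.sum_sub_distrib, e1, e2]
  simp only [← Finset.mul_sum, ← Finset.sum_mul, hr, one_mul, sub_zero, zero_add]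

theorem b3_sum (S : Sys X) (x : X) (w : C2) : ∑ i, dAt (S.ρ i) x w = 0 := by
  simpa using congrArg (fun L : C2 →L[ℝ] ℂ => L w) (S.sum_dAt x)

theorem b3_cob (S : Sys X) (x : X) (v : Fin 2 → C2) (c : Fin S.n → Fin S.n → ℂ) :
    ∑ i, ∑ j, ∑ l, (c j l - c i l + c i j) * (S.ρ l x *
      (dAt (S.ρ j) x (v 0) * dAt (S.ρ i) x (v 1) - dAt (S.ρ j) x (v 1) * dAt (S.ρ i) x (v 0))) =
    ∑ i, ∑ j, c i j *
      (dAt (S.ρ j) x (v 0) * dAt (S.ρ i) x (v 1) - dAt (S.ρ j) x (v 1) * dAt (S.ρ i) x (v 0)) :=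
  b3_alg (P := fun i j => dAt (S.ρ j) x (v 0) * dAt (S.ρ i) x (v 1) -
      dAt (S.ρ j) x (v 1) * dAt (S.ρ i) x (v 0)) (S.sum x)
    (fun j => by simp only [Finset.sum_sub_distrib, ← Finset.mul_sum, b3_sum, mul_zero, sub_zero])
    (fun i => by simp only [Finset.sum_sub_distrib, ← Finset.sum_mul, b3_sum, zero_mul, sub_zero]) c

theorem b3_tri (S : Sys X) (x : X) (v : Fin 2 → C2) {i j l : Fin S.n} {a a' : ℂ}
    (h : x ∈ S.T i ∩ S.T j ∩ S.T l → a = a') : a * (S.ρ l x *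
      (dAt (S.ρ j) x (v 0) * dAt (S.ρ i) x (v 1) - dAt (S.ρ j) x (v 1) * dAt (S.ρ i) x (v 0))) =
    a' * (S.ρ l x *
      (dAt (S.ρ j) x (v 0) * dAt (S.ρ i) x (v 1) - dAt (S.ρ j) x (v 1) * dAt (S.ρ i) x (v 0))) := by
  by_cases h1 : x ∈ S.T i
  · by_cases h2 : x ∈ S.T j
    · by_cases h3 : x ∈ S.T l
      · rw [h ⟨⟨h1, h2⟩, h3⟩]
      · simp [S.van l x h3]
    · simp [S.dAt_van j h2]
  · simp [S.dAt_van i h1]

theorem Sys.al_sm (S : Sys X) (a : Fin S.n → Fin S.n → Fin S.n → ℂ) : Sm (S.al a) := by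
  exact fun x => smA_sum _ fun i _ => smA_sum _ fun j _ => smA_sum _ fun l _ =>
    (((smA_f0.2 (S.sm i x)).dd.fs (S.sm j x)).dd.fs (S.sm l x)).smul _

theorem Sys.al_apply (S : Sys X) (a : Fin S.n → Fin S.n → Fin S.n → ℂ) (x : X) (v : Fin 2 → C2) :
    S.al a x v = ∑ i, ∑ j, ∑ l, a i j l * (S.ρ l x *
      (dAt (S.ρ j) x (v 0) * dAt (S.ρ i) x (v 1) - dAt (S.ρ j) x (v 1) * dAt (S.ρ i) x (v 0))) := by
  simp only [← b3_two (S.sm _ x) (S.sm _ x) v]
  simp [Sys.al, fs, Finset.sum_apply, ContinuousAlternatingMap.sum_apply]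

theorem Sys.al_congr (S : Sys X) {a a' : Fin S.n → Fin S.n → Fin S.n → ℂ}
    (h : ∀ i j l, S.Tri i j l → a i j l = a' i j l) : S.al a = S.al a' := by
  funext x
  ext v
  rw [S.al_apply, S.al_apply]
  exact Finset.sum_congr rfl fun i _ => Finset.sum_congr rfl fun j _ =>
    Finset.sum_congr rfl fun l _ => b3_tri S x v fun hx => h i j l ⟨x, hx⟩

theorem Sys.al_add (S : Sys X) (a a' : Fin S.n → Fin S.n → Fin S.n → ℂ) :
    S.al (a + a') = S.al a + S.al a' := by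
  funext x
  ext v
  simp only [Pi.add_apply, ContinuousAlternatingMap.add_apply, S.al_apply, add_mul,
    Finset.sum_add_distrib]

theorem Sys.al_smul (S : Sys X) (c : ℂ) (a : Fin S.n → Fin S.n → Fin S.n → ℂ) :
    S.al (c • a) = c • S.al a := by
  funext x
  ext v
  simp only [Pi.smul_apply, ContinuousAlternatingMap.smul_apply, S.al_apply, smul_eq_mul,
    Finset.mul_sum, mul_assoc]

theorem Sys.al_cob (S : Sys X) (c : Fin S.n → Fin S.n → ℂ) :
    ∃ γ : Fm X 1, Sm γ ∧ S.al (fun i j l => c j l - c i l + c i j) = dd γ := by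
  have h : ∀ i j x, SmA (c i j • fs (S.ρ j) (dd (f0 (S.ρ i)))) x :=
    fun i j x => ((smA_f0.2 (S.sm i x)).dd.fs (S.sm j x)).smul _
  refine ⟨∑ i, ∑ j, c i j • fs (S.ρ j) (dd (f0 (S.ρ i))),
    fun x => smA_sum _ fun i _ => smA_sum _ fun j _ => h i j x, ?_⟩
  funext x
  ext v
  rw [S.al_apply, b3_cob, dd_sum _ fun i _ => smA_sum _ fun j _ => h i j x,
    ContinuousAlternatingMap.sum_apply]
  refine Finset.sum_congr rfl fun i _ => ?_
  rw [dd_sum _ fun j _ => h i j x, ContinuousAlternatingMap.sum_apply]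
  refine Finset.sum_congr rfl fun j _ => ?_
  rw [dd_smul, ContinuousAlternatingMap.smul_apply, b3_two (S.sm j x) (S.sm i x), smul_eq_mul]

theorem Sys.weil (S : Sys X) {β : Fm X 2} (h : Sm β) (hc : dd β = 0) :
    ∃ γ : Fm X 1, Sm γ ∧ β = S.al (S.aa β) + dd γ := by
  have t1 : ∀ i, Sm ((S.B i).H β) := fun i => (S.B i).H_sm h
  have n1 : ∀ i x, SmA (fs (S.ρ i) ((S.B i).H β)) x := fun i x => (t1 i x).fs (S.sm i x)
  have k0 : ∀ i j x, SmA (fs (S.ff β i j) (dd (f0 (S.ρ i)))) x :=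
    fun i j x => (smA_f0.2 (S.sm i x)).dd.fs (S.ff_sm h i j x)
  have k1 : ∀ i j x, SmA (fs (S.ρ j) (fs (S.ff β i j) (dd (f0 (S.ρ i))))) x :=
    fun i j x => (k0 i j x).fs (S.sm j x)
  have n2 : Sm (∑ i, fs (S.ρ i) ((S.B i).H β)) := fun x => smA_sum _ fun i _ => n1 i x
  have k2 : Sm (∑ i, ∑ j, fs (S.ρ j) (fs (S.ff β i j) (dd (f0 (S.ρ i))))) :=
    fun x => smA_sum _ fun i _ => smA_sum _ fun j _ => k1 i j x
  refine ⟨_, fun x => (n2 x).sub (k2 x), ?_⟩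
  funext x
  ext v
  have e1 : ∀ i, dd (fs (S.ρ i) ((S.B i).H β)) x v = dAt (S.ρ i) x (v 0) * (S.B i).H β x ![v 1] -
      dAt (S.ρ i) x (v 1) * (S.B i).H β x ![v 0] + S.ρ i x * β x v := fun i => by
    rw [dd_fs (S.sm i x) (t1 i x), ContinuousAlternatingMap.add_apply, wd_one,
      ContinuousAlternatingMap.smul_apply, smul_eq_mul]
    by_cases hx : x ∈ S.T i
    · have := (S.B i).H_id h (S.TB i hx)
      rw [hc, Box.H_zero, Pi.zero_apply, add_zero] at this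
      rw [this]
    · simp [S.van i x hx]
  have e2 : ∀ i j, dd (fs (S.ρ j) (fs (S.ff β i j) (dd (f0 (S.ρ i))))) x v = S.ff β i j x *
      (dAt (S.ρ j) x (v 0) * dAt (S.ρ i) x (v 1) - dAt (S.ρ j) x (v 1) * dAt (S.ρ i) x (v 0)) +
      (S.ρ j x * (S.B j).H β x ![v 0] * dAt (S.ρ i) x (v 1) -
        S.ρ j x * (S.B j).H β x ![v 1] * dAt (S.ρ i) x (v 0) +
      S.ρ j x * (dAt (S.ρ i) x (v 0) * (S.B i).H β x ![v 1] -
        dAt (S.ρ i) x (v 1) * (S.B i).H β x ![v 0])) := fun i j => by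
    rw [dd_fs (S.sm j x) (k0 i j x), ContinuousAlternatingMap.add_apply, wd_one,
      ContinuousAlternatingMap.smul_apply, smul_eq_mul, b3_two (S.ff_sm h i j x) (S.sm i x)]
    simp only [fs, ContinuousAlternatingMap.smul_apply, smul_eq_mul, dd_f0, Matrix.cons_val_zero]
    by_cases h1 : x ∈ S.T i
    · by_cases h2 : x ∈ S.T j
      · have d : ∀ w, dAt (S.ff β i j) x w = (S.B j).H β x ![w] - (S.B i).H β x ![w] := fun w => by
          rw [← ContinuousAlternatingMap.sub_apply,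
            ← S.dd_ff h hc ⟨x, h1, h2⟩ (S.TV i j ⟨h1, h2⟩), dd_f0, Matrix.cons_val_zero]
        rw [d, d]
        ring
      · simp [S.van j x h2, S.dAt_van j h2]
    · simp [S.dAt_van i h1]
  have e3 : S.al (S.aa β) x v = ∑ i, ∑ j, S.ff β i j x *
      (dAt (S.ρ j) x (v 0) * dAt (S.ρ i) x (v 1) - dAt (S.ρ j) x (v 1) * dAt (S.ρ i) x (v 0)) := by
    rw [S.al_apply, ← b3_cob S x v fun i j => S.ff β i j x]
    exact Finset.sum_congr rfl fun i _ => Finset.sum_congr rfl fun j _ =>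
      Finset.sum_congr rfl fun l _ => b3_tri S x v fun hx => S.aa_eq h hc ⟨x, hx⟩ (S.TW i j l hx)
  rw [Pi.add_apply, ContinuousAlternatingMap.add_apply, dd_sub (n2 x) (k2 x),
    ContinuousAlternatingMap.sub_apply, dd_sum _ fun i _ => n1 i x,
    dd_sum _ fun i _ => smA_sum _ fun j _ => k1 i j x, e3]
  simp only [dd_sum _ fun j _ => k1 _ j x, ContinuousAlternatingMap.sum_apply, e1, e2]
  simp only [Finset.sum_add_distrib, Finset.sum_sub_distrib, ← Finset.sum_mul, S.sum x]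
  simp only [one_mul, Finset.sum_sub_distrib, ← Finset.mul_sum, b3_sum]
  ring

end Vale.Agent.P267P
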