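import Vale.Agent.P267P.F2

/-! Integral chains, algebra. pull_cont: near u write pull with the fixed chart at F u (pull_eq: chain rule, loc), ContDiffAt 1 holds near u. Sums: Fin.append or finSumFinEquiv. -/

open scoped Manifold ContDiff Topology
open Filter MeasureTheory Set

noncomputable section

namespace Vale.Agent.P267P

open Vale.Agent.P267F Vale.Agent.P267I

set_option linter.unusedSectionVars false

variable {X : Type} [TopologicalSpace X] [ChartedSpace C2 X] [IsManifold 𝓘(ℂ, C2) ω X] [T2Space X]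
  [CompactSpace X] {k d : ℕ}

theorem c1_ch {p q x : X} (hp : x ∈ (chartAt C2 p).source) (hq : x ∈ (chartAt C2 q).source) :
    ContDiffAt ℝ 1 (chartAt C2 q ∘ (chartAt C2 p).symm) (chartAt C2 p x) := by
  have h := (contDiffWithinAt_ext_coord_change (I := 𝓘(ℂ, C2)) (n := ω) q p
    (y := chartAt C2 p x) (by simp [hp, hq]))
  simp only [extChartAt_coe, extChartAt_coe_symm, modelWithCornersSelf_coe,
    modelWithCornersSelf_coe_symm, Function.id_comp, Function.comp_id, range_id,
    contDiffWithinAt_univ] at h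
  exact (h.of_le le_top).restrict_scalars ℝ

theorem c1_ev {F : (Fin d → ℝ) → X} {u : Fin d → ℝ} (hc : ContinuousAt F u) {p : X}
    (hp : F u ∈ (chartAt C2 p).source) (q : X) : chartAt C2 q ∘ F =ᶠ[𝓝 u]
      (chartAt C2 q ∘ (chartAt C2 p).symm) ∘ (chartAt C2 p ∘ F) :=
  Eventually.mono (hc ((chartAt C2 p).open_source.mem_nhds hp)) fun _ hv =>
    congrArg (chartAt C2 q) ((chartAt C2 p).left_inv hv).symm

theorem c1_tr {F : (Fin d → ℝ) → X} {u : Fin d → ℝ} (hc : ContinuousAt F u) {p q : X}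
    (hp : F u ∈ (chartAt C2 p).source) (hq : F u ∈ (chartAt C2 q).source)
    (h : ContDiffAt ℝ 1 (chartAt C2 p ∘ F) u) : ContDiffAt ℝ 1 (chartAt C2 q ∘ F) u :=
  (ContDiffAt.comp u (f := chartAt C2 p ∘ F) (c1_ch hp hq) h).congr_of_eventuallyEq
    (c1_ev hc hp q)

theorem C1At.chart {F : (Fin d → ℝ) → X} {u : Fin d → ℝ} (h : C1At F u) {p : X}
    (hp : F u ∈ (chartAt C2 p).source) : ContDiffAt ℝ 1 (chartAt C2 p ∘ F) u := by
  exact c1_tr h.1 (mem_chart_source C2 _) hp h.2

theorem c1At_of {F : (Fin d → ℝ) → X} {u : Fin d → ℝ} (hc : ContinuousAt F u) {p : X}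
    (hp : F u ∈ (chartAt C2 p).source) (h : ContDiffAt ℝ 1 (chartAt C2 p ∘ F) u) : C1At F u := by
  exact ⟨hc, c1_tr hc hp (mem_chart_source C2 _) h⟩

theorem pull_eq {F : (Fin d → ℝ) → X} {u : Fin d → ℝ} (h : C1At F u) {p : X}
    (hp : F u ∈ (chartAt C2 p).source) (w : Fm X d) : pull F w u =
      loc p w (chartAt C2 p (F u)) fun i => fderiv ℝ (chartAt C2 p ∘ F) u (Pi.single i 1) := by
  have h1 := (h.chart hp).differentiableAt one_ne_zero
  have h2 := (c1_ch hp (mem_chart_source C2 (F u))).differentiableAt one_ne_zero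
  have h3 := (c1_ev h.1 hp (F u)).fderiv_eq (𝕜 := ℝ)
  rw [fderiv_comp u (g := chartAt C2 (F u) ∘ (chartAt C2 p).symm) h2 h1] at h3
  rw [pull, loc, (chartAt C2 p).left_inv hp, h3]
  rfl

theorem pull_cont {F : (Fin d → ℝ) → X} {u : Fin d → ℝ} (h : C1At F u) {w : Fm X d} (hw : Sm w) :
    ContinuousAt (pull F w) u := by
  have hp := mem_chart_source C2 (F u)
  have h1 : ∀ᶠ v in 𝓝 u, F v ∈ (chartAt C2 (F u)).source :=
    h.1 ((chartAt C2 (F u)).open_source.mem_nhds hp)
  have h2 := h.2.eventually (by simp)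
  have h3 : ContinuousAt (fun v => loc (F u) w (chartAt C2 (F u) (F v))) u :=
    ContinuousAt.comp (f := chartAt C2 (F u) ∘ F) (hw (F u)).self_of_nhds.continuousAt
      h.2.continuousAt
  have h4 : ContinuousAt (fun v => fun i => fderiv ℝ (chartAt C2 (F u) ∘ F) v (Pi.single i 1)) u :=
    continuousAt_pi.2 fun i => (h.2.continuousAt_fderiv one_ne_zero).clm_apply continuousAt_const
  refine (h3.eval h4).congr ?_
  filter_upwards [h1.eventually_nhds, h2] with v a b
  have c : ContinuousAt F v := by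
    refine (ContinuousAt.comp (f := chartAt C2 (F u) ∘ F) ((chartAt C2 (F u)).continuousAt_symm
      ((chartAt C2 (F u)).map_source a.self_of_nhds)) b.continuousAt).congr ?_
    exact a.mono fun y hy => (chartAt C2 (F u)).left_inv hy
  exact (pull_eq (c1At_of c a.self_of_nhds b) a.self_of_nhds w).symm

theorem IsCh.mono {L : Fm X d → ℂ} {D D' S S' : Set X} (h : IsCh L D S) (hD : D' ⊆ D)
    (hS : S ⊆ S') : IsCh L D' S' := by
  obtain ⟨n, m, A, F, h1, h2, h3, h4⟩ := h
  exact ⟨n, m, A, F, h1, h2, fun c u hu => hS (h3 c u hu),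
    fun w a b => h4 w a fun x hx => b x fun h => hx (hD h)⟩

theorem IsCh.congr {L L' : Fm X d → ℂ} {D S : Set X} (h : IsCh L D S)
    (e : ∀ w, Sm w → Van w D → L' w = L w) : IsCh L' D S := by
  obtain ⟨n, m, A, F, h1, h2, h3, h4⟩ := h
  exact ⟨n, m, A, F, h1, h2, h3, fun w a b => (e w a b).trans (h4 w a b)⟩

theorem isCh_zero (D S : Set X) : IsCh (fun _ : Fm X d => (0 : ℂ)) D S := by
  exact ⟨0, Fin.elim0, Fin.elim0, Fin.elim0, fun c => c.elim0, fun c => c.elim0, fun c => c.elim0,
    fun _ _ _ => by simp⟩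

theorem IsCh.add {L L' : Fm X d → ℂ} {D S : Set X} (h : IsCh L D S) (h' : IsCh L' D S) :
    IsCh (fun w => L w + L' w) D S := by
  obtain ⟨n, m, A, F, h1, h2, h3, h4⟩ := h
  obtain ⟨n', m', A', F', h1', h2', h3', h4'⟩ := h'
  refine ⟨n + n', Fin.append m m', Fin.append A A', Fin.append F F', ?_, ?_, ?_,
    fun w a b => ?_⟩
  · refine Fin.addCases (fun c => ?_) fun c => ?_ <;>
      simp only [Fin.append_left, Fin.append_right]
    exacts [h1 c, h1' c]
  · refine Fin.addCases (fun c => ?_) fun c => ?_ <;>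
      simp only [Fin.append_left, Fin.append_right]
    exacts [h2 c, h2' c]
  · refine Fin.addCases (fun c => ?_) fun c => ?_ <;>
      simp only [Fin.append_left, Fin.append_right]
    exacts [h3 c, h3' c]
  · simp only [Fin.sum_univ_add, Fin.append_left, Fin.append_right, h4 w a b, h4' w a b]

theorem IsCh.zsmul {L : Fm X d → ℂ} {D S : Set X} (h : IsCh L D S) (m : ℤ) :
    IsCh (fun w => (m : ℂ) * L w) D S := by
  obtain ⟨n, k, A, F, h1, h2, h3, h4⟩ := h
  refine ⟨n, fun c => m * k c, A, F, h1, h2, h3, fun w a b => ?_⟩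
  simp only [h4 w a b, Finset.mul_sum, Int.cast_mul, mul_assoc]

theorem IsCh.sub {L L' : Fm X d → ℂ} {D S : Set X} (h : IsCh L D S) (h' : IsCh L' D S) :
    IsCh (fun w => L w - L' w) D S := by
  exact (h.add (h'.zsmul (-1))).congr fun w _ _ => by simp [sub_eq_add_neg]

theorem isCh_sum {ι : Type} (s : Finset ι) {L : ι → Fm X d → ℂ} {D S : Set X}
    (h : ∀ i ∈ s, IsCh (L i) D S) : IsCh (fun w => ∑ i ∈ s, L i w) D S := by
  classical
  induction s using Finset.induction_on with
  | empty => simpa using isCh_zero D S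
  | insert i s hi ih =>
    simp only [Finset.sum_insert hi]
    exact (h i (Finset.mem_insert_self _ _)).add (ih fun j hj => h j (Finset.mem_insert_of_mem hj))

theorem isCh_ev (x : X) : IsCh (fun w : Fm X 0 => ev w x) univ {x} := by
  refine ⟨1, fun _ => 1, fun _ => univ, fun _ _ => x, fun _ => (Set.toFinite _).isCompact,
    fun _ u _ => ⟨continuousAt_const, contDiffAt_const⟩, fun _ _ _ => rfl, fun w _ _ => ?_⟩
  have e : pull (fun _ : Fin 0 → ℝ => x) w = fun _ => ev w x :=
    funext fun u => congrArg (w x) (Subsingleton.elim _ _)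
  have m : (volume : Measure (Fin 0 → ℝ)).real univ = 1 := by
    simp [Measure.real, volume_pi]
  simp [e, m]

end Vale.Agent.P267P
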