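import Vale.Agent.P267P.C1
import Vale.Agent.P267P.N0

/-! The cone over a cell, chart level. -/

open scoped Manifold ContDiff Topology
open Filter MeasureTheory Set

noncomputable section

namespace Vale.Agent.P267P

open Vale.Agent.P267F Vale.Agent.P267I

set_option linter.unusedSectionVars false

variable {X : Type} [TopologicalSpace X] [ChartedSpace C2 X] [IsManifold 𝓘(ℂ, C2) ω X] [T2Space X]
  [CompactSpace X] {k d : ℕ}

/-- The tail as a linear map. -/
def c3T (d : ℕ) : (Fin (d + 1) → ℝ) →L[ℝ] Fin d → ℝ :=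
  ContinuousLinearMap.pi fun i => ContinuousLinearMap.proj i.succ

theorem c3T_eq (v : Fin (d + 1) → ℝ) : c3T d v = Fin.tail v := rfl

theorem cone_c1 {y : (Fin d → ℝ) → C2} {u : Fin (d + 1) → ℝ} (hy : ContDiffAt ℝ 1 y (Fin.tail u))
    (q : C2) : ContDiffAt ℝ 1 (fun v : Fin (d + 1) → ℝ => q + v 0 • (y (Fin.tail v) - q)) u :=
  contDiffAt_const.add ((contDiffAt_apply ℝ ℝ 0 u).smul
    ((ContDiffAt.comp (f := c3T d) u hy (c3T d).contDiff.contDiffAt).sub contDiffAt_const))

theorem c3_cons : Continuous fun p : ℝ × (Fin d → ℝ) => (Fin.cons p.1 p.2 : Fin (d + 1) → ℝ) :=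
  continuous_pi fun i => Fin.cases continuous_fst (fun j => by
    simp only [Fin.cons_succ]
    fun_prop) i

theorem c3_set (A : Set (Fin d → ℝ)) (a b : ℝ) :
    {v : Fin (d + 1) → ℝ | v 0 ∈ Icc a b ∧ Fin.tail v ∈ A} =
      (fun p : ℝ × (Fin d → ℝ) => (Fin.cons p.1 p.2 : Fin (d + 1) → ℝ)) '' (Icc a b ×ˢ A) := by
  ext v
  constructor
  · exact fun h => ⟨(v 0, Fin.tail v), h, Fin.cons_self_tail v⟩
  · rintro ⟨p, hp, rfl⟩
    exact ⟨hp.1, by simpa using hp.2⟩

theorem cone_cpt {A : Set (Fin d → ℝ)} (hA : IsCompact A) (a b : ℝ) :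
    IsCompact {v : Fin (d + 1) → ℝ | v 0 ∈ Icc a b ∧ Fin.tail v ∈ A} := by
  rw [c3_set]
  exact (isCompact_Icc.prod hA).image c3_cons

theorem c3_der {y : (Fin d → ℝ) → C2} {u : Fin d → ℝ} (hy : ContDiffAt ℝ 1 y u) (q : C2) (t : ℝ)
    (G : Al (d + 1)) :
    (G fun i => fderiv ℝ (fun v : Fin (d + 1) → ℝ => q + v 0 • (y (Fin.tail v) - q))
      (Fin.cons t u) (Pi.single i 1)) =
      ((t ^ d : ℝ) • G.curryLeft (y u - q)) fun i => fderiv ℝ y u (Pi.single i 1) := by
  have h1 : HasFDerivAt y (fderiv ℝ y u) (c3T d (Fin.cons t u)) := by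
    rw [c3T_eq, Fin.tail_cons]
    exact (hy.differentiableAt one_ne_zero).hasFDerivAt
  have h2 : HasFDerivAt (fun v : Fin (d + 1) → ℝ => q + v 0 • (y (Fin.tail v) - q)) _
      (Fin.cons t u) := ((hasFDerivAt_apply (𝕜 := ℝ) 0 (Fin.cons t u : Fin (d + 1) → ℝ)).smul
        ((h1.comp _ (c3T d).hasFDerivAt).sub_const q)).const_add q
  have e : (fun i => fderiv ℝ (fun v : Fin (d + 1) → ℝ => q + v 0 • (y (Fin.tail v) - q))
      (Fin.cons t u) (Pi.single i 1)) =
      Fin.cons (y u - q) fun i => t • fderiv ℝ y u (Pi.single i 1) := by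
    rw [h2.fderiv]
    funext i
    refine Fin.cases ?_ (fun j => ?_) i
    · have : c3T d (Pi.single 0 1) = 0 := by
        ext j
        simp [c3T]
      simp [this, c3T_eq]
    · have : c3T d (Pi.single j.succ 1) = Pi.single j 1 := by
        ext l
        simp [c3T, Pi.single_apply]
      simp [this]
  rw [e, ContinuousAlternatingMap.smul_apply]
  exact ((G.curryLeft (y u - q)).map_smul_univ (fun _ => t) _).trans (by simp)

theorem cone_int {y : (Fin d → ℝ) → C2} {A : Set (Fin d → ℝ)} (hA : IsCompact A)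
    (hy : ∀ u ∈ A, ContDiffAt ℝ 1 y u) {g : C2 → Al (d + 1)} (hg : Continuous g) (q : C2) {a b : ℝ}
    (hab : a ≤ b) :
    ∫ u in A, rad q a b g (y u) (fun i => fderiv ℝ y u (Pi.single i 1)) =
      ∫ v in {v : Fin (d + 1) → ℝ | v 0 ∈ Icc a b ∧ Fin.tail v ∈ A},
        g (q + v 0 • (y (Fin.tail v) - q)) fun i =>
          fderiv ℝ (fun v : Fin (d + 1) → ℝ => q + v 0 • (y (Fin.tail v) - q)) v (Pi.single i 1) := by
  have mp := (volume_preserving_piFinSuccAbove (fun _ : Fin (d + 1) => ℝ) 0).symm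
  have ee : ∀ p : ℝ × (Fin d → ℝ), (MeasurableEquiv.piFinSuccAbove (fun _ : Fin (d + 1) => ℝ) 0).symm p =
      Fin.cons p.1 p.2 := fun p => by
    simp [MeasurableEquiv.piFinSuccAbove, Fin.insertNthEquiv, Fin.insertNth_zero']
  rw [c3_set, ← funext ee, mp.setIntegral_image_emb (MeasurableEquiv.measurableEmbedding _)]
  have hm : MeasurableSet (Icc a b ×ˢ A) := measurableSet_Icc.prod hA.measurableSet
  set H : ℝ × (Fin d → ℝ) → ℂ := fun p => ((p.1 ^ d : ℝ) • (g (q + p.1 • (y p.2 - q))).curryLeft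
    (y p.2 - q)) fun i => fderiv ℝ y p.2 (Pi.single i 1) with hH
  have hc : ∀ p : ℝ × (Fin d → ℝ), p.2 ∈ A → ContinuousAt H p := fun p hp => by
    have c1 : ContinuousAt (fun p : ℝ × (Fin d → ℝ) => y p.2 - q) p :=
      ((hy _ hp).continuousAt.comp continuousAt_snd).sub continuousAt_const
    have c2 : ContinuousAt (fun p : ℝ × (Fin d → ℝ) => fderiv ℝ y p.2) p :=
      ((hy _ hp).fderiv_right (m := 0) le_rfl).continuousAt.comp continuousAt_snd
    have c3 : ContinuousAt (fun p : ℝ × (Fin d → ℝ) => (Fin.cons (y p.2 - q)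
        (fun i => fderiv ℝ y p.2 (Pi.single i 1)) : Fin (d + 1) → C2)) p :=
      continuousAt_pi.2 fun i => Fin.cases c1 (fun j => c2.clm_apply continuousAt_const) i
    have c4 := hg.continuousAt.comp (continuousAt_const.add (continuousAt_fst.smul c1) :
      ContinuousAt (fun p : ℝ × (Fin d → ℝ) => q + p.1 • (y p.2 - q)) p)
    simp only [hH, ContinuousAlternatingMap.smul_apply,
      ContinuousAlternatingMap.curryLeft_apply_apply]
    exact (continuousAt_fst.pow d).smul (c4.eval c3)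
  rw [setIntegral_congr_fun hm (g := H) fun p hp => by
    simp only [ee, Fin.cons_zero, Fin.tail_cons]
    exact c3_der (hy _ hp.2) q p.1 _]
  have hi : IntegrableOn H (Icc a b ×ˢ A) := ContinuousOn.integrableOn_compact
    (isCompact_Icc.prod hA) fun p hp => (hc p hp.2).continuousWithinAt
  rw [Measure.volume_eq_prod, ← Measure.prod_restrict] at *
  rw [IntegrableOn, ← Measure.prod_restrict] at hi
  rw [integral_prod_symm _ hi]
  refine setIntegral_congr_fun hA.measurableSet fun u _ => ?_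
  have c5 : Continuous fun t : ℝ => (t ^ d : ℝ) • (g (q + t • (y u - q))).curryLeft (y u - q) :=
    (continuous_pow d).smul (((ContinuousAlternatingMap.curryLeftLI (𝕜 := ℝ) (E := C2) (F := ℂ)
      (n := d)).continuous.comp (hg.comp (by fun_prop))).clm_apply continuous_const)
  have := (ContinuousAlternatingMap.apply ℝ C2 ℂ
    fun i => fderiv ℝ y u (Pi.single i 1)).intervalIntegral_comp_comm
      (c5.intervalIntegrable (μ := volume) a b)
  simp only [ContinuousAlternatingMap.apply_apply] at this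
  refine this.symm.trans ?_
  simp only [intervalIntegral.integral_of_le hab, integral_Icc_eq_integral_Ioc, hH]

end Vale.Agent.P267P
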