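import Vale.Agent.P267P.R1
import Vale.Agent.P267P.R2
import Vale.Agent.P267P.F3

/-! The inward operator. Replace loc b.p w by the global extension of exists_ext (rad_congr, convexity), sm_glob with C the closed box of radius 2 r, loc_glob, loc_dd, loc_inj; the cut-off is one near the points of b.O. -/

open scoped Manifold ContDiff Topology
open Filter MeasureTheory Set

noncomputable section

namespace Vale.Agent.P267P

open Vale.Agent.P267F Vale.Agent.P267I

set_option linter.unusedSectionVars false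

variable {X : Type} [TopologicalSpace X] [ChartedSpace C2 X] [IsManifold 𝓘(ℂ, C2) ω X] [T2Space X]
  [CompactSpace X] {k d : ℕ}

theorem hh_z (a : Al k) : (0 : ℝ) • a = 0 := by
  ext v
  simp

theorem hh_seg {c z : C2} {t : ℝ} (ht : t ∈ uIcc (0 : ℝ) 1) :
    nm (c + t • (z - c) - c) ≤ nm (z - c) := by
  rw [uIcc_of_le zero_le_one] at ht
  rw [add_sub_cancel_left, nm_smul, abs_of_nonneg ht.1]
  exact mul_le_of_le_one_left (nm_nonneg _) ht.2

theorem hh_ext (b : Box X) {w : Fm X k} (h : Sm w) : ∃ u : C2 → Al k, ContDiff ℝ ∞ u ∧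
    ∀ z, nm (z - b.c) ≤ 5 / 2 * b.r → u z = loc b.p w z :=
  exists_ext b.pos fun z hz => h.loc (b.sub z hz)

theorem hh_H (b : Box X) {w : Fm X (k + 1)} {u : C2 → Al (k + 1)}
    (hu : ∀ z, nm (z - b.c) ≤ 5 / 2 * b.r → u z = loc b.p w z) :
    b.H w = glob b.p fun z => cut b.r (z - b.c) • rad b.c 0 1 u z := by
  refine congrArg (glob b.p) (funext fun z => ?_)
  have := b.pos
  rcases le_total (nm (z - b.c)) (2 * b.r) with k1 | k1
  · rw [rad_congr fun t ht => (hu _ ((hh_seg ht).trans (by linarith))).symm]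
  · rw [(cut_spec b.pos).zero _ k1, hh_z, hh_z]

theorem hh_nb (b : Box X) {z : C2} (hz : nm (z - b.c) < b.r) : ∀ᶠ y in 𝓝 z, nm (y - b.c) < b.r :=
  (isOpen_lt (nm_cont.comp (continuous_id.sub continuous_const)) continuous_const).mem_nhds hz

theorem hh_loc (b : Box X) (w : Fm X (k + 1)) {z : C2} (hz : nm (z - b.c) < b.r) :
    loc b.p (b.H w) z = rad b.c 0 1 (loc b.p w) z := by
  have := b.pos
  rw [Box.H, loc_glob _ _ (b.sub z (by linarith)), (cut_spec b.pos).one _ hz.le, one_smul]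

theorem hh_dd (b : Box X) {w : Fm X k} (h : Sm w) {u : C2 → Al k}
    (hu : ∀ z, nm (z - b.c) ≤ 5 / 2 * b.r → u z = loc b.p w z) {z : C2}
    (hz : nm (z - b.c) < b.r) :
    loc b.p (b.H (dd w)) z = rad b.c 0 1 (extDeriv u) z := by
  have := b.pos
  rw [hh_loc b _ hz]
  refine rad_congr fun t ht => ?_
  have k1 := (hh_seg (c := b.c) (z := z) ht).trans_lt hz
  have k2 := b.sub _ (k1.le.trans (by linarith))
  have k3 := loc_dd ((chartAt C2 b.p).map_target k2) (h _)
  rw [(chartAt C2 b.p).right_inv k2] at k3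
  rw [k3]
  exact Filter.EventuallyEq.extDeriv_eq
    ((hh_nb b k1).mono fun y hy => (hu y (by linarith)).symm)

theorem hh_int {u : C2 → Al (k + 1)} (hu : Continuous u) (q z : C2) :
    IntervalIntegrable (fun t : ℝ => (t ^ k : ℝ) • (u (q + t • (z - q))).curryLeft (z - q))
      volume 0 1 := by
  have h1 : Continuous fun t : ℝ => (u (q + t • (z - q))).curryLeft :=
    (ContinuousAlternatingMap.curryLeftLI (𝕜 := ℝ) (E := C2) (F := ℂ) (n := k)).continuous.comp
      (hu.comp (by fun_prop))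
  exact ((continuous_pow k).smul (h1.clm_apply continuous_const)).intervalIntegrable _ _

theorem Box.H_sm (b : Box X) {w : Fm X (k + 1)} (h : Sm w) : Sm (b.H w) := by
  obtain ⟨u, hu, e⟩ := hh_ext b h
  have := b.pos
  rw [hh_H b e]
  refine sm_glob _ (nm_cpt b.c (2 * b.r)) (fun z hz => b.sub z (le_trans hz (by linarith)))
    (fun z _ => ?_) fun z hz => ?_
  · exact (((cut_spec b.pos).sm.comp (contDiff_id.sub contDiff_const)).smul
      (rad_sm hu _ _ _)).contDiffAt
  · rw [(cut_spec b.pos).zero _ (le_of_not_ge hz), hh_z]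

theorem Box.H_id (b : Box X) {w : Fm X (k + 1)} (h : Sm w) {x : X} (hx : x ∈ b.O) :
    dd (b.H w) x + b.H (dd w) x = w x := by
  obtain ⟨u, hu, e⟩ := hh_ext b h
  have := b.pos
  refine loc_inj (w := dd (b.H w) + b.H (dd w)) hx.1 ?_
  have k1 : loc b.p (dd (b.H w) + b.H (dd w)) (chartAt C2 b.p x) =
      loc b.p (dd (b.H w)) (chartAt C2 b.p x) + loc b.p (b.H (dd w)) (chartAt C2 b.p x) := by
    ext v
    simp [loc]
  have k2 : loc b.p (b.H w) =ᶠ[𝓝 (chartAt C2 b.p x)] rad b.c 0 1 u :=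
    (hh_nb b hx.2).mono fun y hy => (hh_loc b w hy).trans
      (rad_congr fun t ht => (e _ ((hh_seg ht).trans (by linarith))).symm)
  rw [k1, loc_dd hx.1 (b.H_sm h x), k2.extDeriv_eq, hh_dd b h e hx.2, rad_id hu,
    ← e _ (by linarith [hx.2])]
  simp [hh_z]

theorem Box.H_id0 (b : Box X) {w : Fm X 0} (h : Sm w) {x : X} (hx : x ∈ b.O) :
    ev (b.H (dd w)) x = ev w x - ev w b.x0 := by
  obtain ⟨u, hu, e⟩ := hh_ext b h
  have := b.pos
  have k0 : ∀ (w' : Fm X 0) (z : C2), loc b.p w' z ![] = ev w' ((chartAt C2 b.p).symm z) :=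
    fun w' z => congrArg (w' _) (Subsingleton.elim _ _)
  have k1 := k0 (b.H (dd w)) (chartAt C2 b.p x)
  have k2 := k0 w (chartAt C2 b.p x)
  rw [(chartAt C2 b.p).left_inv hx.1] at k1 k2
  rw [← k1, ← k2, Box.x0, ← k0, hh_dd b h e hx.2, rad_id0 hu, ← e _ (by linarith [hx.2]),
    ← e _ (by rw [sub_self, nm_zero]; linarith)]
  simp

theorem Box.H_congr (b : Box X) {w w' : Fm X (k + 1)} (h : ∀ y ∈ b.O, w y = w' y) {x : X}
    (hx : x ∈ b.O) : b.H w x = b.H w' x := by
  have := b.pos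
  have k1 : rad b.c 0 1 (loc b.p w) (chartAt C2 b.p x) =
      rad b.c 0 1 (loc b.p w') (chartAt C2 b.p x) := rad_congr fun t ht => by
    have k1 := (hh_seg (c := b.c) (z := chartAt C2 b.p x) ht).trans_lt hx.2
    have k2 := b.sub _ (k1.le.trans (by linarith))
    rw [loc, loc, h _ ⟨(chartAt C2 b.p).map_target k2, by rwa [(chartAt C2 b.p).right_inv k2]⟩]
  simp only [Box.H, glob, k1]

theorem Box.H_zero (b : Box X) : b.H (0 : Fm X (k + 1)) = 0 := by
  have k1 : loc b.p (0 : Fm X (k + 1)) = 0 := by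
    ext z v
    simp [loc]
  funext x
  ext v
  simp only [Box.H, glob, k1, rad]
  split_ifs <;> simp

theorem Box.H_sub (b : Box X) {w w' : Fm X (k + 1)} (h : Sm w) (h' : Sm w') :
    b.H (w - w') = b.H w - b.H w' := by
  obtain ⟨u, hu, e⟩ := hh_ext b h
  obtain ⟨u', hu', e'⟩ := hh_ext b h'
  have k1 : ∀ z, rad b.c 0 1 (u - u') z = rad b.c 0 1 u z - rad b.c 0 1 u' z := fun z => by
    rw [rad, rad, rad, ← intervalIntegral.integral_sub (hh_int hu.continuous _ _)
      (hh_int hu'.continuous _ _)]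
    refine intervalIntegral.integral_congr fun t _ => ?_
    ext v
    simp only [ContinuousAlternatingMap.smul_apply, ContinuousAlternatingMap.sub_apply,
      ContinuousAlternatingMap.curryLeft_apply_apply, Pi.sub_apply, smul_sub]
  rw [hh_H b e, hh_H b e', hh_H b (u := u - u') fun z hz => by
    rw [Pi.sub_apply, e z hz, e' z hz]
    ext v
    simp [loc]]
  funext x
  ext v
  simp only [glob, k1, Pi.sub_apply]
  split_ifs <;> simp [mul_sub]

end Vale.Agent.P267P
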