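import Vale.Agent.P267P.C3
import Vale.Agent.P267P.HH

/-! Inward cone over a chain. New cells: A' = cone set for [0, 1], F' v = chart.symm (c + v 0 • (chart (F (tail v)) - c)). pull_eq with p = b.p, loc_glob, cut = 1 on the box, exists_ext and rad_congr to get a globally continuous g, cone_int, c1At_of. -/

open scoped Manifold ContDiff Topology
open Filter MeasureTheory Set

noncomputable section

namespace Vale.Agent.P267P

open Vale.Agent.P267F Vale.Agent.P267I

set_option linter.unusedSectionVars false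

variable {X : Type} [TopologicalSpace X] [ChartedSpace C2 X] [IsManifold 𝓘(ℂ, C2) ω X] [T2Space X]
  [CompactSpace X] {k d : ℕ}

theorem chh_cell (b : Box X) {A : Set (Fin d → ℝ)} (hA : IsCompact A) {F : (Fin d → ℝ) → X}
    (hF : ∀ u ∈ A, C1At F u) (hO : ∀ u ∈ A, F u ∈ b.O) :
    ∃ (A' : Set (Fin (d + 1) → ℝ)) (F' : (Fin (d + 1) → ℝ) → X), IsCompact A' ∧
      (∀ v ∈ A', C1At F' v) ∧ (∀ v ∈ A', F' v ∈ b.O) ∧ ∀ w : Fm X (d + 1), Sm w →
        ∫ u in A, pull F (b.H w) u = ∫ v in A', pull F' w v := by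
  have hr := b.pos
  have hy : ∀ u ∈ A, ContDiffAt ℝ 1 (chartAt C2 b.p ∘ F) u := fun u hu =>
    (hF u hu).chart (hO u hu).1
  have hseg : ∀ u ∈ A, ∀ t ∈ Icc (0 : ℝ) 1,
      nm (b.c + t • ((chartAt C2 b.p ∘ F) u - b.c) - b.c) < b.r := fun u hu t ht => by
    rw [add_sub_cancel_left, nm_smul, abs_of_nonneg ht.1]
    exact lt_of_le_of_lt (mul_le_of_le_one_left (nm_nonneg _) ht.2) (hO u hu).2
  have hA2 := cone_cpt hA 0 1
  set A2 := {v : Fin (d + 1) → ℝ | v 0 ∈ Icc (0 : ℝ) 1 ∧ Fin.tail v ∈ A} with hA2d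
  set G := fun v : Fin (d + 1) → ℝ => b.c + v 0 • ((chartAt C2 b.p ∘ F) (Fin.tail v) - b.c) with hG
  have hG1 : ∀ v ∈ A2, ContDiffAt ℝ 1 G v := fun v hv => cone_c1 (hy _ hv.2) b.c
  have hGb : ∀ v ∈ A2, nm (G v - b.c) < b.r := fun v hv => hseg _ hv.2 _ hv.1
  have ht : ∀ v ∈ A2, G v ∈ (chartAt C2 b.p).target :=
    fun v hv => b.sub _ (le_trans (hGb v hv).le (by linarith))
  have hev : ∀ v ∈ A2, chartAt C2 b.p ∘ ((chartAt C2 b.p).symm ∘ G) =ᶠ[𝓝 v] G := fun v hv => by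
    filter_upwards [(hG1 v hv).continuousAt.preimage_mem_nhds
      ((chartAt C2 b.p).open_target.mem_nhds (ht v hv))] with v' hv'
    exact (chartAt C2 b.p).right_inv hv'
  have hc1 : ∀ v ∈ A2, C1At ((chartAt C2 b.p).symm ∘ G) v :=
    fun v hv => c1At_of (((chartAt C2 b.p).continuousAt_symm (ht v hv)).comp
      (hG1 v hv).continuousAt) ((chartAt C2 b.p).map_target (ht v hv))
      ((hG1 v hv).congr_of_eventuallyEq (hev v hv))
  have e4 : ∀ v ∈ A2, chartAt C2 b.p (((chartAt C2 b.p).symm ∘ G) v) = G v := fun v hv =>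
    (chartAt C2 b.p).right_inv (ht v hv)
  refine ⟨_, _, hA2, hc1, fun v hv => ⟨(chartAt C2 b.p).map_target (ht v hv), by
    rw [e4 v hv]; exact hGb v hv⟩, fun w hw => ?_⟩
  obtain ⟨g, hg, hge⟩ := exists_ext (u := loc b.p w) hr fun z hz => hw.loc (b.sub z hz)
  have e2 : ∫ u in A, pull F (b.H w) u = ∫ u in A, rad b.c 0 1 g ((chartAt C2 b.p ∘ F) u)
      (fun i => fderiv ℝ (chartAt C2 b.p ∘ F) u (Pi.single i 1)) := by
    refine setIntegral_congr_fun hA.measurableSet fun u hu => ?_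
    have hz : cut b.r (chartAt C2 b.p (F u) - b.c) = 1 := (cut_spec hr).one _ (hO u hu).2.le
    have hg' : rad b.c 0 1 (loc b.p w) ((chartAt C2 b.p ∘ F) u) =
        rad b.c 0 1 g ((chartAt C2 b.p ∘ F) u) := rad_congr fun t ht' =>
      (hge _ (le_trans (hseg u hu t (by rwa [uIcc_of_le zero_le_one] at ht')).le
        (by linarith))).symm
    rw [pull_eq (hF u hu) (hO u hu).1, Box.H, loc_glob _ _ ((chartAt C2 b.p).map_source (hO u hu).1),
      hz, one_smul]
    exact congrArg (fun a : Al d => a _) hg'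
  rw [e2, cone_int hA hy hg.continuous b.c zero_le_one]
  refine setIntegral_congr_fun hA2.measurableSet fun v hv => ?_
  rw [pull_eq (hc1 v hv) ((chartAt C2 b.p).map_target (ht v hv)), (hev v hv).fderiv_eq, e4 v hv,
    ← hge _ (le_trans (hGb v hv).le (by linarith))]

theorem IsCh.H {L : Fm X d → ℂ} {S : Set X} (h : IsCh L univ S) (b : Box X) (hS : S ⊆ b.O) :
    IsCh (fun w : Fm X (d + 1) => L (b.H w)) univ b.O := by
  obtain ⟨n, m, A, F, h1, h2, h3, h4⟩ := h
  choose A' F' k1 k2 k3 k4 using fun c => chh_cell b (h1 c) (h2 c) fun u hu => hS (h3 c u hu)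
  refine ⟨n, m, A', F', k1, k2, k3, fun w hw _ => ?_⟩
  show L (b.H w) = _
  rw [h4 _ (b.H_sm hw) fun x hx => absurd trivial hx]
  exact Finset.sum_congr rfl fun c _ => by rw [k4 c w hw]

end Vale.Agent.P267P
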