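import Vale.Agent.P267I.Forms

/-! Forms of any degree, boxes, radial operators, integral chains. FROZEN. -/

open scoped Manifold ContDiff Topology
open Filter MeasureTheory Set

noncomputable section

namespace Vale.Agent.P267P

open Vale.Agent.P267F Vale.Agent.P267I

/-- Alternating maps. -/
abbrev Al (k : ℕ) := C2 [⋀^Fin k]→L[ℝ] ℂ

/-- Forms, given at each `x` in the chart at `x`. -/
abbrev Fm (X : Type) (k : ℕ) := X → Al k

/-- Real coordinates. -/
def co (z : C2) : Fin 4 → ℝ := ![(z 0).re, (z 0).im, (z 1).re, (z 1).im]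

/-- The norm whose balls are boxes. -/
def nm (z : C2) : ℝ := ‖co z‖

/-- The radial operator with centre `q`. -/
def rad {k : ℕ} (q : C2) (a b : ℝ) (u : C2 → Al (k + 1)) (z : C2) : Al k :=
  ∫ t in a..b, (t ^ k : ℝ) • (u (q + t • (z - q))).curryLeft (z - q)

/-- A smooth cut-off: one for `nm z ≤ s`, zero for `2 * s ≤ nm z`. -/
structure IsCut (χ : C2 → ℝ) (s : ℝ) : Prop where
  sm : ContDiff ℝ ∞ χ
  one : ∀ z, nm z ≤ s → χ z = 1
  zero : ∀ z, 2 * s ≤ nm z → χ z = 0

/-- The chosen cut-off. -/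
def cut (s : ℝ) : C2 → ℝ := Classical.epsilon fun χ => IsCut χ s

variable {X : Type} [TopologicalSpace X] [ChartedSpace C2 X] {k : ℕ}

/-- The expression of a form in the chart at `p`. -/
def loc (p : X) (w : Fm X k) (z : C2) : Al k :=
  (w ((chartAt C2 p).symm z)).compContinuousLinearMap
    (fderiv ℝ (chartAt C2 ((chartAt C2 p).symm z) ∘ (chartAt C2 p).symm) z)

open Classical in
/-- The form given by `u` in the chart at `p`, zero outside. -/
def glob (p : X) (u : C2 → Al k) (x : X) : Al k :=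
  if x ∈ (chartAt C2 p).source then (u (chartAt C2 p x)).compContinuousLinearMap
    (fderiv ℝ (chartAt C2 p ∘ (chartAt C2 x).symm) (chartAt C2 x x)) else 0

/-- Smooth near `x`. -/
def SmA (w : Fm X k) (x : X) : Prop := ∀ᶠ z in 𝓝 (chartAt C2 x x), ContDiffAt ℝ ∞ (loc x w) z

/-- Smooth forms. -/
def Sm (w : Fm X k) : Prop := ∀ x, SmA w x

/-- The exterior derivative. -/
def dd (w : Fm X k) : Fm X (k + 1) := fun x => extDeriv (loc x w) (chartAt C2 x x)

/-- Function times form. -/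
def fs (f : X → ℂ) (w : Fm X k) : Fm X k := fun x => f x • w x

/-- A function as a form. -/
def f0 (f : X → ℂ) : Fm X 0 := fun x => ContinuousAlternatingMap.constOfIsEmpty ℝ C2 (Fin 0) (f x)

/-- A form of degree zero as a function. -/
def ev (w : Fm X 0) (x : X) : ℂ := w x ![]

/-- The product of `df` and `w`. -/
def wd (f : X → ℂ) (w : Fm X k) : Fm X (k + 1) := fun x =>
  ContinuousAlternatingMap.alternatizeUncurryFin
    ((ContinuousLinearMap.toSpanSingleton ℂ (w x)).restrictScalars ℝ ∘L dAt f x)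

/-- The form vanishes outside `U`. -/
def Van (w : Fm X k) (U : Set X) : Prop := ∀ x ∉ U, w x = 0

variable (X) in
/-- A box in the chart at `p`. -/
structure Box where
  p : X
  c : C2
  r : ℝ
  pos : 0 < r
  sub : ∀ z, nm (z - c) ≤ 3 * r → z ∈ (chartAt C2 p).target

namespace Box

variable (b : Box X)

/-- The open box. -/
def O : Set X := {x | x ∈ (chartAt C2 b.p).source ∧ nm (chartAt C2 b.p x - b.c) < b.r}

/-- The centre. -/
def x0 : X := (chartAt C2 b.p).symm b.c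

/-- The inward cone operator. -/
def H (w : Fm X (k + 1)) : Fm X k :=
  glob b.p fun z => cut b.r (z - b.c) • rad b.c 0 1 (loc b.p w) z

/-- Extension by zero. -/
def ext (w : Fm X k) (z : C2) : Al k := if nm (z - b.c) < 2 * b.r then loc b.p w z else 0

/-- The outward cone operator from `q`, cut off near `q`. -/
def K (q : C2) (ε : ℝ) (w : Fm X (k + 1)) : Fm X k :=
  glob b.p fun z => (1 - cut ε (z - q)) • rad q 1 (2 * b.r / ε + 1) (b.ext w) z

/-- The small closed box around `q`. -/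
def N (q : C2) (ε : ℝ) : Set X :=
  {x | x ∈ (chartAt C2 b.p).source ∧ nm (chartAt C2 b.p x - q) ≤ 2 * ε}

/-- Admissible data. -/
def Adm (q : C2) (ε : ℝ) : Prop := 0 < ε ∧ nm (q - b.c) + 2 * ε < b.r

/-- The integral in the chart of the box. -/
def I (w : Fm X 4) : ℂ := ∫ z, b.ext w z bs

end Box

/-- The integral of `w` is `d`. -/
def Int4 (w : Fm X 4) (d : ℂ) : Prop :=
  ∀ (l : ℕ) (P : Fin l → OpenPartialHomeomorph X C2) (ψ : Fin l → X → ℝ),
    (∀ a, HolChart (P a)) → (∀ a, Continuous (ψ a)) → (∀ a, tsupport (ψ a) ⊆ (P a).source) →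
    (∀ x, ∑ a, ψ a x = 1) →
    ∑ a, ∫ z in (P a).target, (ψ a ((P a).symm z) : ℂ) * w ((P a).symm z) (fun i =>
      fderiv ℝ (chartAt C2 ((P a).symm z) ∘ (P a).symm) z (bs i)) = d

/-- The integral. -/
def IX (w : Fm X 4) : ℂ := Classical.epsilon (Int4 w)

/-- `F` is continuously differentiable near `u`. -/
def C1At {d : ℕ} (F : (Fin d → ℝ) → X) (u : Fin d → ℝ) : Prop :=
  ContinuousAt F u ∧ ContDiffAt ℝ 1 (chartAt C2 (F u) ∘ F) u

/-- The pull-back of a form of top degree. -/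
def pull {d : ℕ} (F : (Fin d → ℝ) → X) (w : Fm X d) (u : Fin d → ℝ) : ℂ :=
  w (F u) fun i => fderiv ℝ (chartAt C2 (F u) ∘ F) u (Pi.single i 1)

/-- On smooth forms that vanish outside `D`, `L` is the integral over an integral chain in `S`. -/
def IsCh {d : ℕ} (L : Fm X d → ℂ) (D S : Set X) : Prop :=
  ∃ (n : ℕ) (m : Fin n → ℤ) (A : Fin n → Set (Fin d → ℝ)) (F : Fin n → (Fin d → ℝ) → X),
    (∀ c, IsCompact (A c)) ∧ (∀ c, ∀ u ∈ A c, C1At (F c) u) ∧ (∀ c, ∀ u ∈ A c, F c u ∈ S) ∧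
    ∀ w, Sm w → Van w D → L w = ∑ c, (m c : ℂ) * ∫ u in A c, pull (F c) w u

variable (X) in
/-- A partition of unity with nested boxes. -/
structure Sys where
  n : ℕ
  ρ : Fin n → X → ℂ
  T : Fin n → Set X
  B : Fin n → Box X
  V : Fin n → Fin n → Box X
  W : Fin n → Fin n → Fin n → Box X
  sm : ∀ i x, SmAt (ρ i) x
  re : ∀ i x, (ρ i x).im = 0
  sum : ∀ x, ∑ i, ρ i x = 1
  cpt : ∀ i, IsCompact (T i)
  van : ∀ i, ∀ x ∉ T i, ρ i x = 0
  TB : ∀ i, T i ⊆ (B i).O
  TV : ∀ i j, T i ∩ T j ⊆ (V i j).O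
  VB : ∀ i j, (T i ∩ T j).Nonempty → (V i j).O ⊆ (B i).O ∩ (B j).O
  TW : ∀ i j l, T i ∩ T j ∩ T l ⊆ (W i j l).O
  WV : ∀ i j l, (T i ∩ T j ∩ T l).Nonempty →
    (W i j l).O ⊆ (V i j).O ∩ (V j l).O ∩ (V i l).O

namespace Sys

variable (S : Sys X)

/-- Triangles of the nerve. -/
def Tri (i j l : Fin S.n) : Prop := (S.T i ∩ S.T j ∩ S.T l).Nonempty

/-- Cocycles. -/
def Coc {R : Type} [AddCommGroup R] (a : Fin S.n → Fin S.n → Fin S.n → R) : Prop :=
  ∀ h i j l, (S.T h ∩ S.T i ∩ S.T j ∩ S.T l).Nonempty → a i j l - a h j l + a h i l - a h i j = 0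

/-- The two-form of a cochain. -/
def al (a : Fin S.n → Fin S.n → Fin S.n → ℂ) : Fm X 2 :=
  ∑ i, ∑ j, ∑ l, a i j l • fs (S.ρ l) (dd (fs (S.ρ j) (dd (f0 (S.ρ i)))))

/-- The second step of the zigzag. -/
def ff (w : Fm X 2) (i j : Fin S.n) : X → ℂ := ev ((S.V i j).H ((S.B j).H w - (S.B i).H w))

/-- The cochain of a two-form. -/
def aa (w : Fm X 2) (i j l : Fin S.n) : ℂ :=
  S.ff w j l (S.W i j l).x0 - S.ff w i l (S.W i j l).x0 + S.ff w i j (S.W i j l).x0

end Sys

/-- Back to the two-forms of the statement. -/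
def toF2 (w : Fm X 2) : Form2 X := fun x u v => w x ![u, v]

/-- The first Chern form of a connection. -/
def c1 (θ : X → X → C2 →L[ℝ] ℂ) : Form2 X := fun p v w =>
  (-(2 * Real.pi * Complex.I))⁻¹ * extD (inChart (chartAt C2 p) (θ p)) (chartAt C2 p p) v w

end Vale.Agent.P267P
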