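import Mathlib

/-! P267, duality: integer valued degrees. -/

open MeasureTheory Set Filter Topology
open scoped ContDiff

namespace Vale.Agent.P267P

variable {E : Type} [NormedAddCommGroup E] [NormedSpace ℝ E] [FiniteDimensional ℝ E]
  [MeasurableSpace E] [BorelSpace E] {μ : Measure E} [μ.IsAddHaarMeasure]
  {L L' : (E → ℝ) → ℝ} {s : Set E} {F : E → E}

/-- Functionals given by an integer valued density. -/
def IsDeg {E : Type} [TopologicalSpace E] [MeasurableSpace E] (μ : Measure E)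
    (L : (E → ℝ) → ℝ) : Prop :=
  ∃ n : E → ℝ, Integrable n μ ∧ (∀ᵐ y ∂μ, ∃ m : ℤ, n y = m) ∧
    ∀ φ : E → ℝ, Continuous φ → HasCompactSupport φ → L φ = ∫ y, φ y * n y ∂μ

section
omit [NormedSpace ℝ E] [FiniteDimensional ℝ E] [μ.IsAddHaarMeasure]

theorem deg_int {φ n : E → ℝ} (hφ : Continuous φ) (hc : HasCompactSupport φ)
    (hn : Integrable n μ) : Integrable (fun y => φ y * n y) μ := by
  obtain ⟨C, hC⟩ := hφ.bounded_above_of_compact_support hc
  exact hn.bdd_mul hφ.aestronglyMeasurable (Eventually.of_forall hC)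

omit [BorelSpace E] in
theorem IsDeg.zero : IsDeg μ fun _ : E → ℝ => 0 :=
  ⟨fun _ => 0, integrable_zero _ _ _, Eventually.of_forall fun _ => ⟨0, Int.cast_zero.symm⟩,
    fun _ _ _ => by simp⟩

omit [BorelSpace E] in
theorem IsDeg.congr (h : IsDeg μ L)
    (e : ∀ φ : E → ℝ, Continuous φ → HasCompactSupport φ → L' φ = L φ) : IsDeg μ L' := by
  obtain ⟨n, a, b, c⟩ := h
  exact ⟨n, a, b, fun φ h1 h2 => (e φ h1 h2).trans (c φ h1 h2)⟩

theorem IsDeg.add (h : IsDeg μ L) (h' : IsDeg μ L') : IsDeg μ fun φ => L φ + L' φ := by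
  obtain ⟨n, a, b, c⟩ := h
  obtain ⟨n', a', b', c'⟩ := h'
  refine ⟨fun y => n y + n' y, a.add a', ?_, fun φ h1 h2 => ?_⟩
  · filter_upwards [b, b'] with y ⟨m, hm⟩ ⟨m', hm'⟩
    exact ⟨m + m', by rw [hm, hm', Int.cast_add]⟩
  · simp only [mul_add]
    rw [integral_add (deg_int h1 h2 a) (deg_int h1 h2 a'), c φ h1 h2, c' φ h1 h2]

omit [BorelSpace E] in
theorem IsDeg.zsmul (h : IsDeg μ L) (k : ℤ) : IsDeg μ fun φ => k * L φ := by
  obtain ⟨n, a, b, c⟩ := h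
  refine ⟨fun y => k * n y, a.const_mul _, ?_, fun φ h1 h2 => ?_⟩
  · filter_upwards [b] with y ⟨m, hm⟩
    exact ⟨k * m, by rw [hm, Int.cast_mul]⟩
  · simp only [mul_left_comm (φ _)]
    rw [integral_const_mul, c φ h1 h2]

omit [BorelSpace E] in
theorem IsDeg.neg (h : IsDeg μ L) : IsDeg μ fun φ => -L φ :=
  (h.zsmul (-1)).congr fun _ _ _ => by simp

theorem IsDeg.sub (h : IsDeg μ L) (h' : IsDeg μ L') : IsDeg μ fun φ => L φ - L' φ :=
  (h.add h'.neg).congr fun _ _ _ => sub_eq_add_neg _ _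

theorem IsDeg.sum {ι : Type} (t : Finset ι) {L : ι → (E → ℝ) → ℝ} (h : ∀ i ∈ t, IsDeg μ (L i)) :
    IsDeg μ fun φ => ∑ i ∈ t, L i φ := by
  classical
  induction t using Finset.induction_on with
  | empty => exact IsDeg.zero.congr fun _ _ _ => Finset.sum_empty
  | insert i t hi ih =>
    exact ((h i (Finset.mem_insert_self _ _)).add
      (ih fun j hj => h j (Finset.mem_insert_of_mem hj))).congr fun _ _ _ => Finset.sum_insert hi

end

theorem IsDeg.int (h : IsDeg μ L) {U : Set E} (hU : IsOpen U)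
    (h0 : ∀ ψ : E → ℝ, ContDiff ℝ ∞ ψ → HasCompactSupport ψ → tsupport ψ ⊆ U →
      ∫ y, ψ y ∂μ = 0 → L ψ = 0) :
    ∃ m : ℤ, ∀ ψ : E → ℝ, ContDiff ℝ ∞ ψ → HasCompactSupport ψ → tsupport ψ ⊆ U →
      L ψ = m * ∫ y, ψ y ∂μ := by
  obtain ⟨n, a, b, c⟩ := h
  by_cases hex : ∃ χ : E → ℝ, ContDiff ℝ ∞ χ ∧ HasCompactSupport χ ∧ tsupport χ ⊆ U ∧
      ∫ y, χ y ∂μ ≠ 0
  swap
  · refine ⟨0, fun ψ h1 h2 h3 => ?_⟩
    rw [h0 ψ h1 h2 h3 (by_contra fun hne => hex ⟨ψ, h1, h2, h3, hne⟩), Int.cast_zero, zero_mul]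
  obtain ⟨χ, g1, g2, g3, g4⟩ := hex
  obtain ⟨r, hr⟩ : ∃ r, r = L χ / ∫ y, χ y ∂μ := ⟨_, rfl⟩
  have key : ∀ ψ : E → ℝ, ContDiff ℝ ∞ ψ → HasCompactSupport ψ → tsupport ψ ⊆ U →
      L ψ = r * ∫ y, ψ y ∂μ := fun ψ h1 h2 h3 => by
    obtain ⟨t, ht⟩ : ∃ t, t = -((∫ y, ψ y ∂μ) / ∫ y, χ y ∂μ) := ⟨_, rfl⟩
    have s1 : ContDiff ℝ ∞ fun y => ψ y + t * χ y := h1.add (contDiff_const.mul g1)
    have s2 : HasCompactSupport fun y => ψ y + t * χ y := h2.add g2.mul_left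
    have s3 : tsupport (fun y => ψ y + t * χ y) ⊆ U :=
      (tsupport_add ψ _).trans (union_subset h3 (tsupport_mul_subset_right.trans g3))
    have s4 := h0 _ s1 s2 s3 (by
      rw [integral_add (h1.continuous.integrable_of_hasCompactSupport h2)
        ((g1.continuous.integrable_of_hasCompactSupport g2).const_mul t), integral_const_mul, ht]
      field_simp
      ring)
    rw [c _ s1.continuous s2] at s4
    simp only [add_mul, mul_assoc] at s4
    rw [integral_add (deg_int h1.continuous h2 a) ((deg_int g1.continuous g2 a).const_mul t),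
      integral_const_mul, ← c _ h1.continuous h2, ← c _ g1.continuous g2, ht] at s4
    rw [hr, eq_neg_of_add_eq_zero_left s4]
    ring
  have h5 := hU.ae_eq_zero_of_integral_contDiff_smul_eq_zero (f := fun y => n y - r) (μ := μ)
    ((a.locallyIntegrable.sub (locallyIntegrable_const r)).locallyIntegrableOn U)
    fun ψ h1 h2 h3 => by
      simp only [smul_eq_mul, mul_sub]
      rw [integral_sub (deg_int h1.continuous h2 a)
        ((h1.continuous.integrable_of_hasCompactSupport h2).mul_const r), integral_mul_const,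
        ← c _ h1.continuous h2, key ψ h1 h2 h3, mul_comm, sub_self]
  have hne : U.Nonempty := by
    by_contra hc
    rw [not_nonempty_iff_eq_empty.1 hc, subset_empty_iff, tsupport_eq_empty_iff] at g3
    exact g4 (by simp [g3])
  obtain ⟨y, hy, hy', m, hm⟩ := Measure.exists_mem_of_measure_ne_zero_of_ae
    (hU.measure_ne_zero μ hne)
    (((ae_restrict_iff' hU.measurableSet).2 h5).and (ae_restrict_of_ae b))
  exact ⟨m, fun ψ h1 h2 h3 => by rw [key ψ h1 h2 h3, ← hm, sub_eq_zero.1 hy']⟩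

theorem int_const {U : Set E} (hU : IsOpen U) {n : E → ℝ} (a : Integrable n μ)
    (b : ∀ᵐ y ∂μ, ∃ m : ℤ, n y = m)
    (h0 : ∀ ψ : E → ℝ, ContDiff ℝ ∞ ψ → HasCompactSupport ψ → tsupport ψ ⊆ U →
      ∫ y, ψ y ∂μ = 0 → ∫ y, n y * ψ y ∂μ = 0) :
    ∃ m : ℤ, ∀ ψ : E → ℝ, ContDiff ℝ ∞ ψ → HasCompactSupport ψ → tsupport ψ ⊆ U →
      ∫ y, n y * ψ y ∂μ = m * ∫ y, ψ y ∂μ :=
  IsDeg.int (L := fun ψ => ∫ y, n y * ψ y ∂μ)
    ⟨n, a, b, fun _ _ _ => by simp only [mul_comm]⟩ hU h0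

end Vale.Agent.P267P
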