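import Vale.Agent.P267P.DegA
import Vale.Agent.P267P.DegC

/-! P267, duality: the area formula gives an integer valued degree. -/

open MeasureTheory Set Filter Topology

namespace Vale.Agent.P267P

variable {E : Type} [NormedAddCommGroup E] [NormedSpace ℝ E] [FiniteDimensional ℝ E]
  [MeasurableSpace E] [BorelSpace E] {μ : Measure E} [μ.IsAddHaarMeasure] {s : Set E} {F : E → E}

theorem isDeg_area (hs : MeasurableSet s) (hF : ∀ x ∈ s, ContDiffAt ℝ 1 F x)
    (hi : IntegrableOn (fun x => (fderiv ℝ F x).det) s μ) :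
    IsDeg μ fun φ => ∫ x in s, φ (F x) * (fderiv ℝ F x).det ∂μ := by
  obtain ⟨n, a, b, -, c⟩ := deg_exists μ hs hF hi
  refine ⟨n, a, b, fun φ h1 h2 => ?_⟩
  simp only [mul_comm (φ _)]
  exact c φ h1.measurable (h1.bounded_above_of_compact_support h2)

theorem isDeg_compact (hs : IsCompact s) (hF : ∀ x ∈ s, ContDiffAt ℝ 1 F x) :
    IsDeg μ fun φ => ∫ x in s, φ (F x) * (fderiv ℝ F x).det ∂μ :=
  isDeg_area hs.measurableSet hF (ContinuousOn.integrableOn_compact hs fun x hx =>
    (ContinuousLinearMap.continuous_det.continuousAt.comp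
      ((hF x hx).fderiv_right (m := 0) le_rfl).continuousAt).continuousWithinAt)

end Vale.Agent.P267P
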