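import Mathlib

/-! The signed area formula with an integer valued multiplicity. -/

open MeasureTheory Set Filter Topology Function

noncomputable section

namespace Vale.Agent.P267P

variable {E : Type*} [NormedAddCommGroup E] [NormedSpace ℝ E] [FiniteDimensional ℝ E]
  [MeasurableSpace E] [BorelSpace E] (μ : Measure E) [μ.IsAddHaarMeasure] {F : E → E} {s : Set E}

omit [MeasurableSpace E] [BorelSpace E] in
theorem deg_loc {x : E} (h : ContDiffAt ℝ 1 F x) (hd : (fderiv ℝ F x).det ≠ 0) :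
    ∃ U, IsOpen U ∧ x ∈ U ∧ InjOn F U := by
  have : CompleteSpace E := FiniteDimensional.complete ℝ E
  have h1 : HasStrictFDerivAt F
      ((fderiv ℝ F x).toContinuousLinearEquivOfDetNeZero hd : E →L[ℝ] E) x := by
    rw [ContinuousLinearMap.coe_toContinuousLinearEquivOfDetNeZero]
    exact h.hasStrictFDerivAt one_ne_zero
  exact ⟨_, (h1.toOpenPartialHomeomorph F).open_source, h1.mem_toOpenPartialHomeomorph_source,
    (h1.toOpenPartialHomeomorph F).injOn⟩

theorem deg_pieces (hs : MeasurableSet s) (hF : ∀ x ∈ s, ContDiffAt ℝ 1 F x)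
    (hd : ∀ x ∈ s, (fderiv ℝ F x).det ≠ 0) : ∃ A : ℕ → Set E, (∀ k, MeasurableSet (A k)) ∧
      Pairwise (Disjoint on A) ∧ ⋃ k, A k = s ∧ ∀ k, InjOn F (A k) := by
  choose! U hU using fun x hx => deg_loc (hF x hx) (hd x hx)
  rcases s.eq_empty_or_nonempty with rfl | hne
  · exact ⟨fun _ => ∅, fun _ => MeasurableSet.empty, fun _ _ _ => disjoint_bot_left, by simp,
      fun _ => injOn_empty _⟩
  obtain ⟨T, hT, hc, hcov⟩ := TopologicalSpace.countable_cover_nhdsWithin (f := U) (s := s)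
    fun x hx => mem_nhdsWithin_of_mem_nhds ((hU x hx).1.mem_nhds (hU x hx).2.1)
  have hT0 : T.Nonempty := by
    obtain ⟨x, hx⟩ := hne
    obtain ⟨y, hy, -⟩ := mem_iUnion₂.1 (hcov hx)
    exact ⟨y, hy⟩
  obtain ⟨e, rfl⟩ := hc.exists_eq_range hT0
  have he : ∀ k, e k ∈ s := fun k => hT ⟨k, rfl⟩
  refine ⟨disjointed fun k => s ∩ U (e k), MeasurableSet.disjointed fun k =>
    hs.inter (hU _ (he k)).1.measurableSet, disjoint_disjointed _, ?_, fun k =>
      (hU _ (he k)).2.2.mono ((disjointed_subset _ k).trans inter_subset_right)⟩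
  rw [iUnion_disjointed, ← inter_iUnion, inter_eq_left]
  simpa using hcov

theorem deg_abs (hs : MeasurableSet s) (hF : ∀ x ∈ s, ContDiffAt ℝ 1 F x)
    (hd : ∀ x ∈ s, (fderiv ℝ F x).det ≠ 0) (hi : IntegrableOn (fun x => (fderiv ℝ F x).det) s μ) :
    ∃ n : E → ℝ, Integrable n μ ∧ (∀ᵐ y ∂μ, ∃ z : ℤ, n y = z) ∧ (∀ y ∉ F '' s, n y = 0) ∧
      ∀ φ : E → ℝ, Measurable φ → (∃ C, ∀ y, |φ y| ≤ C) →
        ∫ x in s, |(fderiv ℝ F x).det| * φ (F x) ∂μ = ∫ y, n y * φ y ∂μ := by
  obtain ⟨A, hA, hdis, rfl, hinj⟩ := deg_pieces hs hF hd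
  have hD : ∀ k, ∀ x ∈ A k, HasFDerivWithinAt F (fderiv ℝ F x) (A k) x := fun k x hx =>
    ((hF x (mem_iUnion.2 ⟨k, hx⟩)).differentiableAt one_ne_zero).hasFDerivAt.hasFDerivWithinAt
  have hB : ∀ k, MeasurableSet (F '' A k) := fun k =>
    measurable_image_of_fderivWithin (hA k) (hD k) (hinj k)
  have hfin : ∑' k, μ (F '' A k) ≠ ⊤ := by
    simp only [← lintegral_abs_det_fderiv_eq_addHaar_image μ (hA _) (hD _) (hinj _)]
    rw [← lintegral_iUnion hA hdis]
    refine ne_of_lt (lt_of_eq_of_lt (lintegral_congr fun x => ?_) hi.2)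
    exact (Real.enorm_eq_ofReal_abs _).symm
  have hle : ∀ (φ : E → ℝ) (C : ℝ), (∀ y, |φ y| ≤ C) →
      ∑' k, ∫⁻ y, ‖(F '' A k).indicator φ y‖ₑ ∂μ ≠ ⊤ := fun φ C hC => by
    refine ne_top_of_le_ne_top (ENNReal.mul_ne_top (ENNReal.ofReal_ne_top (r := C)) hfin) ?_
    rw [← ENNReal.tsum_mul_left]
    refine ENNReal.tsum_le_tsum fun k => ?_
    rw [← setLIntegral_const, ← lintegral_indicator (hB k)]
    refine lintegral_mono fun y => ?_
    by_cases hy : y ∈ F '' A k
    · simp only [indicator_of_mem hy, Real.enorm_eq_ofReal_abs]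
      exact ENNReal.ofReal_le_ofReal (hC y)
    · simp [indicator_of_notMem hy]
  have hm : ∀ k, Measurable ((F '' A k).indicator fun _ => (1 : ℝ)) := fun k =>
    measurable_const.indicator (hB k)
  refine ⟨fun y => ∑' k, (F '' A k).indicator (fun _ => (1 : ℝ)) y, ⟨?_, ?_⟩, ?_, fun y hy => ?_,
    fun φ hφ ⟨C, hC⟩ => ?_⟩
  · exact (Measurable.tsum hm).aestronglyMeasurable
  · refine lt_of_le_of_lt (lintegral_mono fun y => enorm_tsum_le_tsum_enorm) ?_
    rw [lintegral_tsum fun k => (hm k).enorm.aemeasurable]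
    exact (hle (fun _ => 1) 1 fun _ => by simp).lt_top
  · filter_upwards [ae_finite_setOfPred_mem hfin] with y hy
    refine ⟨hy.toFinset.card, ?_⟩
    rw [tsum_eq_sum (s := hy.toFinset) fun k hk => indicator_of_notMem (by simpa using hk) _,
      Finset.sum_congr rfl fun k hk => indicator_of_mem (by simpa using hk) _]
    simp
  · refine (tsum_congr fun k => indicator_of_notMem (fun h => hy ?_) _).trans tsum_zero
    exact image_mono (subset_iUnion A k) h
  · have h1 : ∀ y, (∑' k, (F '' A k).indicator (fun _ => (1 : ℝ)) y) * φ y =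
        ∑' k, (F '' A k).indicator φ y := fun y => by
      rw [← tsum_mul_right]
      exact tsum_congr fun k => by by_cases hy : y ∈ F '' A k <;> simp [hy]
    have hc : AEStronglyMeasurable (fun x => φ (F x)) (μ.restrict (⋃ k, A k)) :=
      (hφ.comp_aemeasurable (ContinuousOn.aemeasurable
        (fun x hx => (hF x hx).continuousAt.continuousWithinAt) hs)).aestronglyMeasurable
    simp only [h1]
    rw [integral_tsum (fun k => (hφ.indicator (hB k)).aestronglyMeasurable) (hle φ C hC),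
      integral_iUnion hA hdis (hi.abs.mul_bdd hc (c := C) (Eventually.of_forall fun x => hC _))]
    refine tsum_congr fun k => ?_
    rw [integral_indicator (hB k),
      integral_image_eq_integral_abs_det_fderiv_smul μ (hA k) (hD k) (hinj k)]
    rfl

/-- The signed area formula. -/
theorem deg_exists (hs : MeasurableSet s) (hF : ∀ x ∈ s, ContDiffAt ℝ 1 F x)
    (hi : IntegrableOn (fun x => (fderiv ℝ F x).det) s μ) :
    ∃ n : E → ℝ, Integrable n μ ∧ (∀ᵐ y ∂μ, ∃ z : ℤ, n y = z) ∧ (∀ y ∉ F '' s, n y = 0) ∧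
      ∀ φ : E → ℝ, Measurable φ → (∃ C, ∀ y, |φ y| ≤ C) →
        ∫ x in s, (fderiv ℝ F x).det * φ (F x) ∂μ = ∫ y, n y * φ y ∂μ := by
  have hm : Measurable fun x => (fderiv ℝ F x).det :=
    ContinuousLinearMap.continuous_det.measurable.comp (measurable_fderiv ℝ F)
  have hp : MeasurableSet {x | 0 < (fderiv ℝ F x).det} := measurableSet_lt measurable_const hm
  have hq : MeasurableSet {x | (fderiv ℝ F x).det < 0} := measurableSet_lt hm measurable_const
  obtain ⟨n, a1, a2, a3, a4⟩ := deg_abs μ (hs.inter hp) (fun x hx => hF x hx.1)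
    (fun x hx => ne_of_gt hx.2) (hi.mono_set inter_subset_left)
  obtain ⟨n', b1, b2, b3, b4⟩ := deg_abs μ (hs.inter hq) (fun x hx => hF x hx.1)
    (fun x hx => ne_of_lt hx.2) (hi.mono_set inter_subset_left)
  refine ⟨fun y => n y - n' y, a1.sub b1, ?_, fun y hy => ?_, fun φ hφ ⟨C, hC⟩ => ?_⟩
  · filter_upwards [a2, b2] with y ⟨z, hz⟩ ⟨z', hz'⟩
    exact ⟨z - z', by rw [hz, hz', Int.cast_sub]⟩
  · beta_reduce
    rw [a3 y fun h => hy (image_mono inter_subset_left h),
      b3 y fun h => hy (image_mono inter_subset_left h), sub_zero]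
  have hc : AEStronglyMeasurable (fun x => φ (F x)) (μ.restrict s) :=
    (hφ.comp_aemeasurable (ContinuousOn.aemeasurable
      (fun x hx => (hF x hx).continuousAt.continuousWithinAt) hs)).aestronglyMeasurable
  have hI := hi.abs.mul_bdd hc (c := C) (Eventually.of_forall fun x => hC _)
  have hb : ∀ {g : E → ℝ}, Integrable g μ → Integrable (fun y => g y * φ y) μ := fun h =>
    h.mul_bdd hφ.aestronglyMeasurable (c := C) (Eventually.of_forall fun x => hC _)
  simp only [sub_mul]
  rw [integral_sub (hb a1) (hb b1), ← a4 φ hφ ⟨C, hC⟩, ← b4 φ hφ ⟨C, hC⟩, inter_comm s, inter_comm s,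
    ← Measure.restrict_restrict hp, ← Measure.restrict_restrict hq, ← integral_indicator hp,
    ← integral_indicator hq, ← integral_sub (hI.indicator hp) (hI.indicator hq)]
  refine integral_congr_ae (Eventually.of_forall fun x => ?_)
  rcases lt_trichotomy (fderiv ℝ F x).det 0 with h | h | h
  · simp [indicator, h, h.le.not_gt, abs_of_neg h]
  · simp [indicator, h]
  · simp [indicator, h, h.le.not_gt, abs_of_pos h]

end Vale.Agent.P267P
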