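import Vale.Agent.P267P.Rad

/-! P267P: the pull-back of smooth forms is smooth. -/

open scoped ContDiff Topology
open Set Filter

noncomputable section
namespace Vale.Agent.P267P

variable {D E E' F : Type} [NormedAddCommGroup D] [NormedSpace ℝ D]
  [NormedAddCommGroup E] [NormedSpace ℝ E] [NormedAddCommGroup E'] [NormedSpace ℝ E']
  [NormedAddCommGroup F] [NormedSpace ℝ F] {k : ℕ}

/-- alternatization as a continuous linear map -/
def altz (E F : Type) [NormedAddCommGroup E] [NormedSpace ℝ E] [NormedAddCommGroup F]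
    [NormedSpace ℝ F] (k : ℕ) :
    ContinuousMultilinearMap ℝ (fun _ : Fin k => E) F →L[ℝ] E [⋀^Fin k]→L[ℝ] F :=
  LinearMap.mkContinuous
    { toFun := fun f => ContinuousMultilinearMap.alternatization f
      map_add' := fun f g => map_add _ f g
      map_smul' := fun c f => by
        ext v
        simp [ContinuousMultilinearMap.alternatization_apply_apply, Finset.smul_sum,
          smul_comm c] } (Fintype.card (Equiv.Perm (Fin k))) fun f => by
    refine ContinuousAlternatingMap.opNorm_le_bound _ (by positivity) fun v => ?_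
    simp only [LinearMap.coe_mk, AddHom.coe_mk,
      ContinuousMultilinearMap.alternatization_apply_apply]
    refine (norm_sum_le _ _).trans ?_
    have : ∀ σ : Equiv.Perm (Fin k), ‖Equiv.Perm.sign σ • f (v ∘ σ)‖ ≤ ‖f‖ * ∏ i, ‖v i‖ := by
      intro σ
      have h1 : ‖Equiv.Perm.sign σ • f (v ∘ σ)‖ = ‖f (v ∘ σ)‖ := by
        rcases Int.units_eq_one_or (Equiv.Perm.sign σ) with h | h <;> simp [h]
      rw [h1, ← Equiv.prod_comp σ fun i => ‖v i‖]
      exact f.le_opNorm _
    refine (Finset.sum_le_sum fun σ _ => this σ).trans_eq ?_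
    simp [mul_assoc]

theorem altz_alt (f : E [⋀^Fin k]→L[ℝ] F) :
    altz E F k f.toContinuousMultilinearMap = (k.factorial : ℝ) • f := by
  ext v
  have h : ∀ σ : Equiv.Perm (Fin k),
      Equiv.Perm.sign σ • f.toContinuousMultilinearMap (v ∘ σ) = f v := fun σ => by
    have := f.toAlternatingMap.map_perm v σ
    change Equiv.Perm.sign σ • f.toAlternatingMap (v ∘ σ) = f.toAlternatingMap v
    rw [this, smul_smul, Int.units_mul_self, one_smul]
  change ContinuousMultilinearMap.alternatization f.toContinuousMultilinearMap v = _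
  rw [ContinuousMultilinearMap.alternatization_apply_apply]
  simp only [h, Finset.sum_const, Finset.card_univ, Fintype.card_perm, Fintype.card_fin,
    ContinuousAlternatingMap.smul_apply, Nat.cast_smul_eq_nsmul]

theorem cd_of_multi {n : ℕ∞ω} {f : D → E [⋀^Fin k]→L[ℝ] F} {x : D}
    (h : ContDiffAt ℝ n (fun y => (f y).toContinuousMultilinearMap) x) : ContDiffAt ℝ n f x := by
  have h1 : ContDiffAt ℝ n (fun y => altz E F k (f y).toContinuousMultilinearMap) x :=
    ContDiffAt.comp (g := fun g => altz E F k g) x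
      (ContinuousLinearMap.contDiff (𝕜 := ℝ)
        (E := ContinuousMultilinearMap ℝ (fun _ : Fin k => E) F)
        (F := E [⋀^Fin k]→L[ℝ] F) (altz E F k)).contDiffAt h
  have h2 := h1.const_smul ((k.factorial : ℝ)⁻¹)
  have h3 : (k.factorial : ℝ) ≠ 0 := by positivity
  simpa [altz_alt, smul_smul, h3] using h2

theorem cd_multi {n : ℕ∞ω} {f : D → E [⋀^Fin k]→L[ℝ] F} {x : D} (h : ContDiffAt ℝ n f x) :
    ContDiffAt ℝ n (fun y => (f y).toContinuousMultilinearMap) x :=
  ContDiffAt.comp (g := fun g : E [⋀^Fin k]→L[ℝ] F => g.toContinuousMultilinearMap) x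
    (ContinuousLinearMap.contDiff (𝕜 := ℝ) (E := E [⋀^Fin k]→L[ℝ] F)
      (F := ContinuousMultilinearMap ℝ (fun _ : Fin k => E) F)
      (ContinuousAlternatingMap.toContinuousMultilinearMapCLM ℝ)).contDiffAt h

/-- pull-back along a smooth family of linear maps -/
theorem cd_pull {n : ℕ∞ω} {f : D → E' [⋀^Fin k]→L[ℝ] F} {g : D → E →L[ℝ] E'} {x : D}
    (hf : ContDiffAt ℝ n f x) (hg : ContDiffAt ℝ n g x) :
    ContDiffAt ℝ n (fun y => (f y).compContinuousLinearMap (g y)) x := by
  refine cd_of_multi ?_
  have h1 : ContDiffAt ℝ n (fun y =>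
      ContinuousMultilinearMap.compContinuousLinearMapContinuousMultilinear ℝ
        (fun _ : Fin k => E) (fun _ => E') F (fun _ => g y)) x :=
    ContDiffAt.comp (g := ContinuousMultilinearMap.compContinuousLinearMapContinuousMultilinear ℝ
        (fun _ : Fin k => E) (fun _ => E') F) x (ContinuousMultilinearMap.contDiff _).contDiffAt
      (contDiffAt_pi.2 fun _ => hg)
  exact h1.clm_apply (cd_multi hf)

/-- evaluation of a smooth form on smooth vectors -/
theorem cd_eval {n : ℕ∞ω} {f : D → E [⋀^Fin k]→L[ℝ] F} {x : D} (hf : ContDiffAt ℝ n f x)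
    (v : Fin k → E) : ContDiffAt ℝ n (fun y => f y v) x :=
  ContDiffAt.comp (g := fun g : ContinuousMultilinearMap ℝ (fun _ : Fin k => E) F => g v) x
    (ContinuousMultilinearMap.apply ℝ (fun _ : Fin k => E) F v).contDiff.contDiffAt (cd_multi hf)

end Vale.Agent.P267P
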