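import Vale.Agent.P267P.Defs
import Vale.Agent.P267P.Pb

/-! Change of charts. -/

open scoped Manifold ContDiff Topology
open Filter MeasureTheory Set

noncomputable section

namespace Vale.Agent.P267P

open Vale.Agent.P267F Vale.Agent.P267I

set_option linter.unusedSectionVars false

section CC

variable {X : Type} [TopologicalSpace X] [ChartedSpace C2 X] {k : ℕ}

/-- Transition map from the chart at `p` to the chart at `q`. -/
abbrev ctr (p q : X) : C2 → C2 := chartAt C2 q ∘ (chartAt C2 p).symm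

theorem cc_ev_src {p q y : X} (hp : y ∈ (chartAt C2 p).source) (hq : y ∈ (chartAt C2 q).source) :
    ∀ᶠ z in 𝓝 (chartAt C2 p y), z ∈ (chartAt C2 p).target ∧
      (chartAt C2 p).symm z ∈ (chartAt C2 q).source := by
  have h1 := (chartAt C2 p).open_target.mem_nhds ((chartAt C2 p).map_source hp)
  have h2 : ContinuousAt (chartAt C2 p).symm (chartAt C2 p y) :=
    (chartAt C2 p).continuousAt_symm ((chartAt C2 p).map_source hp)
  have h3 := h2.eventually ((chartAt C2 q).open_source.mem_nhds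
    (by rwa [(chartAt C2 p).left_inv hp]))
  exact (Filter.Eventually.and h1 h3)

theorem ctr_smoothC [IsManifold 𝓘(ℂ, C2) ω X] {p q y : X} (hp : y ∈ (chartAt C2 p).source)
    (hq : y ∈ (chartAt C2 q).source) : ContDiffAt ℂ ω (ctr p q) (chartAt C2 p y) := by
  have h := StructureGroupoid.compatible (contDiffGroupoid ω 𝓘(ℂ, C2)) (chart_mem_atlas C2 p)
    (chart_mem_atlas C2 q)
  rw [contDiffGroupoid, mem_groupoid_of_pregroupoid] at h
  have h1 := h.1
  simp only [contDiffPregroupoid, modelWithCornersSelf_coe, modelWithCornersSelf_coe_symm,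
    Function.id_comp, Function.comp_id, preimage_id_eq, id_eq, range_id, inter_univ,
    OpenPartialHomeomorph.coe_trans] at h1
  refine h1.contDiffAt ?_
  filter_upwards [cc_ev_src hp hq] with z hz
  simpa using hz

theorem ctr_smooth [IsManifold 𝓘(ℂ, C2) ω X] {p q y : X} (hp : y ∈ (chartAt C2 p).source)
    (hq : y ∈ (chartAt C2 q).source) : ContDiffAt ℝ ∞ (ctr p q) (chartAt C2 p y) :=
  ((ctr_smoothC hp hq).restrict_scalars ℝ).of_le le_top

theorem ctr_apply {p q y : X} (hp : y ∈ (chartAt C2 p).source) :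
    ctr p q (chartAt C2 p y) = chartAt C2 q y := by
  simp [ctr, (chartAt C2 p).left_inv hp]

theorem ctr_self {p y : X} (hp : y ∈ (chartAt C2 p).source) :
    fderiv ℝ (ctr p p) (chartAt C2 p y) = ContinuousLinearMap.id ℝ C2 := by
  have : ctr p p =ᶠ[𝓝 (chartAt C2 p y)] id := by
    filter_upwards [cc_ev_src hp hp] with z hz
    simp [ctr, (chartAt C2 p).right_inv hz.1]
  rw [this.fderiv_eq, fderiv_id]

theorem ctr_chain [IsManifold 𝓘(ℂ, C2) ω X] {p q r y : X} (hp : y ∈ (chartAt C2 p).source)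
    (hq : y ∈ (chartAt C2 q).source) (hr : y ∈ (chartAt C2 r).source) :
    fderiv ℝ (ctr p r) (chartAt C2 p y) =
      (fderiv ℝ (ctr q r) (chartAt C2 q y)).comp (fderiv ℝ (ctr p q) (chartAt C2 p y)) := by
  have : ctr p r =ᶠ[𝓝 (chartAt C2 p y)] ctr q r ∘ ctr p q := by
    filter_upwards [cc_ev_src hp hq] with z hz
    simp [ctr, (chartAt C2 q).left_inv hz.2]
  rw [this.fderiv_eq, fderiv_comp _ (by
    rw [ctr_apply hp]; exact (ctr_smooth hq hr).differentiableAt (by simp))
    ((ctr_smooth hp hq).differentiableAt (by simp)), ctr_apply hp]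

theorem cc_loc_apply {p y : X} (hp : y ∈ (chartAt C2 p).source) (w : Fm X k) :
    loc p w (chartAt C2 p y) =
      (w y).compContinuousLinearMap (fderiv ℝ (ctr p y) (chartAt C2 p y)) := by
  simp only [loc, (chartAt C2 p).left_inv hp]

theorem cc_loc_self (x : X) (w : Fm X k) : loc x w (chartAt C2 x x) = w x := by
  rw [cc_loc_apply (mem_chart_source C2 x), ctr_self (mem_chart_source C2 x)]
  ext v; rfl

theorem cc_loc_change [IsManifold 𝓘(ℂ, C2) ω X] {p q y : X} (hp : y ∈ (chartAt C2 p).source)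
    (hq : y ∈ (chartAt C2 q).source) (w : Fm X k) :
    loc p w (chartAt C2 p y) = (loc q w (chartAt C2 q y)).compContinuousLinearMap
      (fderiv ℝ (ctr p q) (chartAt C2 p y)) := by
  rw [cc_loc_apply hp, cc_loc_apply hq, ctr_chain hp hq (mem_chart_source C2 y)]
  ext v; rfl

theorem cc_loc_change_ev [IsManifold 𝓘(ℂ, C2) ω X] {p q y : X} (hp : y ∈ (chartAt C2 p).source)
    (hq : y ∈ (chartAt C2 q).source) (w : Fm X k) :
    loc p w =ᶠ[𝓝 (chartAt C2 p y)] fun z =>
      (loc q w (ctr p q z)).compContinuousLinearMap (fderiv ℝ (ctr p q) z) := by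
  filter_upwards [cc_ev_src hp hq] with z hz
  have h := cc_loc_change ((chartAt C2 p).map_target hz.1) hz.2 w
  rw [(chartAt C2 p).right_inv hz.1] at h
  exact h

/-- a form is recovered from its expression in any chart -/
theorem cc_eq_loc [IsManifold 𝓘(ℂ, C2) ω X] {p y : X} (hp : y ∈ (chartAt C2 p).source) (w : Fm X k) :
    w y = (loc p w (chartAt C2 p y)).compContinuousLinearMap
      (fderiv ℝ (ctr y p) (chartAt C2 y y)) := by
  rw [← cc_loc_change (mem_chart_source C2 y) hp, cc_loc_self]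

theorem cc_ext_loc [IsManifold 𝓘(ℂ, C2) ω X] {p y : X} (hp : y ∈ (chartAt C2 p).source)
    {w w' : Fm X k} (h : loc p w (chartAt C2 p y) = loc p w' (chartAt C2 p y)) : w y = w' y := by
  rw [cc_eq_loc hp w, cc_eq_loc hp w', h]

theorem cc_glob_of_mem {p y : X} (hp : y ∈ (chartAt C2 p).source) (u : C2 → Al k) :
    glob p u y = (u (chartAt C2 p y)).compContinuousLinearMap
      (fderiv ℝ (ctr y p) (chartAt C2 y y)) := by
  simp only [glob, hp, if_true]

theorem cc_glob_of_not {p y : X} (hp : y ∉ (chartAt C2 p).source) (u : C2 → Al k) :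
    glob p u y = 0 := by
  simp only [glob, hp, if_false]

theorem cc_glob_zero_of {p y : X} {u : C2 → Al k} (h : y ∈ (chartAt C2 p).source →
    u (chartAt C2 p y) = 0) : glob p u y = 0 := by
  by_cases hp : y ∈ (chartAt C2 p).source
  · rw [cc_glob_of_mem hp, h hp]; ext v; rfl
  · exact cc_glob_of_not hp u

theorem cc_loc_glob [IsManifold 𝓘(ℂ, C2) ω X] {p : X} (u : C2 → Al k) {z : C2}
    (hz : z ∈ (chartAt C2 p).target) : loc p (glob p u) z = u z := by
  obtain ⟨y, hy, rfl⟩ : ∃ y ∈ (chartAt C2 p).source, chartAt C2 p y = z :=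
    ⟨_, (chartAt C2 p).map_target hz, (chartAt C2 p).right_inv hz⟩
  rw [cc_loc_apply hy, cc_glob_of_mem hy]
  have h := ctr_chain hy (mem_chart_source C2 y) hy
  rw [ctr_self hy] at h
  ext v
  have : (fderiv ℝ (ctr y p) (chartAt C2 y y)) ∘ (fderiv ℝ (ctr p y) (chartAt C2 p y)) ∘ v = v := by
    funext i
    exact (congrArg (fun L : C2 →L[ℝ] C2 => L (v i)) h).symm
  simp only [ContinuousAlternatingMap.compContinuousLinearMap_apply, this]

theorem cc_loc_zero (p : X) (z : C2) : loc p (0 : Fm X k) z = 0 := by ext v; rfl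

theorem cc_loc_add (p : X) (w w' : Fm X k) : loc p (w + w') = loc p w + loc p w' := by
  ext z v; rfl

theorem cc_loc_neg (p : X) (w : Fm X k) : loc p (-w) = -loc p w := by ext z v; rfl

theorem cc_loc_sub (p : X) (w w' : Fm X k) : loc p (w - w') = loc p w - loc p w' := by
  ext z v; rfl

theorem cc_loc_smul (p : X) (c : ℂ) (w : Fm X k) : loc p (c • w) = c • loc p w := by
  ext z v; rfl

theorem cc_loc_fs (p : X) (f : X → ℂ) (w : Fm X k) :
    loc p (fs f w) = fun z => f ((chartAt C2 p).symm z) • loc p w z := by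
  ext z v; rfl

theorem cc_loc_congr {p : X} {w w' : Fm X k} {z : C2}
    (h : w ((chartAt C2 p).symm z) = w' ((chartAt C2 p).symm z)) : loc p w z = loc p w' z := by
  simp only [loc, h]

theorem cc_loc_eq_zero {p : X} {w : Fm X k} {z : C2} (h : w ((chartAt C2 p).symm z) = 0) :
    loc p w z = 0 := (cc_loc_congr (w' := 0) h).trans (cc_loc_zero p z)

theorem cc_loc_congr_ev {p y : X} (hp : y ∈ (chartAt C2 p).source) {w w' : Fm X k}
    (h : w =ᶠ[𝓝 y] w') : loc p w =ᶠ[𝓝 (chartAt C2 p y)] loc p w' := by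
  have h2 : ContinuousAt (chartAt C2 p).symm (chartAt C2 p y) :=
    (chartAt C2 p).continuousAt_symm ((chartAt C2 p).map_source hp)
  have h3 : ∀ᶠ x in 𝓝 ((chartAt C2 p).symm (chartAt C2 p y)), w x = w' x := by
    rwa [(chartAt C2 p).left_inv hp]
  exact (h2.eventually h3).mono fun z hz => cc_loc_congr hz

theorem cc_sm_change [IsManifold 𝓘(ℂ, C2) ω X] {p q y : X} (hp : y ∈ (chartAt C2 p).source)
    (hq : y ∈ (chartAt C2 q).source) {w : Fm X k}
    (h : ContDiffAt ℝ ∞ (loc q w) (chartAt C2 q y)) : ContDiffAt ℝ ∞ (loc p w) (chartAt C2 p y) := by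
  refine ContDiffAt.congr_of_eventuallyEq ?_ (cc_loc_change_ev hp hq w)
  refine cd_pull (f := fun z => loc q w (ctr p q z)) ?_
    ((ctr_smooth hp hq).fderiv_right (m := ∞) (by simp))
  exact ContDiffAt.comp (g := loc q w) _ (by rwa [ctr_apply hp]) (ctr_smooth hp hq)

theorem cc_smA_change [IsManifold 𝓘(ℂ, C2) ω X] {p q y : X} (hp : y ∈ (chartAt C2 p).source)
    (hq : y ∈ (chartAt C2 q).source) {w : Fm X k}
    (h : ∀ᶠ z in 𝓝 (chartAt C2 q y), ContDiffAt ℝ ∞ (loc q w) z) :
    ∀ᶠ z in 𝓝 (chartAt C2 p y), ContDiffAt ℝ ∞ (loc p w) z := by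
  have h1 : ∀ᶠ z in 𝓝 (ctr p q (chartAt C2 p y)), ContDiffAt ℝ ∞ (loc q w) z := by
    rwa [ctr_apply hp]
  filter_upwards [cc_ev_src hp hq, (ctr_smooth hp hq).continuousAt.eventually h1] with z hz h2
  have h3 := cc_sm_change ((chartAt C2 p).map_target hz.1) hz.2 h2
  rwa [(chartAt C2 p).right_inv hz.1] at h3

theorem cc_smA_iff [IsManifold 𝓘(ℂ, C2) ω X] {p y : X} (hp : y ∈ (chartAt C2 p).source)
    {w : Fm X k} : SmA w y ↔ ∀ᶠ z in 𝓝 (chartAt C2 p y), ContDiffAt ℝ ∞ (loc p w) z :=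
  ⟨cc_smA_change hp (mem_chart_source C2 y), cc_smA_change (mem_chart_source C2 y) hp⟩

theorem SmA.cc_cd [IsManifold 𝓘(ℂ, C2) ω X] {p y : X} {w : Fm X k} (h : SmA w y)
    (hp : y ∈ (chartAt C2 p).source) : ContDiffAt ℝ ∞ (loc p w) (chartAt C2 p y) :=
  ((cc_smA_iff hp).1 h).self_of_nhds

theorem Sm.cc_cd [IsManifold 𝓘(ℂ, C2) ω X] {p : X} {w : Fm X k} (h : Sm w) {z : C2}
    (hz : z ∈ (chartAt C2 p).target) : ContDiffAt ℝ ∞ (loc p w) z := by
  have := (h _).cc_cd ((chartAt C2 p).map_target hz)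
  rwa [(chartAt C2 p).right_inv hz] at this

theorem SmA.cc_ev [IsManifold 𝓘(ℂ, C2) ω X] {y : X} {w : Fm X k} (h : SmA w y) :
    ∀ᶠ x in 𝓝 y, SmA w x := by
  have h1 := ((chartAt C2 y).continuousAt (mem_chart_source C2 y)).eventually
    (Filter.Eventually.eventually_nhds h)
  filter_upwards [h1, (chartAt C2 y).open_source.mem_nhds (mem_chart_source C2 y)] with x h2 hx
  exact (cc_smA_iff hx).2 h2

theorem SmA.cc_congr {y : X} {w w' : Fm X k} (h : SmA w y) (e : w =ᶠ[𝓝 y] w') : SmA w' y := by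
  have h1 := (cc_loc_congr_ev (mem_chart_source C2 y) e).eventually_nhds
  filter_upwards [h, h1] with z h2 h3
  exact h2.congr_of_eventuallyEq (EventuallyEq.symm h3)

theorem cc_dd_congr {y : X} {w w' : Fm X k} (e : w =ᶠ[𝓝 y] w') : dd w y = dd w' y :=
  (cc_loc_congr_ev (mem_chart_source C2 y) e).extDeriv_eq

theorem cc_loc_dd' [IsManifold 𝓘(ℂ, C2) ω X] {p y : X} (hp : y ∈ (chartAt C2 p).source)
    {w : Fm X k} (h : ContDiffAt ℝ ∞ (loc p w) (chartAt C2 p y)) :
    loc p (dd w) (chartAt C2 p y) = extDeriv (loc p w) (chartAt C2 p y) := by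
  have hy := mem_chart_source C2 y
  rw [cc_loc_apply hp, (cc_loc_change_ev hp hy w).extDeriv_eq,
    extDeriv_pullback (r := ∞) (by
      rw [ctr_apply hp]; exact (cc_sm_change hy hp h).differentiableAt (by simp))
      (ctr_smooth hp hy) (by simpa using ri_le 2), ctr_apply hp]
  rfl

theorem cc_loc_dd [IsManifold 𝓘(ℂ, C2) ω X] {p y : X} (hp : y ∈ (chartAt C2 p).source)
    {w : Fm X k} (h : SmA w y) :
    loc p (dd w) (chartAt C2 p y) = extDeriv (loc p w) (chartAt C2 p y) :=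
  cc_loc_dd' hp (h.cc_cd hp)

theorem cc_loc_dd_t [IsManifold 𝓘(ℂ, C2) ω X] {p : X} {w : Fm X k} {z : C2}
    (hz : z ∈ (chartAt C2 p).target) (h : ContDiffAt ℝ ∞ (loc p w) z) :
    loc p (dd w) z = extDeriv (loc p w) z := by
  have := cc_loc_dd' (w := w) ((chartAt C2 p).map_target hz) (by rwa [(chartAt C2 p).right_inv hz])
  rwa [(chartAt C2 p).right_inv hz] at this

end CC

variable {X : Type} [TopologicalSpace X] [ChartedSpace C2 X] [IsManifold 𝓘(ℂ, C2) ω X] [T2Space X]
  [CompactSpace X] {k d : ℕ}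

theorem tr_sm {x y : X} {z : C2} (hz : z ∈ (chartAt C2 y).target)
    (hx : (chartAt C2 y).symm z ∈ (chartAt C2 x).source) :
    ContDiffAt ℝ ∞ (chartAt C2 x ∘ (chartAt C2 y).symm) z := by
  have := ctr_smooth ((chartAt C2 y).map_target hz) hx
  rwa [(chartAt C2 y).right_inv hz] at this

theorem pb_sm {E : Type} [NormedAddCommGroup E] [NormedSpace ℝ E] {n : WithTop ℕ∞} {u : E → Al k}
    {A : E → C2 →L[ℝ] C2} {z : E} (hu : ContDiffAt ℝ n u z) (hA : ContDiffAt ℝ n A z) :
    ContDiffAt ℝ n (fun y => (u y).compContinuousLinearMap (A y)) z := by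
  exact cd_pull hu hA

theorem loc_self (w : Fm X k) (x : X) : loc x w (chartAt C2 x x) = w x := by
  exact cc_loc_self x w

theorem loc_loc (w : Fm X k) {x y : X} {z : C2} (hz : z ∈ (chartAt C2 y).target)
    (hx : (chartAt C2 y).symm z ∈ (chartAt C2 x).source) :
    loc y w z = (loc x w (chartAt C2 x ((chartAt C2 y).symm z))).compContinuousLinearMap
      (fderiv ℝ (chartAt C2 x ∘ (chartAt C2 y).symm) z) := by
  have := cc_loc_change ((chartAt C2 y).map_target hz) hx w
  rwa [(chartAt C2 y).right_inv hz] at this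

theorem loc_inj {w w' : Fm X k} {p x : X} (hx : x ∈ (chartAt C2 p).source)
    (h : loc p w (chartAt C2 p x) = loc p w' (chartAt C2 p x)) : w x = w' x := by
  exact cc_ext_loc hx h

theorem smA_iff {w : Fm X k} {p x : X} (hx : x ∈ (chartAt C2 p).source) :
    SmA w x ↔ ∀ᶠ z in 𝓝 (chartAt C2 p x), ContDiffAt ℝ ∞ (loc p w) z := by
  exact cc_smA_iff hx

theorem Sm.loc {w : Fm X k} (h : Sm w) {p : X} {z : C2} (hz : z ∈ (chartAt C2 p).target) :
    ContDiffAt ℝ ∞ (loc p w) z := by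
  exact h.cc_cd hz

theorem loc_dd {w : Fm X k} {p x : X} (hx : x ∈ (chartAt C2 p).source) (h : SmA w x) :
    loc p (dd w) (chartAt C2 p x) = extDeriv (loc p w) (chartAt C2 p x) := by
  exact cc_loc_dd hx h

theorem loc_glob (p : X) (u : C2 → Al k) {z : C2} (hz : z ∈ (chartAt C2 p).target) :
    loc p (glob p u) z = u z := by
  exact cc_loc_glob u hz

end Vale.Agent.P267P
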