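import Vale.Agent.P267P.F1

/-! Calculus of forms. loc is additive and commutes with scalars pointwise (compContinuousLinearMap); germs: loc x w only depends on the germ of w at x near the centre. extDeriv_add, extDeriv_extDeriv_apply, loc_dd. -/

open scoped Manifold ContDiff Topology
open Filter MeasureTheory Set

noncomputable section

namespace Vale.Agent.P267P

open Vale.Agent.P267F Vale.Agent.P267I

set_option linter.unusedSectionVars false

variable {X : Type} [TopologicalSpace X] [ChartedSpace C2 X] [IsManifold 𝓘(ℂ, C2) ω X] [T2Space X]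
  [CompactSpace X] {k d : ℕ}

theorem f2_congr {w w' : Fm X k} {x : X} (e : w =ᶠ[𝓝 x] w') :
    loc x w =ᶠ[𝓝 (chartAt C2 x x)] loc x w' :=
  (((chartAt C2 x).tendsto_symm (mem_chart_source C2 x)).eventually e).mono fun z hz => by
    simp only [loc, hz]

theorem f2_zero (p : X) : loc p (0 : Fm X k) = fun _ => 0 := by
  funext z
  ext v
  rfl

theorem f2_add (p : X) (w w' : Fm X k) : loc p (w + w') = loc p w + loc p w' := by
  funext z
  ext v
  rfl

theorem f2_smul (p : X) (c : ℂ) (w : Fm X k) : loc p (c • w) = c • loc p w := by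
  funext z
  ext v
  rfl

theorem f2_df {w : Fm X k} {x : X} (h : SmA w x) :
    DifferentiableAt ℝ (loc x w) (chartAt C2 x x) :=
  (Eventually.self_of_nhds h).differentiableAt (by simp)

theorem SmA.eventually {w : Fm X k} {x : X} (h : SmA w x) : ∀ᶠ y in 𝓝 x, SmA w y := by
  filter_upwards [((chartAt C2 x).continuousAt (mem_chart_source C2 x)).tendsto.eventually
    (Eventually.eventually_nhds h), (chartAt C2 x).open_source.mem_nhds (mem_chart_source C2 x)]
    with y h1 h2
  exact (smA_iff h2).2 h1

theorem SmA.congr {w w' : Fm X k} {x : X} (h : SmA w x) (e : w =ᶠ[𝓝 x] w') : SmA w' x := by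
  filter_upwards [h, (f2_congr e).eventuallyEq_nhds] with z h1 h2
  exact h1.congr_of_eventuallyEq h2.symm

theorem dd_congr {w w' : Fm X k} {x : X} (e : w =ᶠ[𝓝 x] w') : dd w x = dd w' x := by
  exact (f2_congr e).extDeriv_eq

theorem smA_zero (x : X) : SmA (0 : Fm X k) x := by
  refine .of_forall fun z => ?_
  rw [f2_zero]
  exact contDiffAt_const

theorem dd_zero : dd (0 : Fm X k) = 0 := by
  funext x
  rw [dd, f2_zero, extDeriv, fderiv_fun_const]
  exact map_zero (ContinuousAlternatingMap.alternatizeUncurryFinCLM ℝ C2 ℂ)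

theorem SmA.add {w w' : Fm X k} {x : X} (h : SmA w x) (h' : SmA w' x) : SmA (w + w') x := by
  filter_upwards [h, h'] with z h1 h2
  rw [f2_add]
  exact h1.add h2

theorem SmA.smul {w : Fm X k} {x : X} (h : SmA w x) (c : ℂ) : SmA (c • w) x := by
  filter_upwards [h] with z h1
  rw [f2_smul]
  exact h1.const_smul c

theorem SmA.neg {w : Fm X k} {x : X} (h : SmA w x) : SmA (-w) x := by
  rw [← neg_one_smul ℂ w]
  exact h.smul _

theorem SmA.sub {w w' : Fm X k} {x : X} (h : SmA w x) (h' : SmA w' x) : SmA (w - w') x := by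
  rw [sub_eq_add_neg]
  exact h.add h'.neg

theorem smA_sum {ι : Type} (s : Finset ι) {w : ι → Fm X k} {x : X} (h : ∀ i ∈ s, SmA (w i) x) :
    SmA (∑ i ∈ s, w i) x := by
  exact Finset.sum_induction w (fun v => SmA v x) (fun _ _ a b => a.add b) (smA_zero x) h

theorem f2_dd {w : Fm X k} {x : X} (h : SmA w x) :
    loc x (dd w) =ᶠ[𝓝 (chartAt C2 x x)] extDeriv (loc x w) := by
  filter_upwards [((chartAt C2 x).tendsto_symm (mem_chart_source C2 x)).eventually h.eventually,
    (chartAt C2 x).open_target.mem_nhds (mem_chart_target C2 x)] with z h1 h2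
  have := loc_dd ((chartAt C2 x).map_target h2) h1
  rwa [(chartAt C2 x).right_inv h2] at this

theorem SmA.dd {w : Fm X k} {x : X} (h : SmA w x) : SmA (dd w) x := by
  filter_upwards [h, (f2_dd h).eventuallyEq_nhds] with z h1 h2
  have h3 := ContinuousLinearMap.contDiff (𝕜 := ℝ) (n := ∞) (E := C2 →L[ℝ] Al k) (F := Al (k + 1))
    (ContinuousAlternatingMap.alternatizeUncurryFinCLM ℝ C2 ℂ)
  exact (h3.contDiffAt.comp z (h1.fderiv_right (m := ∞) le_rfl)).congr_of_eventuallyEq h2

theorem dd_add {w w' : Fm X k} {x : X} (h : SmA w x) (h' : SmA w' x) :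
    dd (w + w') x = dd w x + dd w' x := by
  rw [dd, f2_add]
  exact extDeriv_add (f2_df h) (f2_df h')

theorem dd_smul (w : Fm X k) (c : ℂ) (x : X) : dd (c • w) x = c • dd w x := by
  have := congrFun (fderiv_const_smul_field (𝕜 := ℝ) (f := loc x w) c) (chartAt C2 x x)
  rw [dd, f2_smul]
  exact (congrArg ContinuousAlternatingMap.alternatizeUncurryFin this).trans
    (ContinuousAlternatingMap.alternatizeUncurryFin_smul c _)

theorem dd_sub {w w' : Fm X k} {x : X} (h : SmA w x) (h' : SmA w' x) :
    dd (w - w') x = dd w x - dd w' x := by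
  rw [sub_eq_add_neg, dd_add h h'.neg, ← neg_one_smul ℂ w', dd_smul, sub_eq_add_neg]
  exact congrArg _ (neg_one_smul ℂ (dd w' x))

theorem dd_sum {ι : Type} (s : Finset ι) {w : ι → Fm X k} {x : X} (h : ∀ i ∈ s, SmA (w i) x) :
    dd (∑ i ∈ s, w i) x = ∑ i ∈ s, dd (w i) x := by
  classical
  induction s using Finset.induction_on with
  | empty => simp [dd_zero]
  | insert i s hi ih =>
    have h1 : ∀ j ∈ s, SmA (w j) x := fun j hj => h j (Finset.mem_insert_of_mem hj)
    rw [Finset.sum_insert hi, Finset.sum_insert hi,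
      dd_add (h i (Finset.mem_insert_self i s)) (smA_sum s h1), ih h1]

theorem dd_dd {w : Fm X k} {x : X} (h : SmA w x) : dd (dd w) x = 0 := by
  exact (f2_dd h).extDeriv_eq.trans
    (extDeriv_extDeriv_apply (Eventually.self_of_nhds h) (by simp; exact WithTop.coe_le_coe.2 le_top))

theorem Van.dd {w : Fm X k} {T : Set X} (h : Van w T) (hT : IsClosed T) : Van (dd w) T := by
  intro x hx
  have e : w =ᶠ[𝓝 x] 0 := (hT.isOpen_compl.eventually_mem hx).mono h
  rw [dd_congr e, dd_zero, Pi.zero_apply]

theorem sm_glob (p : X) {u : C2 → Al k} {C : Set C2} (hC : IsCompact C)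
    (hs : C ⊆ (chartAt C2 p).target) (hu : ∀ z ∈ (chartAt C2 p).target, ContDiffAt ℝ ∞ u z)
    (h0 : ∀ z ∉ C, u z = 0) : Sm (glob p u) := by
  intro x
  by_cases hx : x ∈ (chartAt C2 p).source
  · refine (smA_iff hx).2 ?_
    filter_upwards [(chartAt C2 p).open_target.mem_nhds ((chartAt C2 p).map_source hx)] with z hz
    exact (hu z hz).congr_of_eventuallyEq
      (((chartAt C2 p).open_target.eventually_mem hz).mono fun y hy => loc_glob p u hy)
  · have hK : IsCompact ((chartAt C2 p).symm '' C) :=
      hC.image_of_continuousOn ((chartAt C2 p).continuousOn_symm.mono hs)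
    have hx' : x ∉ (chartAt C2 p).symm '' C := by
      rintro ⟨z, hz, rfl⟩
      exact hx ((chartAt C2 p).map_target (hs hz))
    refine (smA_zero x).congr ((hK.isClosed.isOpen_compl.eventually_mem hx').mono fun y hy => ?_)
    unfold glob
    split_ifs with c
    · rw [h0 _ fun k => hy ⟨_, k, (chartAt C2 p).left_inv c⟩]
      ext v
      rfl
    · rfl

end Vale.Agent.P267P
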