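import Vale.Agent.P267P.N0
import Vale.Agent.P267P.Rad

/-! The homotopy formula. -/

open scoped Manifold ContDiff Topology
open Filter MeasureTheory Set

noncomputable section

namespace Vale.Agent.P267P

open Vale.Agent.P267F Vale.Agent.P267I

set_option linter.unusedSectionVars false

variable {X : Type} [TopologicalSpace X] [ChartedSpace C2 X] [IsManifold 𝓘(ℂ, C2) ω X] [T2Space X]
  [CompactSpace X] {k d : ℕ}

theorem rad_id {u : C2 → Al (k + 1)} (hu : ContDiff ℝ ∞ u) (q : C2) (a b : ℝ) (z : C2) :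
    extDeriv (rad q a b u) z + rad q a b (extDeriv u) z =
      (b ^ (k + 1) : ℝ) • u (q + b • (z - q)) - (a ^ (k + 1) : ℝ) • u (q + a • (z - q)) :=
  rcone_homotopy q fun _ _ => hu.contDiffAt

theorem rad_id0 {u : C2 → Al 0} (hu : ContDiff ℝ ∞ u) (q : C2) (a b : ℝ) (z : C2) :
    rad q a b (extDeriv u) z = u (q + b • (z - q)) - u (q + a • (z - q)) :=
  rcone_homotopy0 q fun _ _ => hu.contDiffAt

end Vale.Agent.P267P
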