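import Mathlib

/-! P267, duality: the formula of Stokes on the unit square. -/

open scoped Topology ContDiff
open Set Filter MeasureTheory

noncomputable section

namespace Vale.Agent.P267P

variable {E : Type} [NormedAddCommGroup E] [NormedSpace ℝ E]

theorem z1_der {θ : E → E →L[ℝ] ℂ} {T : ℝ × ℝ → E} {x : ℝ × ℝ} (hθ : ContDiffAt ℝ 1 θ (T x))
    (hT : ContDiffAt ℝ 2 T x) (w : ℝ × ℝ) : ∃ L : ℝ × ℝ →L[ℝ] ℂ,
      HasFDerivAt (fun y => θ (T y) (fderiv ℝ T y w)) L x ∧ ∀ v, L v =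
        fderiv ℝ θ (T x) (fderiv ℝ T x v) (fderiv ℝ T x w) +
          θ (T x) (fderiv ℝ (fderiv ℝ T) x v w) := by
  have h1 := (hθ.differentiableAt one_ne_zero).hasFDerivAt.comp x
    (hT.differentiableAt two_ne_zero).hasFDerivAt
  have h2 := ((hT.fderiv_right (m := 1) le_rfl).differentiableAt one_ne_zero).hasFDerivAt.clm_apply
    (hasFDerivAt_const w x)
  exact ⟨_, h1.clm_apply h2, fun v => by simp [add_comm]⟩

/-- The formula of Stokes for a map of the unit square. -/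
theorem stokes_sq {θ : E → E →L[ℝ] ℂ} {T : ℝ × ℝ → E}
    (hθ : ∀ x ∈ Icc (0 : ℝ) 1 ×ˢ Icc (0 : ℝ) 1, ContDiffAt ℝ 1 θ (T x))
    (hT : ∀ x ∈ Icc (0 : ℝ) 1 ×ˢ Icc (0 : ℝ) 1, ContDiffAt ℝ 2 T x) :
    ∫ s in (0 : ℝ)..1, ∫ t in (0 : ℝ)..1,
      (fderiv ℝ θ (T (s, t)) (fderiv ℝ T (s, t) (1, 0)) (fderiv ℝ T (s, t) (0, 1)) -
        fderiv ℝ θ (T (s, t)) (fderiv ℝ T (s, t) (0, 1)) (fderiv ℝ T (s, t) (1, 0))) =
      ((∫ t in (0 : ℝ)..1, θ (T (1, t)) (fderiv ℝ T (1, t) (0, 1))) -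
        ∫ t in (0 : ℝ)..1, θ (T (0, t)) (fderiv ℝ T (0, t) (0, 1))) -
      ((∫ s in (0 : ℝ)..1, θ (T (s, 1)) (fderiv ℝ T (s, 1) (1, 0))) -
        ∫ s in (0 : ℝ)..1, θ (T (s, 0)) (fderiv ℝ T (s, 0) (1, 0))) := by
  have c1 : ∀ x ∈ Icc (0 : ℝ) 1 ×ˢ Icc (0 : ℝ) 1, ∀ w,
      ContDiffAt ℝ 1 (fun y => θ (T y) (fderiv ℝ T y w)) x := fun x hx w =>
    ((hθ x hx).comp x ((hT x hx).of_le one_le_two)).clm_apply
      (((hT x hx).fderiv_right (m := 1) le_rfl).clm_apply contDiffAt_const)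
  have hs : Ioo (min (0 : ℝ) 1) (max 0 1) ×ˢ Ioo (min (0 : ℝ) 1) (max 0 1) ⊆
      Icc (0 : ℝ) 1 ×ˢ Icc (0 : ℝ) 1 := by
    simpa using Set.prod_mono Ioo_subset_Icc_self Ioo_subset_Icc_self
  have c2 : ∀ w v, ContinuousOn (fun x => fderiv ℝ (fun y => θ (T y) (fderiv ℝ T y w)) x v)
      (Icc (0 : ℝ) 1 ×ˢ Icc (0 : ℝ) 1) := fun w v x hx =>
    (((c1 x hx w).fderiv_right (m := 0) le_rfl).continuousAt.clm_apply
      continuousAt_const).continuousWithinAt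
  have h := integral2_divergence_prod_of_hasFDerivAt
    (fun y => θ (T y) (fderiv ℝ T y (0, 1))) (fun y => -θ (T y) (fderiv ℝ T y (1, 0)))
    (fderiv ℝ fun y => θ (T y) (fderiv ℝ T y (0, 1)))
    (fun x => -fderiv ℝ (fun y => θ (T y) (fderiv ℝ T y (1, 0))) x) 0 0 1 1
    (by rw [uIcc_of_le zero_le_one]; exact fun x hx => (c1 x hx _).continuousAt.continuousWithinAt)
    (by
      rw [uIcc_of_le zero_le_one]
      exact fun x hx => (c1 x hx _).continuousAt.neg.continuousWithinAt)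
    (fun x hx => ((c1 x (hs hx) _).differentiableAt one_ne_zero).hasFDerivAt)
    (fun x hx => ((c1 x (hs hx) _).differentiableAt one_ne_zero).hasFDerivAt.neg)
    (by
      rw [uIcc_of_le zero_le_one]
      exact ((c2 _ _).add (c2 _ _).neg).integrableOn_compact (isCompact_Icc.prod isCompact_Icc))
  simp only [intervalIntegral.integral_neg] at h
  refine Eq.trans ?_ (h.trans (by ring))
  refine intervalIntegral.integral_congr fun s hs => intervalIntegral.integral_congr fun t ht => ?_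
  have hx : (s, t) ∈ Icc (0 : ℝ) 1 ×ˢ Icc (0 : ℝ) 1 := ⟨by simpa using hs, by simpa using ht⟩
  obtain ⟨L, l1, l2⟩ := z1_der (hθ _ hx) (hT _ hx) (0, 1)
  obtain ⟨L', l3, l4⟩ := z1_der (hθ _ hx) (hT _ hx) (1, 0)
  simp only [l1.fderiv, l3.fderiv, neg_apply, l2, l4,
    ((hT _ hx).isSymmSndFDerivAt (by simp)).eq (1, 0) (0, 1)]
  ring

end Vale.Agent.P267P
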