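import Vale.Agent.P267P.Z1

/-! P267, duality: geometric cycles attached to cycles of the nerve. -/

open scoped Topology ContDiff
open Set Filter MeasureTheory

noncomputable section

namespace Vale.Agent.P267P

variable {E : Type} [NormedAddCommGroup E] [NormedSpace ℝ E] {X ι : Type} [TopologicalSpace X]

/-- Nested sets `U a ⊆ V a`, `U a ∩ U b ⊆ W a b ⊆ V a ∩ V b`, each convex in its own chart. -/
structure ZCov (P : ι → OpenPartialHomeomorph X E) (Q : ι → ι → OpenPartialHomeomorph X E)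
    (U V : ι → Set X) (W : ι → ι → Set X) : Prop where
  uv : ∀ a, U a ⊆ V a
  uw : ∀ a b, U a ∩ U b ⊆ W a b
  wv : ∀ a b, (U a ∩ U b).Nonempty → W a b ⊆ V a ∩ V b
  sv : ∀ a, V a ⊆ (P a).source
  sw : ∀ a b, W a b ⊆ (Q a b).source
  cv : ∀ a, Convex ℝ (P a '' V a)
  cw : ∀ a b, Convex ℝ (Q a b '' W a b)
  sm : ∀ v a b, ∀ p ∈ (Q a b).source ∩ (P v).source,
    ContDiffAt ℝ ∞ (P v ∘ (Q a b).symm) (Q a b p)

/-- Base points in the intersections. -/
structure ZPts (U : ι → Set X) (x1 : ι → X) (x2 : ι → ι → X) (x3 : ι → ι → ι → X) : Prop where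
  m1 : ∀ a, (U a).Nonempty → x1 a ∈ U a
  m2 : ∀ a b, (U a ∩ U b).Nonempty → x2 a b ∈ U a ∩ U b
  m3 : ∀ a b c, (U a ∩ U b ∩ U c).Nonempty → x3 a b c ∈ U a ∩ U b ∩ U c

/-- Two-cycles of the nerve. -/
structure ZCyc [Fintype ι] (U : ι → Set X) (z : ι → ι → ι → ℤ) : Prop where
  supp : ∀ a b c, z a b c ≠ 0 → (U a ∩ U b ∩ U c).Nonempty
  cyc : ∀ a b, ∑ c, (z c a b - z a c b + z a b c) = 0

/-- The segment from `p` to `q` in the chart `Q`, in coordinates. -/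
def zseg (Q : OpenPartialHomeomorph X E) (p q : X) (t : ℝ) : E := Q p + t • (Q q - Q p)

/-- The cone in the chart `R` from `x` over the segment from `p` to `q` in the chart `Q`. -/
def zcone (R Q : OpenPartialHomeomorph X E) (x p q : X) (y : ℝ × ℝ) : E :=
  R x + y.1 • (R (Q.symm (zseg Q p q y.2)) - R x)

/-- The integral of a two-form over a map of the unit square. -/
def zsq (α : E → E → E → ℂ) (T : ℝ × ℝ → E) : ℂ :=
  ∫ s in (0 : ℝ)..1, ∫ t in (0 : ℝ)..1,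
    α (T (s, t)) (fderiv ℝ T (s, t) (1, 0)) (fderiv ℝ T (s, t) (0, 1))

variable (P : ι → OpenPartialHomeomorph X E) (Q : ι → ι → OpenPartialHomeomorph X E)
  (x1 : ι → X) (x2 : ι → ι → X) (x3 : ι → ι → ι → X)

/-- The two cones over one edge; `α v` is the form in the chart `v`. -/
def zedge (α : ι → E → E → E → ℂ) (a b : ι) (q : X) : ℂ :=
  zsq (α b) (zcone (P b) (Q a b) (x1 b) (x2 a b) q) -
    zsq (α a) (zcone (P a) (Q a b) (x1 a) (x2 a b) q)

/-- The integral of a two-form over the geometric cycle. -/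
def zint [Fintype ι] (z : ι → ι → ι → ℤ) (α : ι → E → E → E → ℂ) : ℂ :=
  ∑ a, ∑ b, ∑ c, (z a b c : ℂ) * (zedge P Q x1 x2 α b c (x3 a b c) -
    zedge P Q x1 x2 α a c (x3 a b c) + zedge P Q x1 x2 α a b (x3 a b c))

/-- A zigzag: `θ v` is a primitive of `α v` in the chart `v`, and `f a b` is a primitive of
`θ b - θ a`. -/
structure ZZig (U V : ι → Set X) (W : ι → ι → Set X) (α : ι → E → E → E → ℂ)
    (θ : ι → E → E →L[ℝ] ℂ) (f : ι → ι → X → ℂ) : Prop where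
  sm : ∀ v, ∀ p ∈ V v, ContDiffAt ℝ 1 (θ v) (P v p)
  d1 : ∀ v, ∀ p ∈ V v, ∀ u w, α v (P v p) u w =
    fderiv ℝ (θ v) (P v p) u w - fderiv ℝ (θ v) (P v p) w u
  d0 : ∀ a b, (U a ∩ U b).Nonempty → ∀ p ∈ W a b, HasFDerivAt (f a b ∘ (Q a b).symm)
    ((θ b (P b p)).comp (fderiv ℝ (P b ∘ (Q a b).symm) (Q a b p)) -
      (θ a (P a p)).comp (fderiv ℝ (P a ∘ (Q a b).symm) (Q a b p))) (Q a b p)

end Vale.Agent.P267P
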