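import Vale.Agent.P267P.ZM

/-! P267, duality: geometric cycles with free base points. -/

open scoped Topology ContDiff
open Set Filter MeasureTheory

noncomputable section

namespace Vale.Agent.P267P

variable {E : Type} [NormedAddCommGroup E] [NormedSpace ℝ E] {X : Type} [TopologicalSpace X]

/-- A vertex chart `R` with the set `V`, an edge chart `Q` with the set `W`. -/
structure ZE (R Q : OpenPartialHomeomorph X E) (V W : Set X) : Prop where
  wv : W ⊆ V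
  sv : V ⊆ R.source
  sw : W ⊆ Q.source
  cv : Convex ℝ (R '' V)
  cw : Convex ℝ (Q '' W)
  sm : ∀ p ∈ W, ContDiffAt ℝ ∞ (R ∘ Q.symm) (Q p)

variable {R R' Q : OpenPartialHomeomorph X E} {V V' W : Set X} {x x' p q : X}

theorem ZE.seg (h : ZE R Q V W) (hp : p ∈ W) (hq : q ∈ W) {t : ℝ} (ht : t ∈ Icc (0 : ℝ) 1) :
    Q.symm (zseg Q p q t) ∈ W ∧ Q (Q.symm (zseg Q p q t)) = zseg Q p q t := by
  obtain ⟨y, y1, e1⟩ := h.cw.add_smul_sub_mem ⟨p, hp, rfl⟩ ⟨q, hq, rfl⟩ ht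
  rw [zseg, ← e1, Q.left_inv (h.sw y1)]
  exact ⟨y1, rfl⟩

theorem ZE.edge (h : ZE R Q V W) (hp : p ∈ W) (hq : q ∈ W) {t : ℝ} (ht : t ∈ Icc (0 : ℝ) 1) :
    ContDiffAt ℝ ∞ (R ∘ Q.symm) (zseg Q p q t) := by
  obtain ⟨k1, k2⟩ := h.seg hp hq ht
  rw [← k2]
  exact h.sm _ k1

theorem ZE.cd (h : ZE R Q V W) (x : X) (hp : p ∈ W) (hq : q ∈ W) {y : ℝ × ℝ}
    (hy : y.2 ∈ Icc (0 : ℝ) 1) : ContDiffAt ℝ ∞ (zcone R Q x p q) y :=
  contDiffAt_const.add (contDiffAt_fst.smul (((h.edge hp hq hy).comp y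
    ((zseg_cd Q p q).contDiffAt.comp y contDiffAt_snd)).sub contDiffAt_const))

theorem ZE.mem (h : ZE R Q V W) (hx : x ∈ V) (hp : p ∈ W) (hq : q ∈ W) {y : ℝ × ℝ}
    (hy : y ∈ Icc (0 : ℝ) 1 ×ˢ Icc (0 : ℝ) 1) : zcone R Q x p q y ∈ R '' V :=
  h.cv.add_smul_sub_mem ⟨x, hx, rfl⟩ ⟨_, h.wv (h.seg hp hq hy.2).1, rfl⟩ hy.1

theorem ZE.der (h : ZE R Q V W) (x : X) (hp : p ∈ W) (hq : q ∈ W) (s : ℝ) {t : ℝ}
    (ht : t ∈ Icc (0 : ℝ) 1) :
    fderiv ℝ (zcone R Q x p q) (s, t) (1, 0) = R (Q.symm (zseg Q p q t)) - R x ∧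
    fderiv ℝ (zcone R Q x p q) (s, t) (0, 1) =
      s • fderiv ℝ (R ∘ Q.symm) (zseg Q p q t) (Q q - Q p) := by
  have h1 := ((h.edge hp hq ht).differentiableAt (by simp)).hasFDerivAt.comp_hasDerivAt t
    (zseg_der Q p q t)
  have h2 : HasFDerivAt (zcone R Q x p q) _ (s, t) :=
    ((hasFDerivAt_fst (p := (s, t))).smul ((HasFDerivAt.comp (f := Prod.snd) (s, t) h1.hasFDerivAt
      hasFDerivAt_snd).sub_const (R x))).const_add (R x)
  rw [h2.fderiv]
  simp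

/-- `θ` is a primitive of `α` on `V`, in the chart `R`. -/
def ZPr (R : OpenPartialHomeomorph X E) (V : Set X) (α : E → E → E → ℂ) (θ : E → E →L[ℝ] ℂ) : Prop :=
  ∀ p ∈ V, ContDiffAt ℝ 1 θ (R p) ∧ ∀ u w, α (R p) u w = fderiv ℝ θ (R p) u w - fderiv ℝ θ (R p) w u

variable {α α' : E → E → E → ℂ} {θ θ' : E → E →L[ℝ] ℂ}

theorem ZE.sq (h : ZE R Q V W) (hz : ZPr R V α θ) (hx : x ∈ V) (hp : p ∈ W) (hq : q ∈ W) :
    zsq α (zcone R Q x p q) = (∫ t in (0 : ℝ)..1, θ (R (Q.symm (zseg Q p q t)))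
        (fderiv ℝ (R ∘ Q.symm) (zseg Q p q t) (Q q - Q p))) -
      (zray θ (R x) (R q) - zray θ (R x) (R p)) := by
  have e0 : Q.symm (zseg Q p q 0) = p := by simp [zseg, Q.left_inv (h.sw hp)]
  have e1 : Q.symm (zseg Q p q 1) = q := by simp [zseg, Q.left_inv (h.sw hq)]
  have k := stokes_sq (θ := θ) (T := zcone R Q x p q) (fun y hy => by
    obtain ⟨w, hw, e⟩ := h.mem hx hp hq hy
    exact e ▸ (hz w hw).1) fun y hy => (h.cd x hp hq hy.2).of_le (by norm_cast)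
  have i0 : (0 : ℝ) ∈ Icc (0 : ℝ) 1 := ⟨le_rfl, zero_le_one⟩
  have i1 : (1 : ℝ) ∈ Icc (0 : ℝ) 1 := ⟨zero_le_one, le_rfl⟩
  simp only [fun s => (h.der x hp hq s i0).1, fun s => (h.der x hp hq s i1).1, e0, e1] at k
  rw [intervalIntegral.integral_congr (f := fun t => θ (zcone R Q x p q (0, t))
      (fderiv ℝ (zcone R Q x p q) (0, t) (0, 1))) (g := fun _ => 0) fun t ht => by
      simp [(h.der x hp hq 0 (by simpa using ht)).2],
    intervalIntegral.integral_congr (f := fun t => θ (zcone R Q x p q (1, t))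
      (fderiv ℝ (zcone R Q x p q) (1, t) (0, 1))) (g := fun t => θ (R (Q.symm (zseg Q p q t)))
          (fderiv ℝ (R ∘ Q.symm) (zseg Q p q t) (Q q - Q p))) fun t ht => by
      simp [(h.der x hp hq 1 (by simpa using ht)).2, zcone]] at k
  simp only [zcone, e0, e1, intervalIntegral.integral_zero, sub_zero] at k
  rw [zray, zray, ← k, zsq]
  refine intervalIntegral.integral_congr fun s hs => intervalIntegral.integral_congr fun t ht => ?_
  obtain ⟨w, hw, e⟩ := h.mem hx hp hq (y := (s, t)) ⟨by simpa using hs, by simpa using ht⟩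
  have := (hz w hw).2
  rw [e] at this
  exact this _ _

theorem ZE.two (h : ZE R Q V W) (h' : ZE R' Q V' W) (hz : ZPr R V α θ) (hz' : ZPr R' V' α' θ')
    {f : X → ℂ} (hf : ∀ p ∈ W, HasFDerivAt (f ∘ Q.symm)
      ((θ' (R' p)).comp (fderiv ℝ (R' ∘ Q.symm) (Q p)) -
        (θ (R p)).comp (fderiv ℝ (R ∘ Q.symm) (Q p))) (Q p))
    (hx : x ∈ V) (hx' : x' ∈ V') (hp : p ∈ W) (hq : q ∈ W) :
    zsq α' (zcone R' Q x' p q) - zsq α (zcone R Q x p q) =
      f q - zray θ' (R' x') (R' q) + zray θ (R x) (R q) -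
        (f p - zray θ' (R' x') (R' p) + zray θ (R x) (R p)) := by
  have c : ∀ {R : OpenPartialHomeomorph X E} {V α θ}, ZE R Q V W → ZPr R V α θ →
      ContinuousOn (fun t => θ (R (Q.symm (zseg Q p q t)))
        (fderiv ℝ (R ∘ Q.symm) (zseg Q p q t) (Q q - Q p))) (uIcc 0 1) :=
    fun {R V α θ} h hz t ht => by
      rw [uIcc_of_le zero_le_one] at ht
      have k1 := h.edge hp hq ht
      have k2 := (zseg_cd Q p q).continuous.continuousAt (x := t)
      exact (((hz _ (h.wv (h.seg hp hq ht).1)).1.continuousAt.comp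
        (f := fun t => R (Q.symm (zseg Q p q t))) (k1.continuousAt.comp k2)).clm_apply
        ((((k1.fderiv_right (m := 0) (by norm_cast)).continuousAt.comp k2)).clm_apply
          continuousAt_const)).continuousWithinAt
  have k := intervalIntegral.integral_eq_sub_of_hasDerivAt (f := fun t =>
    f (Q.symm (zseg Q p q t))) (fun t ht => ?_) ((c h' hz').sub (c h hz)).intervalIntegrable
  · simp only [Pi.sub_apply] at k
    rw [intervalIntegral.integral_sub (c h' hz').intervalIntegrable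
      (c h hz).intervalIntegrable] at k
    rw [h'.sq hz' hx' hp hq, h.sq hz hx hp hq]
    simp only [zseg, zero_smul, add_zero, one_smul, add_sub_cancel, Q.left_inv (h.sw hp),
      Q.left_inv (h.sw hq)] at k ⊢
    linear_combination k
  · rw [uIcc_of_le zero_le_one] at ht
    obtain ⟨k1, k2⟩ := h.seg hp hq ht
    have k3 := hf _ k1
    rw [k2] at k3
    exact k3.comp_hasDerivAt t (zseg_der Q p q t)

/-- The integral over the geometric cycle, with free base points. -/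
theorem zint_eqG {ι : Type} [Fintype ι] {P : ι → OpenPartialHomeomorph X E}
    {Q : ι → ι → OpenPartialHomeomorph X E} {U V : ι → Set X} {W : ι → ι → Set X} {x1 : ι → X}
    {x2 : ι → ι → X} {x3 : ι → ι → ι → X} {α : ι → E → E → E → ℂ} {θ : ι → E → E →L[ℝ] ℂ}
    {f : ι → ι → X → ℂ} {z : ι → ι → ι → ℤ} (hc : ZCyc U z)
    (h : ∀ a b, (U a ∩ U b).Nonempty → ZE (P a) (Q a b) (V a) (W a b) ∧ ZE (P b) (Q a b) (V b) (W a b))
    (h1 : ∀ a, x1 a ∈ V a) (h2 : ∀ a b, x2 a b ∈ W a b)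
    (h3 : ∀ a b c, (U a ∩ U b ∩ U c).Nonempty → x3 a b c ∈ W a b ∩ W b c ∩ W a c)
    (hz : ∀ v, ZPr (P v) (V v) (α v) (θ v))
    (hf : ∀ a b, (U a ∩ U b).Nonempty → ∀ p ∈ W a b, HasFDerivAt (f a b ∘ (Q a b).symm)
      ((θ b (P b p)).comp (fderiv ℝ (P b ∘ (Q a b).symm) (Q a b p)) -
        (θ a (P a p)).comp (fderiv ℝ (P a ∘ (Q a b).symm) (Q a b p))) (Q a b p)) :
    zint P Q x1 x2 x3 z α = ∑ a, ∑ b, ∑ c, (z a b c : ℂ) *
      (f b c (x3 a b c) - f a c (x3 a b c) + f a b (x3 a b c)) := by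
  rw [← sub_eq_zero, ← hc.pair fun a b => -(f a b (x2 a b) -
    zray (θ b) (P b (x1 b)) (P b (x2 a b)) + zray (θ a) (P a (x1 a)) (P a (x2 a b))), zint]
  simp only [← Finset.sum_sub_distrib]
  refine Finset.sum_congr rfl fun a _ => Finset.sum_congr rfl fun b _ =>
    Finset.sum_congr rfl fun c _ => ?_
  by_cases h0 : z a b c = 0
  · simp [h0]
  obtain ⟨⟨k1, k2⟩, k3⟩ := h3 a b c (hc.supp a b c h0)
  obtain ⟨y, ⟨y1, y2⟩, y3⟩ := hc.supp a b c h0
  have k := fun a b (n : (U a ∩ U b).Nonempty) q (hq : q ∈ W a b) => (h a b n).1.two (h a b n).2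
    (hz a) (hz b) (hf a b n) (h1 a) (h1 b) (h2 a b) hq
  rw [zedge, zedge, zedge, k b c ⟨y, y2, y3⟩ _ k2, k a c ⟨y, y1, y3⟩ _ k3, k a b ⟨y, y1, y2⟩ _ k1]
  ring

end Vale.Agent.P267P
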