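import Vale.Agent.P267P.ZD

/-! P267, duality: the integral over a geometric cycle and the zigzag. -/

open scoped Topology ContDiff
open Set Filter MeasureTheory

noncomputable section

namespace Vale.Agent.P267P

variable {E : Type} [NormedAddCommGroup E] [NormedSpace ℝ E] {X ι : Type} [TopologicalSpace X]
  {P : ι → OpenPartialHomeomorph X E} {Q : ι → ι → OpenPartialHomeomorph X E} {U V : ι → Set X}
  {W : ι → ι → Set X} {x1 : ι → X} {x2 : ι → ι → X}
  {x3 : ι → ι → ι → X} {α : ι → E → E → E → ℂ} {θ : ι → E → E →L[ℝ] ℂ} {f : ι → ι → X → ℂ}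

theorem zseg_mem (h : ZCov P Q U V W) {a b : ι} {p q : X} (hp : p ∈ U a ∩ U b) (hq : q ∈ U a ∩ U b)
    {t : ℝ} (ht : t ∈ Icc (0 : ℝ) 1) : (Q a b).symm (zseg (Q a b) p q t) ∈ W a b ∧
      Q a b ((Q a b).symm (zseg (Q a b) p q t)) = zseg (Q a b) p q t := by
  obtain ⟨y, y1, e1⟩ := (h.cw a b).add_smul_sub_mem ⟨p, h.uw a b hp, rfl⟩ ⟨q, h.uw a b hq, rfl⟩ ht
  rw [zseg, ← e1, (Q a b).left_inv (h.sw a b y1)]
  exact ⟨y1, rfl⟩

theorem zseg_mem' (h : ZCov P Q U V W) {a b v : ι} (hv : v = a ∨ v = b) {p q : X}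
    (hp : p ∈ U a ∩ U b) (hq : q ∈ U a ∩ U b) {t : ℝ} (ht : t ∈ Icc (0 : ℝ) 1) :
    (Q a b).symm (zseg (Q a b) p q t) ∈ V v := by
  have k := h.wv a b ⟨p, hp⟩ (zseg_mem h hp hq ht).1
  rcases hv with rfl | rfl
  exacts [k.1, k.2]

theorem zseg_der (Q : OpenPartialHomeomorph X E) (p q : X) (t : ℝ) :
    HasDerivAt (zseg Q p q) (Q q - Q p) t := by
  have := ((hasDerivAt_id t).smul_const (Q q - Q p)).const_add (Q p)
  rwa [one_smul] at this

theorem zseg_cd (Q : OpenPartialHomeomorph X E) (p q : X) : ContDiff ℝ ∞ (zseg Q p q) :=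
  contDiff_const.add (contDiff_id.smul contDiff_const)

/-- The edge in the chart of a vertex. -/
theorem zedge_cd (h : ZCov P Q U V W) {a b v : ι} (hv : v = a ∨ v = b) {p q : X} (hp : p ∈ U a ∩ U b)
    (hq : q ∈ U a ∩ U b) {t : ℝ} (ht : t ∈ Icc (0 : ℝ) 1) :
    ContDiffAt ℝ ∞ (P v ∘ (Q a b).symm) (zseg (Q a b) p q t) := by
  obtain ⟨k1, k2⟩ := zseg_mem h hp hq ht
  rw [← k2]
  exact h.sm v a b _ ⟨h.sw a b k1, h.sv v (zseg_mem' h hv hp hq ht)⟩

theorem zcone_cd (h : ZCov P Q U V W) {a b v : ι} (hv : v = a ∨ v = b) (x : X) {p q : X}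
    (hp : p ∈ U a ∩ U b) (hq : q ∈ U a ∩ U b) {y : ℝ × ℝ} (hy : y.2 ∈ Icc (0 : ℝ) 1) :
    ContDiffAt ℝ ∞ (zcone (P v) (Q a b) x p q) y :=
  contDiffAt_const.add (contDiffAt_fst.smul (((zedge_cd h hv hp hq hy).comp y
    ((zseg_cd (Q a b) p q).contDiffAt.comp y contDiffAt_snd)).sub contDiffAt_const))

theorem zcone_mem (h : ZCov P Q U V W) {a b v : ι} (hv : v = a ∨ v = b) {x p q : X} (hx : x ∈ U v)
    (hp : p ∈ U a ∩ U b) (hq : q ∈ U a ∩ U b) {y : ℝ × ℝ}
    (hy : y ∈ Icc (0 : ℝ) 1 ×ˢ Icc (0 : ℝ) 1) : zcone (P v) (Q a b) x p q y ∈ P v '' V v :=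
  (h.cv v).add_smul_sub_mem ⟨x, h.uv v hx, rfl⟩ ⟨_, zseg_mem' h hv hp hq hy.2, rfl⟩ hy.1

theorem zcone_der (h : ZCov P Q U V W) {a b v : ι} (hv : v = a ∨ v = b) (x : X) {p q : X}
    (hp : p ∈ U a ∩ U b) (hq : q ∈ U a ∩ U b) (s : ℝ) {t : ℝ} (ht : t ∈ Icc (0 : ℝ) 1) :
    fderiv ℝ (zcone (P v) (Q a b) x p q) (s, t) (1, 0) =
      P v ((Q a b).symm (zseg (Q a b) p q t)) - P v x ∧
    fderiv ℝ (zcone (P v) (Q a b) x p q) (s, t) (0, 1) =
      s • fderiv ℝ (P v ∘ (Q a b).symm) (zseg (Q a b) p q t) (Q a b q - Q a b p) := by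
  have h1 := ((zedge_cd h hv hp hq ht).differentiableAt (by simp)).hasFDerivAt.comp_hasDerivAt t
    (zseg_der (Q a b) p q t)
  have h2 : HasFDerivAt (zcone (P v) (Q a b) x p q) _ (s, t) :=
    ((hasFDerivAt_fst (p := (s, t))).smul ((HasFDerivAt.comp (f := Prod.snd) (s, t) h1.hasFDerivAt
      hasFDerivAt_snd).sub_const (P v x))).const_add (P v x)
  rw [h2.fderiv]
  simp

/-- The integral along a ray. -/
def zray (θ : E → E →L[ℝ] ℂ) (x y : E) : ℂ := ∫ s in (0 : ℝ)..1, θ (x + s • (y - x)) (y - x)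

theorem zsq_cone (h : ZCov P Q U V W) (hz : ZZig P Q U V W α θ f) {a b v : ι} (hv : v = a ∨ v = b) {x p q : X}
    (hx : x ∈ U v) (hp : p ∈ U a ∩ U b) (hq : q ∈ U a ∩ U b) :
    zsq (α v) (zcone (P v) (Q a b) x p q) = (∫ t in (0 : ℝ)..1,
      θ v (P v ((Q a b).symm (zseg (Q a b) p q t)))
        (fderiv ℝ (P v ∘ (Q a b).symm) (zseg (Q a b) p q t) (Q a b q - Q a b p))) -
      (zray (θ v) (P v x) (P v q) - zray (θ v) (P v x) (P v p)) := by
  have s0 := (h.uw a b).trans (h.sw a b)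
  have e0 : (Q a b).symm (zseg (Q a b) p q 0) = p := by simp [zseg, (Q a b).left_inv (s0 hp)]
  have e1 : (Q a b).symm (zseg (Q a b) p q 1) = q := by simp [zseg, (Q a b).left_inv (s0 hq)]
  have k := stokes_sq (θ := θ v) (T := zcone (P v) (Q a b) x p q) (fun y hy => by
    obtain ⟨w, hw, e⟩ := zcone_mem h hv hx hp hq hy
    exact e ▸ hz.sm v w hw) fun y hy => (zcone_cd h hv x hp hq hy.2).of_le (by norm_cast)
  have i0 : (0 : ℝ) ∈ Icc (0 : ℝ) 1 := ⟨le_rfl, zero_le_one⟩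
  have i1 : (1 : ℝ) ∈ Icc (0 : ℝ) 1 := ⟨zero_le_one, le_rfl⟩
  simp only [fun s => (zcone_der h hv x hp hq s i0).1, fun s => (zcone_der h hv x hp hq s i1).1,
    e0, e1] at k
  rw [intervalIntegral.integral_congr (f := fun t => θ v (zcone (P v) (Q a b) x p q (0, t))
      (fderiv ℝ (zcone (P v) (Q a b) x p q) (0, t) (0, 1))) (g := fun _ => 0) fun t ht => by
      simp [(zcone_der h hv x hp hq 0 (by simpa using ht)).2],
    intervalIntegral.integral_congr (f := fun t => θ v (zcone (P v) (Q a b) x p q (1, t))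
      (fderiv ℝ (zcone (P v) (Q a b) x p q) (1, t) (0, 1))) (g := fun t =>
        θ v (P v ((Q a b).symm (zseg (Q a b) p q t)))
          (fderiv ℝ (P v ∘ (Q a b).symm) (zseg (Q a b) p q t) (Q a b q - Q a b p))) fun t ht => by
      simp [(zcone_der h hv x hp hq 1 (by simpa using ht)).2, zcone]] at k
  simp only [zcone, e0, e1, intervalIntegral.integral_zero, sub_zero] at k
  rw [zray, zray, ← k, zsq]
  refine intervalIntegral.integral_congr fun s hs => intervalIntegral.integral_congr fun t ht => ?_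
  obtain ⟨w, hw, e⟩ := zcone_mem h hv hx hp hq (y := (s, t))
    ⟨by simpa using hs, by simpa using ht⟩
  have := hz.d1 v w hw
  rw [e] at this
  exact this _ _

theorem zedge_eq (h : ZCov P Q U V W) (hx : ZPts U x1 x2 x3) (hz : ZZig P Q U V W α θ f) {a b : ι} {q : X}
    (hq : q ∈ U a ∩ U b) : zedge P Q x1 x2 α a b q = f a b q - zray (θ b) (P b (x1 b)) (P b q) +
      zray (θ a) (P a (x1 a)) (P a q) - (f a b (x2 a b) - zray (θ b) (P b (x1 b)) (P b (x2 a b)) +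
        zray (θ a) (P a (x1 a)) (P a (x2 a b))) := by
  have hp := hx.m2 a b ⟨q, hq⟩
  set p := x2 a b
  have s0 := (h.uw a b).trans (h.sw a b)
  have c : ∀ v, v = a ∨ v = b → ContinuousOn (fun t => θ v (P v ((Q a b).symm (zseg (Q a b) p q t)))
      (fderiv ℝ (P v ∘ (Q a b).symm) (zseg (Q a b) p q t) (Q a b q - Q a b p))) (uIcc 0 1) :=
    fun v hv t ht => by
      rw [uIcc_of_le zero_le_one] at ht
      have k1 := zedge_cd h hv hp hq ht
      have k2 := (zseg_cd (Q a b) p q).continuous.continuousAt (x := t)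
      have k3 := zseg_mem' h hv hp hq ht
      exact (((hz.sm v _ k3).continuousAt.comp (f := fun t => P v ((Q a b).symm (zseg (Q a b) p q t)))
        (k1.continuousAt.comp k2)).clm_apply ((((k1.fderiv_right (m := 0)
          (by norm_cast)).continuousAt.comp k2)).clm_apply continuousAt_const)).continuousWithinAt
  have k := intervalIntegral.integral_eq_sub_of_hasDerivAt (f := fun t =>
    f a b ((Q a b).symm (zseg (Q a b) p q t))) (fun t ht => ?_)
    ((c b (.inr rfl)).sub (c a (.inl rfl))).intervalIntegrable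
  · simp only [Pi.sub_apply] at k
    rw [intervalIntegral.integral_sub (c b (.inr rfl)).intervalIntegrable
      (c a (.inl rfl)).intervalIntegrable] at k
    rw [zedge, zsq_cone h hz (.inr rfl) (hx.m1 b ⟨q, hq.2⟩) hp hq,
      zsq_cone h hz (.inl rfl) (hx.m1 a ⟨q, hq.1⟩) hp hq]
    simp only [zseg, zero_smul, add_zero, one_smul, add_sub_cancel, (Q a b).left_inv (s0 hp),
      (Q a b).left_inv (s0 hq)] at k ⊢
    linear_combination k
  · rw [uIcc_of_le zero_le_one] at ht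
    obtain ⟨k1, k2⟩ := zseg_mem h hp hq ht
    have k3 := hz.d0 a b ⟨q, hq⟩ _ k1
    rw [k2] at k3
    exact k3.comp_hasDerivAt t (zseg_der (Q a b) p q t)

variable [Fintype ι] {z : ι → ι → ι → ℤ}

omit [TopologicalSpace X] in
theorem ZCyc.pair (hc : ZCyc U z) (g : ι → ι → ℂ) :
    ∑ a, ∑ b, ∑ c, (z a b c : ℂ) * (g b c - g a c + g a b) = 0 := by
  have e1 : ∑ a, ∑ b, ∑ c, (z a b c : ℂ) * g b c = ∑ a, ∑ b, ∑ c, (z c a b : ℂ) * g a b := by
    rw [Finset.sum_comm]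
    exact Finset.sum_congr rfl fun _ _ => Finset.sum_comm
  have e2 : ∑ a, ∑ b, ∑ c, (z a b c : ℂ) * g a c = ∑ a, ∑ b, ∑ c, (z a c b : ℂ) * g a b :=
    Finset.sum_congr rfl fun _ _ => Finset.sum_comm
  simp only [mul_add, mul_sub, Finset.sum_add_distrib, Finset.sum_sub_distrib]
  rw [e1, e2]
  simp only [← Finset.sum_add_distrib, ← Finset.sum_sub_distrib, ← sub_mul, ← add_mul,
    ← Finset.sum_mul]
  refine Finset.sum_eq_zero fun a _ => Finset.sum_eq_zero fun b _ => ?_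
  have := congrArg (Int.cast : ℤ → ℂ) (hc.cyc a b)
  push_cast at this
  rw [this, zero_mul]

/-- The integral over the geometric cycle is the pairing with the cochain of any zigzag. -/
theorem zint_eq (h : ZCov P Q U V W) (hx : ZPts U x1 x2 x3) (hc : ZCyc U z) (hz : ZZig P Q U V W α θ f) :
    zint P Q x1 x2 x3 z α = ∑ a, ∑ b, ∑ c, (z a b c : ℂ) *
      (f b c (x3 a b c) - f a c (x3 a b c) + f a b (x3 a b c)) := by
  rw [← sub_eq_zero, ← hc.pair fun a b => -(f a b (x2 a b) -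
    zray (θ b) (P b (x1 b)) (P b (x2 a b)) + zray (θ a) (P a (x1 a)) (P a (x2 a b))), zint]
  simp only [← Finset.sum_sub_distrib]
  refine Finset.sum_congr rfl fun a _ => Finset.sum_congr rfl fun b _ =>
    Finset.sum_congr rfl fun c _ => ?_
  by_cases h0 : z a b c = 0
  · simp [h0]
  obtain ⟨⟨k1, k2⟩, k3⟩ := hx.m3 a b c (hc.supp a b c h0)
  rw [zedge_eq h hx hz ⟨k2, k3⟩, zedge_eq h hx hz ⟨k1, k3⟩, zedge_eq h hx hz ⟨k1, k2⟩]
  ring

end Vale.Agent.P267P
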