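import Vale.Agent.P267P.ZM

/-! P267, duality: zigzags that are smooth only near the geometric cycle. -/

open scoped Topology ContDiff
open Set Filter MeasureTheory

noncomputable section

namespace Vale.Agent.P267P

variable {E : Type} [NormedAddCommGroup E] [NormedSpace ℝ E] {X ι : Type} [TopologicalSpace X]

/-- The points of the squares of the geometric cycles. -/
def zsup (P : ι → OpenPartialHomeomorph X E) (Q : ι → ι → OpenPartialHomeomorph X E)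
    (U : ι → Set X) (x1 : ι → X) (x2 : ι → ι → X) (x3 : ι → ι → ι → X) : Set X :=
  ⋃ a, ⋃ b, ⋃ v ∈ ({a, b} : Set ι), ⋃ m : ι × ι × ι, ⋃ _ : x3 m.1 m.2.1 m.2.2 ∈ U a ∩ U b,
    (fun y => (P v).symm (zcone (P v) (Q a b) (x1 v) (x2 a b) (x3 m.1 m.2.1 m.2.2) y)) ''
      (Icc (0 : ℝ) 1 ×ˢ Icc (0 : ℝ) 1)

/-- A zigzag on the set `S`. -/
structure ZZigS (P : ι → OpenPartialHomeomorph X E) (Q : ι → ι → OpenPartialHomeomorph X E)
    (U V : ι → Set X) (W : ι → ι → Set X) (S : Set X) (α : ι → E → E → E → ℂ)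
    (θ : ι → E → E →L[ℝ] ℂ) (f : ι → ι → X → ℂ) : Prop where
  sm : ∀ v, ∀ p ∈ V v, p ∈ S → ContDiffAt ℝ 1 (θ v) (P v p)
  d1 : ∀ v, ∀ p ∈ V v, p ∈ S → ∀ u w, α v (P v p) u w =
    fderiv ℝ (θ v) (P v p) u w - fderiv ℝ (θ v) (P v p) w u
  d0 : ∀ a b, (U a ∩ U b).Nonempty → ∀ p ∈ W a b, p ∈ S → HasFDerivAt (f a b ∘ (Q a b).symm)
    ((θ b (P b p)).comp (fderiv ℝ (P b ∘ (Q a b).symm) (Q a b p)) -
      (θ a (P a p)).comp (fderiv ℝ (P a ∘ (Q a b).symm) (Q a b p))) (Q a b p)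

variable {P : ι → OpenPartialHomeomorph X E} {Q : ι → ι → OpenPartialHomeomorph X E}
  {U V : ι → Set X} {W : ι → ι → Set X} {x1 : ι → X} {x2 : ι → ι → X} {x3 : ι → ι → ι → X}
  {α : ι → E → E → E → ℂ} {θ : ι → E → E →L[ℝ] ℂ} {f : ι → ι → X → ℂ} {S : Set X}

theorem zsup_mem {a b v : ι} (hv : v = a ∨ v = b) {m : ι × ι × ι}
    (hq : x3 m.1 m.2.1 m.2.2 ∈ U a ∩ U b) {y : ℝ × ℝ} (hy : y ∈ Icc (0 : ℝ) 1 ×ˢ Icc (0 : ℝ) 1) :
    (P v).symm (zcone (P v) (Q a b) (x1 v) (x2 a b) (x3 m.1 m.2.1 m.2.2) y) ∈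
      zsup P Q U x1 x2 x3 := by
  simp only [zsup, mem_iUnion]
  exact ⟨a, b, v, hv, m, hq, y, hy, rfl⟩

theorem zcone_pt (h : ZCov P Q U V W) (hx : ZPts U x1 x2 x3) {a b v : ι} (hv : v = a ∨ v = b)
    {m : ι × ι × ι} (hq : x3 m.1 m.2.1 m.2.2 ∈ U a ∩ U b) {y : ℝ × ℝ}
    (hy : y ∈ Icc (0 : ℝ) 1 ×ˢ Icc (0 : ℝ) 1) : ∃ w ∈ V v, w ∈ zsup P Q U x1 x2 x3 ∧
      P v w = zcone (P v) (Q a b) (x1 v) (x2 a b) (x3 m.1 m.2.1 m.2.2) y := by
  have k : x1 v ∈ U v := hx.m1 v ⟨_, by rcases hv with rfl | rfl; exacts [hq.1, hq.2]⟩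
  obtain ⟨w, hw, e⟩ := zcone_mem h hv k (hx.m2 a b ⟨_, hq⟩) hq hy
  refine ⟨w, hw, ?_, e⟩
  have := zsup_mem (P := P) (Q := Q) (x1 := x1) (x2 := x2) hv hq hy
  rwa [← e, (P v).left_inv (h.sv v hw)] at this

theorem zseg_sup (h : ZCov P Q U V W) (hx : ZPts U x1 x2 x3) {a b : ι} {m : ι × ι × ι}
    (hq : x3 m.1 m.2.1 m.2.2 ∈ U a ∩ U b) {t : ℝ} (ht : t ∈ Icc (0 : ℝ) 1) :
    (Q a b).symm (zseg (Q a b) (x2 a b) (x3 m.1 m.2.1 m.2.2) t) ∈ zsup P Q U x1 x2 x3 := by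
  have := zsup_mem (P := P) (Q := Q) (x1 := x1) (x2 := x2) (.inl rfl) hq (y := (1, t))
    ⟨⟨zero_le_one, le_rfl⟩, ht⟩
  rwa [zcone, one_smul, add_sub_cancel,
    (P a).left_inv (h.sv a (zseg_mem' h (.inl rfl) (hx.m2 a b ⟨_, hq⟩) hq ht))] at this

theorem zsq_coneS (h : ZCov P Q U V W) (hx : ZPts U x1 x2 x3) (hS : zsup P Q U x1 x2 x3 ⊆ S)
    (hz : ZZigS P Q U V W S α θ f) {a b v : ι} (hv : v = a ∨ v = b) {m : ι × ι × ι} {p q : X}
    (ep : x2 a b = p) (eq : x3 m.1 m.2.1 m.2.2 = q) (hq : q ∈ U a ∩ U b) :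
    zsq (α v) (zcone (P v) (Q a b) (x1 v) p q) = (∫ t in (0 : ℝ)..1,
      θ v (P v ((Q a b).symm (zseg (Q a b) p q t)))
        (fderiv ℝ (P v ∘ (Q a b).symm) (zseg (Q a b) p q t) (Q a b q - Q a b p))) -
      (zray (θ v) (P v (x1 v)) (P v q) - zray (θ v) (P v (x1 v)) (P v p)) := by
  have hp : p ∈ U a ∩ U b := ep ▸ hx.m2 a b ⟨q, hq⟩
  have s0 := (h.uw a b).trans (h.sw a b)
  have e0 : (Q a b).symm (zseg (Q a b) p q 0) = p := by simp [zseg, (Q a b).left_inv (s0 hp)]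
  have e1 : (Q a b).symm (zseg (Q a b) p q 1) = q := by simp [zseg, (Q a b).left_inv (s0 hq)]
  have pt := fun y hy => zcone_pt h hx hv (m := m) (eq ▸ hq) (y := y) hy
  rw [ep, eq] at pt
  set x := x1 v
  have k := stokes_sq (θ := θ v) (T := zcone (P v) (Q a b) x p q) (fun y hy => by
    obtain ⟨w, hw, hw', e⟩ := pt y hy
    exact e ▸ hz.sm v w hw (hS hw')) fun y hy => (zcone_cd h hv x hp hq hy.2).of_le (by norm_cast)
  have i0 : (0 : ℝ) ∈ Icc (0 : ℝ) 1 := ⟨le_rfl, zero_le_one⟩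
  have i1 : (1 : ℝ) ∈ Icc (0 : ℝ) 1 := ⟨zero_le_one, le_rfl⟩
  simp only [fun s => (zcone_der h hv x hp hq s i0).1, fun s => (zcone_der h hv x hp hq s i1).1,
    e0, e1] at k
  rw [intervalIntegral.integral_congr (f := fun t => θ v (zcone (P v) (Q a b) x p q (0, t))
      (fderiv ℝ (zcone (P v) (Q a b) x p q) (0, t) (0, 1))) (g := fun _ => 0) fun t ht => by
      simp [(zcone_der h hv x hp hq 0 (by simpa using ht)).2],
    intervalIntegral.integral_congr (f := fun t => θ v (zcone (P v) (Q a b) x p q (1, t))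
      (fderiv ℝ (zcone (P v) (Q a b) x p q) (1, t) (0, 1))) (g := fun t =>
        θ v (P v ((Q a b).symm (zseg (Q a b) p q t)))
          (fderiv ℝ (P v ∘ (Q a b).symm) (zseg (Q a b) p q t) (Q a b q - Q a b p))) fun t ht => by
      simp [(zcone_der h hv x hp hq 1 (by simpa using ht)).2, zcone]] at k
  simp only [zcone, e0, e1, intervalIntegral.integral_zero, sub_zero] at k
  rw [zray, zray, ← k, zsq]
  refine intervalIntegral.integral_congr fun s hs => intervalIntegral.integral_congr fun t ht => ?_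
  obtain ⟨w, hw, hw', e⟩ := pt (s, t) ⟨by simpa using hs, by simpa using ht⟩
  have := hz.d1 v w hw (hS hw')
  rw [e] at this
  exact this _ _

theorem zedge_eqS (h : ZCov P Q U V W) (hx : ZPts U x1 x2 x3) (hS : zsup P Q U x1 x2 x3 ⊆ S)
    (hz : ZZigS P Q U V W S α θ f) {a b : ι} (m : ι × ι × ι) {q : X} (eq : x3 m.1 m.2.1 m.2.2 = q)
    (hq : q ∈ U a ∩ U b) : zedge P Q x1 x2 α a b q = f a b q - zray (θ b) (P b (x1 b)) (P b q) +
      zray (θ a) (P a (x1 a)) (P a q) - (f a b (x2 a b) - zray (θ b) (P b (x1 b)) (P b (x2 a b)) +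
        zray (θ a) (P a (x1 a)) (P a (x2 a b))) := by
  have hp := hx.m2 a b ⟨q, hq⟩
  have sg := fun t ht => hS (zseg_sup h hx (m := m) (eq ▸ hq) (t := t) ht)
  rw [eq] at sg
  have z1 := zsq_coneS h hx hS hz (.inr rfl) rfl eq hq
  have z2 := zsq_coneS h hx hS hz (.inl rfl) rfl eq hq
  set p := x2 a b
  have s0 := (h.uw a b).trans (h.sw a b)
  have c : ∀ v, v = a ∨ v = b → ContinuousOn (fun t => θ v (P v ((Q a b).symm (zseg (Q a b) p q t)))
      (fderiv ℝ (P v ∘ (Q a b).symm) (zseg (Q a b) p q t) (Q a b q - Q a b p))) (uIcc 0 1) :=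
    fun v hv t ht => by
      rw [uIcc_of_le zero_le_one] at ht
      have k1 := zedge_cd h hv hp hq ht
      have k2 := (zseg_cd (Q a b) p q).continuous.continuousAt (x := t)
      have k3 := zseg_mem' h hv hp hq ht
      exact (((hz.sm v _ k3 (sg t ht)).continuousAt.comp
        (f := fun t => P v ((Q a b).symm (zseg (Q a b) p q t)))
        (k1.continuousAt.comp k2)).clm_apply ((((k1.fderiv_right (m := 0)
          (by norm_cast)).continuousAt.comp k2)).clm_apply continuousAt_const)).continuousWithinAt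
  have k := intervalIntegral.integral_eq_sub_of_hasDerivAt (f := fun t =>
    f a b ((Q a b).symm (zseg (Q a b) p q t))) (fun t ht => ?_)
    ((c b (.inr rfl)).sub (c a (.inl rfl))).intervalIntegrable
  · simp only [Pi.sub_apply] at k
    rw [intervalIntegral.integral_sub (c b (.inr rfl)).intervalIntegrable
      (c a (.inl rfl)).intervalIntegrable] at k
    rw [zedge, z1, z2]
    simp only [zseg, zero_smul, add_zero, one_smul, add_sub_cancel, (Q a b).left_inv (s0 hp),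
      (Q a b).left_inv (s0 hq)] at k ⊢
    linear_combination k
  · rw [uIcc_of_le zero_le_one] at ht
    obtain ⟨k1, k2⟩ := zseg_mem h hp hq ht
    have k3 := hz.d0 a b ⟨q, hq⟩ _ k1 (sg t ht)
    rw [k2] at k3
    exact k3.comp_hasDerivAt t (zseg_der (Q a b) p q t)

variable [Fintype ι] {z : ι → ι → ι → ℤ}

/-- The integral over the geometric cycle, for a zigzag given near the squares. -/
theorem zint_eqS (h : ZCov P Q U V W) (hx : ZPts U x1 x2 x3) (hc : ZCyc U z)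
    (hS : zsup P Q U x1 x2 x3 ⊆ S) (hz : ZZigS P Q U V W S α θ f) :
    zint P Q x1 x2 x3 z α = ∑ a, ∑ b, ∑ c, (z a b c : ℂ) *
      (f b c (x3 a b c) - f a c (x3 a b c) + f a b (x3 a b c)) := by
  rw [← sub_eq_zero, ← hc.pair fun a b => -(f a b (x2 a b) -
    zray (θ b) (P b (x1 b)) (P b (x2 a b)) + zray (θ a) (P a (x1 a)) (P a (x2 a b))), zint]
  simp only [← Finset.sum_sub_distrib]
  refine Finset.sum_congr rfl fun a _ => Finset.sum_congr rfl fun b _ =>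
    Finset.sum_congr rfl fun c _ => ?_
  by_cases h0 : z a b c = 0
  · simp [h0]
  obtain ⟨⟨k1, k2⟩, k3⟩ := hx.m3 a b c (hc.supp a b c h0)
  rw [zedge_eqS h hx hS hz (a, b, c) rfl ⟨k2, k3⟩, zedge_eqS h hx hS hz (a, b, c) rfl ⟨k1, k3⟩,
    zedge_eqS h hx hS hz (a, b, c) rfl ⟨k1, k2⟩]
  ring

/-- The geometric cycle kills exact forms. -/
theorem zint_exact (h : ZCov P Q U V W) (hx : ZPts U x1 x2 x3) (hc : ZCyc U z)
    (hS : zsup P Q U x1 x2 x3 ⊆ S) (sm : ∀ v, ∀ p ∈ V v, p ∈ S → ContDiffAt ℝ 1 (θ v) (P v p))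
    (d1 : ∀ v, ∀ p ∈ V v, p ∈ S → ∀ u w, α v (P v p) u w =
      fderiv ℝ (θ v) (P v p) u w - fderiv ℝ (θ v) (P v p) w u)
    (d0 : ∀ a b, (U a ∩ U b).Nonempty → ∀ p ∈ W a b, p ∈ S →
      (θ b (P b p)).comp (fderiv ℝ (P b ∘ (Q a b).symm) (Q a b p)) =
        (θ a (P a p)).comp (fderiv ℝ (P a ∘ (Q a b).symm) (Q a b p))) :
    zint P Q x1 x2 x3 z α = 0 := by
  rw [zint_eqS h hx hc hS (f := fun _ _ _ => 0) ⟨sm, d1, fun a b hab p hp hs => by
    rw [d0 a b hab p hp hs, sub_self]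
    exact hasFDerivAt_const (0 : ℂ) _⟩]
  simp

/-- The integral depends only on the values on the squares. -/
theorem zint_congr (h : ZCov P Q U V W) (hx : ZPts U x1 x2 x3) (hc : ZCyc U z)
    {β : ι → E → E → E → ℂ}
    (e : ∀ v, ∀ p ∈ V v, p ∈ zsup P Q U x1 x2 x3 → α v (P v p) = β v (P v p)) :
    zint P Q x1 x2 x3 z α = zint P Q x1 x2 x3 z β := by
  have k : ∀ a b v (m : ι × ι × ι), v = a ∨ v = b → x3 m.1 m.2.1 m.2.2 ∈ U a ∩ U b →
      zsq (α v) (zcone (P v) (Q a b) (x1 v) (x2 a b) (x3 m.1 m.2.1 m.2.2)) =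
      zsq (β v) (zcone (P v) (Q a b) (x1 v) (x2 a b) (x3 m.1 m.2.1 m.2.2)) :=
    fun a b v m hv hq => intervalIntegral.integral_congr fun s hs =>
      intervalIntegral.integral_congr fun t ht => by
        obtain ⟨w, hw, hw', e'⟩ := zcone_pt h hx hv hq (y := (s, t))
          ⟨by simpa using hs, by simpa using ht⟩
        simp only [← e', e v w hw hw']
  refine Finset.sum_congr rfl fun a _ => Finset.sum_congr rfl fun b _ =>
    Finset.sum_congr rfl fun c _ => ?_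
  by_cases h0 : z a b c = 0
  · simp [h0]
  obtain ⟨⟨k1, k2⟩, k3⟩ := hx.m3 a b c (hc.supp a b c h0)
  simp only [zedge, k b c _ (a, b, c) (.inl rfl) ⟨k2, k3⟩, k b c _ (a, b, c) (.inr rfl) ⟨k2, k3⟩,
    k a c _ (a, b, c) (.inl rfl) ⟨k1, k3⟩, k a c _ (a, b, c) (.inr rfl) ⟨k1, k3⟩,
    k a b _ (a, b, c) (.inl rfl) ⟨k1, k2⟩, k a b _ (a, b, c) (.inr rfl) ⟨k1, k2⟩]

end Vale.Agent.P267P
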